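import Crest.Agent.R299.Defs

open Finset Matrix

namespace Crest.Agent.R299

variable {Ω K K' : Type} [Fintype Ω]

theorem cE_mulVec (κ : Ω → K) (f : Ω → ℝ) (x : Ω) [DecidablePred fun y => κ y = κ x] :
    (cE κ *ᵥ f) x
      = (∑ y with κ y = κ x, f y) / ((univ.filter fun y => κ y = κ x).card : ℝ) := by
  simp only [cE, mulVec, dotProduct, of_apply, ite_mul, zero_mul, Finset.sum_div]
  rw [Finset.sum_filter]
  refine Finset.sum_congr rfl fun y _ => ?_
  split_ifs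
  · rw [div_eq_inv_mul]; congr
  · rfl

theorem card_cls_pos (κ : Ω → K) (x : Ω) [DecidablePred fun y => κ y = κ x] :
    (0 : ℝ) < ((univ.filter fun y => κ y = κ x).card : ℝ) := by
  exact_mod_cast Finset.card_pos.2 ⟨x, by simp⟩

theorem cE_transpose (κ : Ω → K) : (cE κ)ᵀ = cE κ := by
  ext x y
  simp only [cE, transpose_apply, of_apply]
  by_cases h : κ x = κ y
  · rw [if_pos h, if_pos h.symm]
    congr 3
    ext z; simp [h]
  · simp [h, Ne.symm h]

theorem cE_congr {κ : Ω → K} {κ' : Ω → K'} (h : ∀ x y, κ x = κ y ↔ κ' x = κ' y) :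
    cE κ = cE κ' := by
  ext x y
  simp only [cE, of_apply]
  by_cases hxy : κ y = κ x
  · rw [if_pos hxy, if_pos ((h _ _).1 hxy)]
    congr 3
    ext z; simp [h]
  · rw [if_neg hxy, if_neg (fun h' => hxy ((h _ _).2 h'))]

theorem cE_mulVec_eq (κ : Ω → K) (f : Ω → ℝ) {x y : Ω} (h : κ x = κ y) :
    (cE κ *ᵥ f) x = (cE κ *ᵥ f) y := by
  classical
  simp only [cE_mulVec, h]

theorem cE_mulVec_of_const {κ : Ω → K} {f : Ω → ℝ} (hf : ∀ x y, κ x = κ y → f x = f y) :
    cE κ *ᵥ f = f := by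
  classical
  funext x
  rw [cE_mulVec, div_eq_iff (card_cls_pos κ x).ne',
    Finset.sum_congr rfl (fun y hy => hf y x (Finset.mem_filter.1 hy).2)]
  simp [mul_comm]

/-- `κ` is finer than `κ'`. -/
theorem cE_mul_cE {κ : Ω → K} {κ' : Ω → K'} (h : ∀ x y, κ x = κ y → κ' x = κ' y) :
    cE κ * cE κ' = cE κ' := by
  classical
  refine Matrix.ext_of_mulVec_single fun i => ?_
  rw [← mulVec_mulVec]
  exact cE_mulVec_of_const fun x y hxy => cE_mulVec_eq _ _ (h x y hxy)

/-- `κ` is finer than `κ'`. -/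
theorem cE_mul_cE' {κ : Ω → K} {κ' : Ω → K'} (h : ∀ x y, κ x = κ y → κ' x = κ' y) :
    cE κ' * cE κ = cE κ' := by
  have := congrArg transpose (cE_mul_cE h)
  rwa [transpose_mul, cE_transpose, cE_transpose] at this

theorem cE_idem (κ : Ω → K) : cE κ * cE κ = cE κ := cE_mul_cE fun _ _ h => h

theorem cE_dot (κ : Ω → K) (f g : Ω → ℝ) : (cE κ *ᵥ f) ⬝ᵥ g = f ⬝ᵥ (cE κ *ᵥ g) := by
  rw [dotProduct_mulVec, ← mulVec_transpose, cE_transpose]

theorem cE_dot_cE (κ : Ω → K) (f g : Ω → ℝ) :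
    (cE κ *ᵥ f) ⬝ᵥ (cE κ *ᵥ g) = f ⬝ᵥ (cE κ *ᵥ g) := by
  rw [cE_dot, mulVec_mulVec, cE_idem]

theorem dot_self_nonneg (f : Ω → ℝ) : 0 ≤ f ⬝ᵥ f := Finset.sum_nonneg fun _ _ => mul_self_nonneg _

theorem dir_nonneg (κ : Ω → K) (f : Ω → ℝ) : 0 ≤ dir κ f := dot_self_nonneg _

theorem dir_eq (κ : Ω → K) (f : Ω → ℝ) : dir κ f = f ⬝ᵥ f - f ⬝ᵥ (cE κ *ᵥ f) := by
  rw [dir, sub_dotProduct, dotProduct_sub, dotProduct_sub, cE_dot_cE, cE_dot]; ring

theorem dir_eq_sum (κ : Ω → K) (f : Ω → ℝ) : dir κ f = ∑ x, (f x - (cE κ *ᵥ f) x) ^ 2 := by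
  simp [dir, dotProduct, sq]

theorem dir_congr {κ : Ω → K} {κ' : Ω → K'} (h : ∀ x y, κ x = κ y ↔ κ' x = κ' y) (f : Ω → ℝ) :
    dir κ f = dir κ' f := by rw [dir, dir, cE_congr h]

/-- Conditional expectation is a contraction. -/
theorem cE_nsq_le (κ : Ω → K) (f : Ω → ℝ) : (cE κ *ᵥ f) ⬝ᵥ (cE κ *ᵥ f) ≤ f ⬝ᵥ f := by
  have := dir_nonneg κ f
  rw [dir_eq] at this
  rw [cE_dot_cE]; linarith

/-- The conditional expectation is the best approximation. -/
theorem dir_le_of_const {κ : Ω → K} (f : Ω → ℝ) {g : Ω → ℝ}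
    (hg : ∀ x y, κ x = κ y → g x = g y) : dir κ f ≤ (f - g) ⬝ᵥ (f - g) := by
  have h1 : dir κ f = dir κ (f - g) := by
    rw [dir, dir, mulVec_sub, cE_mulVec_of_const hg, sub_sub_sub_cancel_right]
  have h2 := dot_self_nonneg (cE κ *ᵥ (f - g))
  rw [cE_dot_cE] at h2
  rw [h1, dir_eq]; linarith

/-- Pythagoras; `κ` is finer than `κ'`. -/
theorem dir_add {κ : Ω → K} {κ' : Ω → K'} (h : ∀ x y, κ x = κ y → κ' x = κ' y) (f : Ω → ℝ) :
    dir κ' f = dir κ f + (cE κ *ᵥ f - cE κ' *ᵥ f) ⬝ᵥ (cE κ *ᵥ f - cE κ' *ᵥ f) := by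
  rw [dir_eq, dir_eq, sub_dotProduct, dotProduct_sub, dotProduct_sub, cE_dot_cE, cE_dot_cE,
    cE_dot, cE_dot, mulVec_mulVec, mulVec_mulVec, cE_mul_cE h, cE_mul_cE' h]
  ring

theorem dir_mono {κ : Ω → K} {κ' : Ω → K'} (h : ∀ x y, κ x = κ y → κ' x = κ' y) (f : Ω → ℝ) :
    dir κ f ≤ dir κ' f := by
  rw [dir_add h]; exact le_add_of_nonneg_right (dot_self_nonneg _)

theorem dir_eq_zero_of_injective {κ : Ω → K} (h : Function.Injective κ) (f : Ω → ℝ) :
    dir κ f = 0 := by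
  rw [dir, cE_mulVec_of_const (fun x y hxy => by rw [h hxy])]; simp

theorem dir_eq_pairs [DecidableEq K] (κ : Ω → K) (f : Ω → ℝ) :
    dir κ f = ∑ x, ∑ y, if κ y = κ x then
      (f x - f y) ^ 2 / (2 * ((univ.filter fun z => κ z = κ x).card : ℝ)) else 0 := by
  have h1 : ∀ x y, (if κ y = κ x then
      (f x - f y) ^ 2 / (2 * ((univ.filter fun z => κ z = κ x).card : ℝ)) else 0)
      = cE κ x y * (f x ^ 2 / 2) + cE κ y x * (f y ^ 2 / 2) - f x * (cE κ x y * f y) := by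
    intro x y
    rw [show cE κ y x = cE κ x y from congrFun (congrFun (cE_transpose κ) x) y]
    simp only [cE, of_apply]
    split_ifs
    · have := card_cls_pos κ x
      have e : ∀ (i j : DecidablePred fun z => κ z = κ x),
        (@Finset.filter _ _ i univ).card = (@Finset.filter _ _ j univ).card := fun i j => by congr
      rw [e _ (fun _ => Classical.propDecidable _)] at this ⊢
      field_simp; ring
    · simp
  have h2 : ∀ x, ∑ y, cE κ x y = 1 := fun x => by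
    have := congrFun (cE_mulVec_of_const (κ := κ) (f := fun _ => (1 : ℝ)) fun _ _ _ => rfl) x
    simpa [mulVec, dotProduct] using this
  simp only [h1, Finset.sum_sub_distrib, Finset.sum_add_distrib]
  rw [Finset.sum_comm (f := fun x y => cE κ y x * (f y ^ 2 / 2))]
  simp only [← Finset.sum_mul, h2, one_mul, dir_eq, dotProduct, mulVec, Finset.mul_sum]
  rw [← Finset.sum_add_distrib]
  congr 1
  exact Finset.sum_congr rfl fun x _ => by ring

/-- A criterion for two conditional expectations to commute. -/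
theorem cE_comm {κ : Ω → K} {κ' : Ω → K'}
    (h : ∀ x x', κ' x = κ' x' → ∃ Φ : Ω → Ω,
      (∀ y, κ y = κ x → κ (Φ y) = κ x' ∧ κ' (Φ y) = κ' y) ∧ Set.InjOn Φ {y | κ y = κ x}) :
    Commute (cE κ) (cE κ') := by
  classical
  have hc : ∀ x x', κ' x = κ' x' → (univ.filter fun y => κ y = κ x).card
      ≤ (univ.filter fun y => κ y = κ x').card := by
    intro x x' hx
    obtain ⟨Φ, h1, h2⟩ := h x x' hx
    refine Finset.card_le_card_of_injOn Φ (fun y hy => ?_) (fun y hy z hz => h2 ?_ ?_)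
    · simpa using (h1 y (by simpa using hy)).1
    · simpa using hy
    · simpa using hz
  have key : cE κ' * (cE κ * cE κ') = cE κ * cE κ' := by
    refine Matrix.ext_of_mulVec_single fun i => ?_
    rw [← mulVec_mulVec, ← mulVec_mulVec]
    refine cE_mulVec_of_const fun x x' hx => ?_
    obtain ⟨Φ, h1, h2⟩ := h x x' hx
    have hcard := le_antisymm (hc x x' hx) (hc x' x hx.symm)
    rw [cE_mulVec, cE_mulVec, hcard]
    congr 1
    have hinj : Set.InjOn Φ (univ.filter fun y => κ y = κ x : Finset Ω) :=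
      fun y hy z hz => h2 (by simpa using hy) (by simpa using hz)
    have hmaps : Set.MapsTo Φ (univ.filter fun y => κ y = κ x : Finset Ω)
        (univ.filter fun y => κ y = κ x' : Finset Ω) :=
      fun y hy => by simpa using (h1 y (by simpa using hy)).1
    refine Finset.sum_nbij Φ (fun y hy => hmaps hy) hinj
      (Finset.surjOn_of_injOn_of_card_le Φ hmaps hinj hcard.ge) (fun y hy => ?_)
    exact cE_mulVec_eq _ _ (h1 y (by simpa using hy)).2.symm
  have := congrArg transpose key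
  simp only [transpose_mul, cE_transpose] at this
  rw [Matrix.mul_assoc, key] at this
  exact this

/-- Restriction to a union of classes. -/
theorem cE_sub {κ : Ω → K} (p : Ω → Prop) [DecidablePred p] (h : ∀ x y, κ x = κ y → p x → p y)
    (f : Ω → ℝ) (x : {x // p x}) :
    (cE (fun z : {x // p x} => κ z.1) *ᵥ (fun z => f z.1)) x = (cE κ *ᵥ f) x.1 := by
  classical
  have hmem : ∀ y, y ∈ (univ.filter fun z : {x // p x} => κ z.1 = κ x.1).map
      (Function.Embedding.subtype p) ↔ y ∈ univ.filter fun y => κ y = κ x.1 := by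
    intro y
    simp only [Finset.mem_map, Finset.mem_filter, Finset.mem_univ, true_and,
      Function.Embedding.coe_subtype]
    exact ⟨fun ⟨z, h1, h2⟩ => h2 ▸ h1, fun hy => ⟨⟨y, h _ _ hy.symm x.2⟩, hy, rfl⟩⟩
  rw [cE_mulVec, cE_mulVec, ← Finset.ext hmem, Finset.sum_map, Finset.card_map]
  rfl

theorem dir_fiber {O : Type} [Fintype O] [DecidableEq O] {κ : Ω → K} (o : Ω → O)
    (h : ∀ x y, κ x = κ y → o x = o y) (f : Ω → ℝ) :
    dir κ f = ∑ t, dir (fun z : {x // o x = t} => κ z.1) (fun z => f z.1) := by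
  rw [dir_eq_sum, ← Fintype.sum_fiberwise o]
  refine Finset.sum_congr rfl fun t _ => ?_
  rw [dir_eq_sum]
  refine Finset.sum_congr rfl fun x _ => ?_
  rw [cE_sub (fun x => o x = t) (fun x y hxy hx => (h x y hxy).symm.trans hx)]

/-- A bound on a quadratic form on mean-zero vectors from its eigenvectors. -/
theorem quad_le_of_eigen [DecidableEq Ω] (M : Matrix Ω Ω ℝ) (hM : Mᵀ = M) (c : ℝ)
    (h : ∀ (v : Ω → ℝ) (μ : ℝ), M *ᵥ v = μ • v → c < μ → ∀ x y, v x = v y)
    (g : Ω → ℝ) (hg : ∑ x, g x = 0) : g ⬝ᵥ (M *ᵥ g) ≤ c * (g ⬝ᵥ g) := by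
  have hH : M.IsHermitian := by
    rw [Matrix.IsHermitian, conjTranspose_eq_transpose_of_trivial, hM]
  set b := hH.eigenvectorBasis with hb
  set G : EuclideanSpace ℝ Ω := WithLp.toLp 2 g with hG
  have hin : ∀ i (v : Ω → ℝ), inner ℝ (b i) (WithLp.toLp 2 v : EuclideanSpace ℝ Ω)
      = (b i).ofLp ⬝ᵥ v := fun i v => by
    simp [EuclideanSpace.inner_eq_star_dotProduct, dotProduct_comm]
  have hpar : ∀ v w : Ω → ℝ, v ⬝ᵥ w = ∑ i, ((b i).ofLp ⬝ᵥ v) * ((b i).ofLp ⬝ᵥ w) := by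
    intro v w
    have := b.sum_inner_mul_inner (WithLp.toLp 2 v) (WithLp.toLp 2 w)
    simp only [real_inner_comm (b _) (WithLp.toLp 2 v), hin] at this
    rw [this]
    simp [EuclideanSpace.inner_eq_star_dotProduct, dotProduct_comm]
  rw [hpar g (M *ᵥ g), hpar g g, Finset.mul_sum]
  refine Finset.sum_le_sum fun i _ => ?_
  have he : M *ᵥ (b i).ofLp = hH.eigenvalues i • (b i).ofLp := hH.mulVec_eigenvectorBasis i
  rw [dotProduct_mulVec, ← mulVec_transpose, hM, he, smul_dotProduct, smul_eq_mul]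
  by_cases hc : c < hH.eigenvalues i
  · have h0 : (b i).ofLp ⬝ᵥ g = 0 := by
      rw [dotProduct, Finset.sum_congr rfl (fun x _ => by rw [h _ _ he hc x i]),
        ← Finset.mul_sum, hg, mul_zero]
    simp [h0]
  · have := mul_self_nonneg ((b i).ofLp ⬝ᵥ g)
    nlinarith [not_lt.1 hc]

end Crest.Agent.R299
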