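import Crest.Agent.R299.Defs

open Finset Matrix

namespace Crest.Agent.R299

section
variable {V : Type} [Fintype V] [DecidableEq V] {d : V → ℕ}

/-- Two graphs agree on all entries with an endpoint outside `U`. -/
def ConnAgree (U : Finset V) (G G' : Gr d) : Prop :=
  ∀ a b, a ∉ U ∨ b ∉ U → G.1 a b = G'.1 a b

theorem conn_card_row (G : Gr d) (x : V) (U : Finset V) :
    (U.filter fun u => G.1 x u = true).card = ∑ u ∈ U, (G.1 x u).toNat := by
  rw [Finset.card_filter]
  refine Finset.sum_congr rfl fun u _ => ?_
  cases G.1 x u <;> simp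

theorem conn_deg_eq {U : Finset V} {G G' : Gr d} (h : ConnAgree U G G') (x : V) :
    (U.filter fun u => G.1 x u = true).card = (U.filter fun u => G'.1 x u = true).card := by
  rw [conn_card_row, conn_card_row]
  have h1 := G.2.2.2 x
  have h2 := G'.2.2.2 x
  rw [← Finset.sum_add_sum_compl U] at h1 h2
  have h3 : ∑ u ∈ Uᶜ, (G.1 x u).toNat = ∑ u ∈ Uᶜ, (G'.1 x u).toNat :=
    Finset.sum_congr rfl fun u hu => by rw [h x u (Or.inr (Finset.mem_compl.1 hu))]
  omega

theorem conn_exists_alt {U : Finset V} (G : Gr d) {v x y : V} (hv : v ∈ U) (hxU : x ∈ U)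
    (hyU : y ∈ U) (hx : G.1 v x = true) (hy : G.1 v y = false) (hyv : y ≠ v)
    (hd : (U.filter fun u => G.1 x u = true).card ≤ (U.filter fun u => G.1 y u = true).card) :
    ∃ z ∈ U, Alt x y v z G := by
  obtain ⟨hs, h0, -⟩ := G.2
  have hxy : x ≠ y := by rintro rfl; simp [hx] at hy
  have hxv : x ≠ v := by rintro rfl; simp [h0] at hx
  by_contra hcon
  push Not at hcon
  have hsub : ∀ z ∈ U, G.1 y z = true → z ≠ x → G.1 x z = true := by
    intro z hz hyz hzx
    by_contra hxz
    have hxz' : G.1 x z = false := by simpa using hxz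
    refine hcon z hz ⟨⟨hxy, hxv, hzx.symm, hyv, ?_, ?_⟩, ?_, ?_, ?_⟩
    · rintro rfl; simp [h0] at hyz
    · rintro rfl; rw [hs] at hyz; simp [hy] at hyz
    · rw [hs x v, hs y v, hx, hy]; simp
    · rw [hxz', hyz]; simp
    · rw [hs x v, hx, hxz']; simp
  have hlt : (U.filter fun u => G.1 y u = true).card < (U.filter fun u => G.1 x u = true).card := by
    have hinj : ((U.filter fun u => G.1 y u = true).image (Equiv.swap x y)).card
        = (U.filter fun u => G.1 y u = true).card :=
      Finset.card_image_of_injective _ (Equiv.swap x y).injective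
    rw [← hinj]
    refine Finset.card_lt_card ⟨fun u hu => ?_, fun hle => ?_⟩
    · obtain ⟨z, hz, rfl⟩ := Finset.mem_image.1 hu
      obtain ⟨hzU, hyz⟩ := Finset.mem_filter.1 hz
      by_cases hzx : z = x
      · subst hzx
        rw [Equiv.swap_apply_left]
        exact Finset.mem_filter.2 ⟨hyU, by rw [hs, hyz]⟩
      · have hzy : z ≠ y := by rintro rfl; simp [h0] at hyz
        rw [Equiv.swap_apply_of_ne_of_ne hzx hzy]
        exact Finset.mem_filter.2 ⟨hzU, hsub z hzU hyz hzx⟩
    · have hvm : v ∈ U.filter fun u => G.1 x u = true :=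
        Finset.mem_filter.2 ⟨hv, by rw [hs, hx]⟩
      obtain ⟨z, hz, hzv⟩ := Finset.mem_image.1 (hle hvm)
      have : z = v := by
        have := congrArg (Equiv.swap x y) hzv
        rw [Equiv.swap_apply_self, Equiv.swap_apply_of_ne_of_ne hxv.symm hyv.symm] at this
        exact this
      subst this
      have := (Finset.mem_filter.1 hz).2
      rw [hs, hy] at this
      simp at this
  omega

theorem conn_move {U : Finset V} (G : Gr d) {v x y : V} (hv : v ∈ U) (hxU : x ∈ U)
    (hyU : y ∈ U) (hx : G.1 v x = true) (hy : G.1 v y = false) (hyv : y ≠ v)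
    (hd : (U.filter fun u => G.1 x u = true).card ≤ (U.filter fun u => G.1 y u = true).card) :
    ∃ z, ConnAgree U (sw x y v z G) G ∧ ∀ u, (sw x y v z G).1 v u
      = if u = x ∨ u = y then !G.1 v u else G.1 v u := by
  obtain ⟨z, hz, halt⟩ := conn_exists_alt G hv hxU hyU hx hy hyv hd
  refine ⟨z, fun a b hab => ?_, fun u => ?_⟩
  · simp only [sw, dif_pos halt, tog]
    rw [if_neg]
    rintro (⟨rfl | rfl, rfl | rfl⟩ | ⟨rfl | rfl, rfl | rfl⟩) <;> simp_all
  · obtain ⟨⟨h1, h2, h3, h4, h5, h6⟩, -⟩ := halt.imp id id
    simp only [sw, dif_pos halt, tog]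
    refine if_congr ?_ rfl rfl
    simp [h2.symm, h4.symm]

theorem conn_row (f : Gr d → ℝ) (hf : ∀ i j k l G, f (sw i j k l G) = f G) {U : Finset V}
    {v : V} (hv : v ∈ U)
    (ih : ∀ G G' : Gr d, ConnAgree U G G' → G.1 v = G'.1 v → f G = f G') (n : ℕ) :
    ∀ G G' : Gr d, ConnAgree U G G' →
      (univ.filter fun u => G.1 v u ≠ G'.1 v u).card ≤ n → f G = f G' := by
  induction n with
  | zero =>
    intro G G' h hn
    refine ih G G' h (funext fun u => ?_)
    by_contra hu
    have : u ∈ univ.filter fun u => G.1 v u ≠ G'.1 v u := by simpa using hu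
    rw [Finset.card_eq_zero.1 (Nat.le_zero.1 hn)] at this
    simp at this
  | succ n ihn =>
    intro G G' h hn
    by_cases hrow : G.1 v = G'.1 v
    · exact ih G G' h hrow
    have hcard := conn_deg_eq h v
    have hne : (U.filter fun u => G.1 v u = true) ≠ (U.filter fun u => G'.1 v u = true) := by
      intro he
      refine hrow (funext fun u => ?_)
      by_cases hu : u ∈ U
      · have := Finset.ext_iff.1 he u
        simp only [Finset.mem_filter, hu, true_and] at this
        exact Bool.eq_iff_iff.2 this
      · exact h v u (Or.inr hu)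
    obtain ⟨x, hx1, hx2⟩ : ∃ x ∈ U.filter fun u => G.1 v u = true,
        x ∉ U.filter fun u => G'.1 v u = true := by
      by_contra hc
      push Not at hc
      exact hne (Finset.eq_of_subset_of_card_le hc hcard.ge)
    obtain ⟨y, hy1, hy2⟩ : ∃ y ∈ U.filter fun u => G'.1 v u = true,
        y ∉ U.filter fun u => G.1 v u = true := by
      by_contra hc
      push Not at hc
      exact hne (Finset.eq_of_subset_of_card_le hc hcard.le).symm
    obtain ⟨hxU, hxG⟩ := Finset.mem_filter.1 hx1
    obtain ⟨hyU, hyG'⟩ := Finset.mem_filter.1 hy1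
    have hxG' : G'.1 v x = false := by simpa [hxU] using hx2
    have hyG : G.1 v y = false := by simpa [hyU] using hy2
    have hxv : x ≠ v := by rintro rfl; simp [G.2.2.1] at hxG
    have hyv : y ≠ v := by rintro rfl; simp [G'.2.2.1] at hyG'
    have hxm : x ∈ univ.filter fun u => G.1 v u ≠ G'.1 v u := by simp [hxG, hxG']
    rcases le_total (U.filter fun u => G.1 x u = true).card
      (U.filter fun u => G.1 y u = true).card with hle | hle
    · obtain ⟨z, hz1, hz2⟩ := conn_move G hv hxU hyU hxG hyG hyv hle
      rw [← hf x y v z G]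
      refine ihn _ _ (fun a b hab => (hz1 a b hab).trans (h a b hab)) ?_
      have : (univ.filter fun u => (sw x y v z G).1 v u ≠ G'.1 v u)
          ⊆ (univ.filter fun u => G.1 v u ≠ G'.1 v u).erase x := by
        intro u hu
        simp only [Finset.mem_filter, Finset.mem_univ, true_and, hz2, Finset.mem_erase] at hu ⊢
        by_cases hux : u = x
        · subst hux; simp [hxG, hxG'] at hu
        · by_cases huy : u = y
          · subst huy; simp [hyG, hyG'] at hu
          · simpa [hux, huy] using hu
      have h2 := Finset.card_le_card this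
      rw [Finset.card_erase_of_mem hxm] at h2
      omega
    · rw [conn_deg_eq h x, conn_deg_eq h y] at hle
      obtain ⟨z, hz1, hz2⟩ := conn_move G' hv hyU hxU hyG' hxG' hxv hle
      rw [← hf y x v z G']
      refine ihn _ _ (fun a b hab => (h a b hab).trans (hz1 a b hab).symm) ?_
      have : (univ.filter fun u => G.1 v u ≠ (sw y x v z G').1 v u)
          ⊆ (univ.filter fun u => G.1 v u ≠ G'.1 v u).erase x := by
        intro u hu
        simp only [Finset.mem_filter, Finset.mem_univ, true_and, hz2, Finset.mem_erase] at hu ⊢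
        by_cases hux : u = x
        · subst hux; simp [hxG, hxG'] at hu
        · by_cases huy : u = y
          · subst huy; simp [hyG, hyG'] at hu
          · simpa [hux, huy] using hu
      have h2 := Finset.card_le_card this
      rw [Finset.card_erase_of_mem hxm] at h2
      omega

theorem conn_aux (f : Gr d → ℝ) (hf : ∀ i j k l G, f (sw i j k l G) = f G) (U : Finset V) :
    ∀ G G' : Gr d, ConnAgree U G G' → f G = f G' := by
  induction U using Finset.induction_on with
  | empty =>
    intro G G' h
    congr 1
    exact Subtype.ext (funext fun a => funext fun b => h a b (Or.inl (by simp)))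
  | insert v U hvU ih =>
    intro G G' h
    refine conn_row f hf (Finset.mem_insert_self v U) (fun H H' hH hrow => ih H H' ?_) _ G G' h
      le_rfl
    intro a b hab
    by_cases ha : a = v
    · subst ha; exact congrFun hrow b
    by_cases hb : b = v
    · subst hb; rw [H.2.1, H'.2.1]; exact congrFun hrow a
    exact hH a b (by simpa [ha, hb] using hab)

end

/-- The switch graph is connected. -/
theorem conn {V : Type} [Fintype V] [DecidableEq V] {d : V → ℕ} (f : Gr d → ℝ)
    (hf : ∀ i j k l G, f (sw i j k l G) = f G) (G G' : Gr d) : f G = f G' :=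
  conn_aux f hf univ G G' fun a b h => by simp at h

end Crest.Agent.R299
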