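import Crest.Agent.R299.CE

open Finset Matrix

namespace Crest.Agent.R299

/-- The number of columns with sum one whose non-zero entry is in row `w`. -/
def sing {C : Type} [Fintype C] (M : C → Fin 3 → Bool) (w : Fin 3) : ℕ :=
  (univ.filter fun k => ∑ v, (M k v).toNat = 1 ∧ M k w = true).card

/-- The size of a fibre. -/
def fib {C ι : Type} [Fintype C] [DecidableEq ι] (M : C → ι) (i : ι) : ℕ :=
  (univ.filter fun k => M k = i).card

theorem exists_equiv_fib {C D ι : Type} [Fintype C] [Fintype D] [DecidableEq ι] {f : C → ι}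
    {g : D → ι} (h : ∀ i, fib f i = fib g i) : ∃ e : C ≃ D, ∀ k, g (e k) = f k :=
  ⟨Equiv.ofFiberEquiv fun i => Fintype.equivOfCardEq (by
    rw [Fintype.card_subtype, Fintype.card_subtype]; exact h i), Equiv.ofFiberEquiv_map _⟩

theorem fib_comp {C D ι : Type} [Fintype C] [Fintype D] [DecidableEq ι] (g : D → ι) (e : C ≃ D)
    (i : ι) : fib (g ∘ e) i = fib g i :=
  card_equiv e (by simp)

theorem sum_fib {C ι : Type} [Fintype C] [Fintype ι] [DecidableEq ι] (M : C → ι) (F : ι → ℕ) :
    ∑ k, F (M k) = ∑ i, fib M i * F i := by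
  rw [← sum_fiberwise univ M]
  refine sum_congr rfl fun i _ => ?_
  rw [sum_congr rfl fun u hu => congrArg F (mem_filter.1 hu).2, sum_const, smul_eq_mul, fib]

theorem fib_eq_sum {C ι : Type} [Fintype C] [Fintype ι] [DecidableEq ι] (M : C → ι) (π : ι → ℕ)
    (j : ℕ) : fib (fun k => π (M k)) j = ∑ i, if π i = j then fib M i else 0 := by
  rw [fib, card_filter, sum_fib M fun i => if π i = j then 1 else 0]
  simp

theorem card_fib_mul {C ι : Type} [Fintype C] [DecidableEq C] [Fintype ι] [DecidableEq ι]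
    (π : ι → ℕ) (c : C → ℕ) (m : ι → ℕ) (hm : ∀ j, fib c j = ∑ i, if π i = j then m i else 0) :
    (univ.filter fun M : C → ι => (∀ k, π (M k) = c k) ∧ ∀ i, fib M i = m i).card
      * ∏ i, (m i).factorial = (univ.filter fun σ : Equiv.Perm C => c ∘ σ = c).card := by
  have h0 : ∀ i, fib (Sigma.fst : (Σ i, Fin (m i)) → ι) i = m i := fun i => by
    rw [fib, card_filter, Fintype.sum_sigma, sum_eq_single i (fun j _ hj => by simp [hj]) (by simp)]
    simp
  obtain ⟨e, he⟩ := exists_equiv_fib (f := c) (g := fun p : Σ i, Fin (m i) => π p.1) fun j => by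
    simp only [fib_eq_sum, h0, hm]
  obtain ⟨M₀, h1, h2⟩ : ∃ M₀ : C → ι, (∀ k, π (M₀ k) = c k) ∧ ∀ i, fib M₀ i = m i :=
    ⟨Sigma.fst ∘ e, he, fun i => by rw [fib_comp, h0]⟩
  rw [card_eq_sum_card_fiberwise (f := fun σ : Equiv.Perm C => M₀ ∘ σ)
    (s := univ.filter fun σ : Equiv.Perm C => c ∘ σ = c)
    (t := univ.filter fun M : C → ι => (∀ k, π (M k) = c k) ∧ ∀ i, fib M i = m i) fun σ hσ => by
      simp only [coe_filter, mem_univ, true_and, Set.mem_ofPred_eq] at hσ ⊢
      exact ⟨fun k => (h1 _).trans (congrFun hσ k), fun i => by rw [fib_comp, h2]⟩,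
    ← smul_eq_mul, ← sum_const]
  refine sum_congr rfl fun M hM => ?_
  obtain ⟨-, h3, h4⟩ := mem_filter.1 hM
  obtain ⟨τ, hτ⟩ := exists_equiv_fib (f := M) (g := M₀) fun i => by rw [h4, h2]
  have h5 := DomMulAct.stabilizer_card M
  simp only [Fintype.card_subtype] at h5
  rw [show ∏ i, (m i).factorial = _ from (prod_congr rfl fun i _ => by rw [← h4]; rfl).trans h5.symm]
  refine card_equiv (Equiv.mulLeft τ) fun σ => ?_
  simp only [mem_filter, mem_univ, true_and, Equiv.coe_mulLeft, Equiv.Perm.coe_mul]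
  have e : M₀ ∘ τ ∘ σ = M ∘ σ := funext fun k => hτ _
  rw [e]
  refine ⟨fun h => ⟨funext fun k => ?_, h⟩, fun h => h.2⟩
  rw [← h3 k, ← congrFun h k, ← congrFun e k]
  exact (h1 _).symm

theorem factorial_rr (m b t : ℕ) :
    (m + b).factorial * (m + t).factorial ≤ m.factorial * (m + b + t).factorial := by
  induction t with
  | zero => simp [mul_comm]
  | succ t ih =>
    rw [← add_assoc, ← add_assoc, Nat.factorial_succ, Nat.factorial_succ, mul_left_comm,
      mul_left_comm m.factorial]
    exact Nat.mul_le_mul (by omega) ih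

theorem factorial_rr' {a b c d : ℕ} (h : a + b = c + d) (h1 : c ≤ a) (h2 : c ≤ b) :
    a.factorial * b.factorial ≤ c.factorial * d.factorial := by
  obtain ⟨x, rfl⟩ := Nat.exists_eq_add_of_le h1
  obtain ⟨y, rfl⟩ := Nat.exists_eq_add_of_le h2
  obtain rfl : d = c + x + y := by omega
  exact factorial_rr c x y

/-- Columns as triples of bits. -/
abbrev B3 : Type := Bool × Bool × Bool

/-- The column sum. -/
def wt3 (i : B3) : ℕ := i.1.toNat + i.2.1.toNat + i.2.2.toNat

/-- The matrices with given margins and two given numbers of single columns. -/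
def cls3 {C : Type} [Fintype C] [DecidableEq C] (c : C → ℕ) (r₁ r₂ r₃ s y : ℕ) : Finset (C → B3) :=
  univ.filter fun M => ((∀ k, wt3 (M k) = c k) ∧ ∑ k, (M k).1.toNat = r₁ ∧
    ∑ k, (M k).2.1.toNat = r₂ ∧ ∑ k, (M k).2.2.toNat = r₃) ∧
    fib M (true, false, false) = s ∧ fib M (false, true, false) = y

/-- Compatibility of fibre sizes with the margins. -/
def Cmp3 {C : Type} [Fintype C] (c : C → ℕ) (r₁ r₂ r₃ : ℕ) (m : B3 → ℕ) : Prop :=
  (fib c 0 = m (false, false, false) ∧
    fib c 1 = m (true, false, false) + m (false, true, false) + m (false, false, true) ∧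
    fib c 2 = m (false, true, true) + m (true, false, true) + m (true, true, false) ∧
    fib c 3 = m (true, true, true) ∧ ∀ j, 3 < j → fib c j = 0) ∧
  r₁ = m (true, false, false) + m (true, false, true) + m (true, true, false) + m (true, true, true) ∧
  r₂ = m (false, true, false) + m (false, true, true) + m (true, true, false) + m (true, true, true) ∧
  r₃ = m (false, false, true) + m (false, true, true) + m (true, false, true) + m (true, true, true)

section
variable {C : Type} [Fintype C] [DecidableEq C] {c : C → ℕ} {r₁ r₂ r₃ : ℕ}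

theorem cmp3_of_mem {s y : ℕ} {M : C → B3} (h : M ∈ cls3 c r₁ r₂ r₃ s y) :
    Cmp3 c r₁ r₂ r₃ (fib M) := by
  obtain ⟨-, ⟨h0, h1, h2, h3⟩, -⟩ := mem_filter.1 h
  obtain rfl : (fun k => wt3 (M k)) = c := funext h0
  rw [sum_fib M fun i => i.1.toNat] at h1
  rw [sum_fib M fun i => i.2.1.toNat] at h2
  rw [sum_fib M fun i => i.2.2.toNat] at h3
  simp only [Cmp3, fib_eq_sum M wt3]
  simp only [Fintype.sum_prod_type, Fintype.sum_bool, wt3, Bool.toNat_true, Bool.toNat_false] at *
  refine ⟨⟨by simp, by simp; omega, by simp; omega, by simp, fun j hj => ?_⟩, ?_⟩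
  · split_ifs <;> omega
  · omega

theorem card_cls3 {m : B3 → ℕ} (h : Cmp3 c r₁ r₂ r₃ m) :
    (cls3 c r₁ r₂ r₃ (m (true, false, false)) (m (false, true, false))).card
      * ∏ i, (m i).factorial = (univ.filter fun σ : Equiv.Perm C => c ∘ σ = c).card := by
  obtain ⟨⟨a0, a1, a2, a3, a4⟩, b1, b2, b3⟩ := h
  rw [← card_fib_mul wt3 c m fun j => ?_]
  · congr 2
    ext M
    constructor
    · intro hM
      obtain ⟨⟨c0, c1, c2, c3, -⟩, d1, d2, d3⟩ := cmp3_of_mem hM
      obtain ⟨-, ⟨h0, -⟩, e1, e2⟩ := mem_filter.1 hM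
      refine mem_filter.2 ⟨mem_univ _, h0, ?_⟩
      rintro ⟨_ | _, _ | _, _ | _⟩ <;> omega
    · intro hM
      obtain ⟨-, h0, h1⟩ := mem_filter.1 hM
      refine mem_filter.2 ⟨mem_univ _, ⟨h0, ?_⟩, h1 _, h1 _⟩
      rw [sum_fib M fun i => i.1.toNat, sum_fib M fun i => i.2.1.toNat,
        sum_fib M fun i => i.2.2.toNat]
      simp only [Fintype.sum_prod_type, Fintype.sum_bool, Bool.toNat_true, Bool.toNat_false, h1]
      omega
  · simp only [Fintype.sum_prod_type, Fintype.sum_bool, wt3, Bool.toNat_true, Bool.toNat_false]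
    have := a4 j
    rcases j with _ | _ | _ | _ | j <;> simp <;> omega

theorem cls3_rr {s s' y y' : ℕ} (hs : s < s') (hy : y < y') :
    (cls3 c r₁ r₂ r₃ s y).card * (cls3 c r₁ r₂ r₃ s' y').card ≤
      (cls3 c r₁ r₂ r₃ s y').card * (cls3 c r₁ r₂ r₃ s' y).card := by
  rcases (cls3 c r₁ r₂ r₃ s y).eq_empty_or_nonempty with h | ⟨M, hM⟩
  · simp [h]
  rcases (cls3 c r₁ r₂ r₃ s' y').eq_empty_or_nonempty with h | ⟨N, hN⟩
  · simp [h]
  have h1 := cmp3_of_mem hM
  have h2 := cmp3_of_mem hN
  have k1 := card_cls3 h1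
  have k2 := card_cls3 h2
  obtain ⟨-, -, e1, e2⟩ := mem_filter.1 hM
  obtain ⟨-, -, e3, e4⟩ := mem_filter.1 hN
  obtain ⟨⟨a0, a1, a2, a3, a4⟩, b1, b2, b3⟩ := h1
  obtain ⟨⟨c0, c1, c2, c3, -⟩, d1, d2, d3⟩ := h2
  let m : B3 → ℕ := fun i => if i.1 = i.2.1 then fib M i - (if i.1 = i.2.2 then 0 else y' - y)
    else if i.1 = i.2.2 then fib N i else fib M i
  let m' : B3 → ℕ := fun i => if i.1 = i.2.1 then fib N i + (if i.1 = i.2.2 then 0 else y' - y)
    else if i.1 = i.2.2 then fib M i else fib N i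
  have k3 := card_cls3 (c := c) (r₁ := r₁) (r₂ := r₂) (r₃ := r₃) (m := m)
    ⟨⟨by simp [m]; omega, by simp [m]; omega, by simp [m]; omega, by simp [m]; omega, a4⟩,
      by simp [m]; omega⟩
  have k4 := card_cls3 (c := c) (r₁ := r₁) (r₂ := r₂) (r₃ := r₃) (m := m')
    ⟨⟨by simp [m']; omega, by simp [m']; omega, by simp [m']; omega, by simp [m']; omega, a4⟩,
      by simp [m']; omega⟩
  have k5 : (∏ i, (m i).factorial) * ∏ i, (m' i).factorial ≤
      (∏ i, (fib M i).factorial) * ∏ i, (fib N i).factorial := by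
    rw [← prod_mul_distrib, ← prod_mul_distrib]
    refine prod_le_prod' ?_
    rintro ⟨_ | _, _ | _, _ | _⟩ - <;>
      simp only [m, m', if_true, if_false, Bool.false_eq_true, Bool.true_eq_false, add_zero,
        Nat.sub_zero, mul_comm, le_refl]
    all_goals exact (factorial_rr' (by omega) (by omega) (by omega)).trans (mul_comm _ _).le
  rw [show m (true, false, false) = s from e1, show m (false, true, false) = y' from e4] at k3
  rw [show m' (true, false, false) = s' from e3, show m' (false, true, false) = y from e2] at k4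
  rw [e1, e2] at k1
  rw [e3, e4] at k2
  refine Nat.le_of_mul_le_mul_right ?_ (c := (∏ i, (fib M i).factorial) * ∏ i, (fib N i).factorial)
    (by positivity)
  refine le_trans (le_of_eq ?_) (Nat.mul_le_mul_left _ k5)
  rw [mul_mul_mul_comm, k1, k2, mul_mul_mul_comm, k3, k4]

end

/-- Reverse regularity of the joint law of two of the numbers `sing`. -/
theorem sing_rr {Φ C : Type} [Fintype Φ] [Fintype C] [DecidableEq C]
    (X : Φ → C → Fin 3 → Bool) (hX : Function.Injective X) (r : Fin 3 → ℕ) (c : C → ℕ)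
    (hr : ∀ M, M ∈ Set.range X ↔
      (∀ w, ∑ k, (M k w).toNat = r w) ∧ ∀ k, ∑ w, (M k w).toNat = c k)
    (w w' : Fin 3) (hw : w ≠ w') (s s' y y' : ℕ) (hs : s < s') (hy : y < y') :
    (univ.filter fun x => sing (X x) w = s ∧ sing (X x) w' = y).card
        * (univ.filter fun x => sing (X x) w = s' ∧ sing (X x) w' = y').card
      ≤ (univ.filter fun x => sing (X x) w = s ∧ sing (X x) w' = y').card
        * (univ.filter fun x => sing (X x) w = s' ∧ sing (X x) w' = y).card := by
  obtain ⟨u, h1, h2, hu⟩ : ∃ u : Fin 3, w ≠ u ∧ w' ≠ u ∧ ∀ v, v = w ∨ v = w' ∨ v = u := by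
    revert w w'; decide
  have hsum : ∀ F : Fin 3 → ℕ, ∑ v, F v = F w + F w' + F u := fun F => by
    rw [show (univ : Finset (Fin 3)) = {w, w', u} from (eq_univ_of_forall (by simpa using hu)).symm,
      sum_insert (by simp [hw, h1]), sum_pair h2, add_assoc]
  let T : (C → Fin 3 → Bool) → C → B3 := fun M k => (M k w, M k w', M k u)
  have e1 : ∀ M, sing M w = fib (T M) (true, false, false) := fun M =>
    congrArg card (filter_congr fun k _ => by
      simp only [hsum, T]; cases M k w <;> cases M k w' <;> cases M k u <;> simp)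
  have e2 : ∀ M, sing M w' = fib (T M) (false, true, false) := fun M =>
    congrArg card (filter_congr fun k _ => by
      simp only [hsum, T]; cases M k w <;> cases M k w' <;> cases M k u <;> simp)
  have key : ∀ s y, (univ.filter fun x => sing (X x) w = s ∧ sing (X x) w' = y).card =
      (cls3 c (r w) (r w') (r u) s y).card := by
    intro s y
    refine card_bij (fun x _ => T (X x)) (fun x hx => ?_) (fun x _ x' _ h => hX ?_) fun M hM => ?_
    · obtain ⟨a1, a2⟩ := (hr _).1 ⟨x, rfl⟩
      simp only [mem_filter, mem_univ, true_and, e1, e2] at hx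
      exact mem_filter.2 ⟨mem_univ _, ⟨fun k => by rw [← a2, hsum]; rfl, a1 _, a1 _, a1 _⟩, hx⟩
    · funext k v
      have := congrFun h k
      simp only [T, Prod.mk.injEq] at this
      rcases hu v with rfl | rfl | rfl <;> tauto
    · obtain ⟨-, ⟨a0, a1, a2, a3⟩, b⟩ := mem_filter.1 hM
      let S : C → Fin 3 → Bool := fun k v =>
        if v = w then (M k).1 else if v = w' then (M k).2.1 else (M k).2.2
      have hT : T S = M := by funext k; simp [T, S, hw.symm, h1.symm, h2.symm]
      rw [← hT] at a0 a1 a2 a3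
      obtain ⟨x, hx⟩ := (hr S).2 ⟨fun v => by rcases hu v with rfl | rfl | rfl <;> assumption,
        fun k => by rw [hsum]; exact a0 k⟩
      exact ⟨x, by simpa [hx, e1, e2, hT] using b, by rw [hx, hT]⟩
  simp only [key]
  exact cls3_rr hs hy

end Crest.Agent.R299
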