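import Mathlib

/-!
Definitions for the spectral gap of the switch chain (row 299).
-/

open Finset Matrix

namespace Crest.Agent.R299

open Classical in
/-- Conditional expectation (uniform measure) given the value of the key `κ`. -/
noncomputable def cE {Ω K : Type} [Fintype Ω] (κ : Ω → K) : Matrix Ω Ω ℝ :=
  Matrix.of fun x y => if κ y = κ x then ((univ.filter fun z => κ z = κ x).card : ℝ)⁻¹ else 0

/-- The squared distance of `f` to the functions of the key `κ`. -/
noncomputable def dir {Ω K : Type} [Fintype Ω] (κ : Ω → K) (f : Ω → ℝ) : ℝ :=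
  (f - cE κ *ᵥ f) ⬝ᵥ (f - cE κ *ᵥ f)

variable {V : Type} [Fintype V] [DecidableEq V]

/-- Adjacency matrices of the simple graphs with degree vector `d`. -/
def IsReal (d : V → ℕ) (M : V → V → Bool) : Prop :=
  (∀ u v, M u v = M v u) ∧ (∀ u, M u u = false) ∧ ∀ u, ∑ v, (M u v).toNat = d u

instance (d : V → ℕ) : DecidablePred (IsReal d) := fun _ => by unfold IsReal; infer_instance

/-- The simple graphs with degree vector `d`. -/
abbrev Gr (d : V → ℕ) : Type := {M : V → V → Bool // IsReal d M}

/-- All entries except those between `{i, j}` and the other vertices. -/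
def key2 {d : V → ℕ} (i j : V) (G : Gr d) : V → V → Bool :=
  fun x y => if (x = i ∨ x = j) ↔ (y = i ∨ y = j) then G.1 x y else false

/-- The four vertices are distinct and the four-cycle `i k j l` is alternating. -/
def Alt {d : V → ℕ} (i j k l : V) (G : Gr d) : Prop :=
  (i ≠ j ∧ i ≠ k ∧ i ≠ l ∧ j ≠ k ∧ j ≠ l ∧ k ≠ l) ∧
    G.1 i k ≠ G.1 j k ∧ G.1 i l ≠ G.1 j l ∧ G.1 i k ≠ G.1 i l

instance {d : V → ℕ} (i j k l : V) (G : Gr d) : Decidable (Alt i j k l G) := by
  unfold Alt; infer_instance

/-- The matrix with the four entries between `{i, j}` and `{k, l}` toggled. -/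
def tog (i j k l : V) (M : V → V → Bool) : V → V → Bool :=
  fun x y => if ((x = i ∨ x = j) ∧ (y = k ∨ y = l)) ∨ ((x = k ∨ x = l) ∧ (y = i ∨ y = j))
    then !M x y else M x y

omit [DecidableEq V] in
theorem sum_toNat_swap [DecidableEq V] (r r' : V → Bool) (a b : V)
    (h : ∀ v, r' v = r (Equiv.swap a b v)) : ∑ v, (r' v).toNat = ∑ v, (r v).toNat := by
  simp only [h]
  exact Equiv.sum_comp (Equiv.swap a b) (fun v => (r v).toNat)

theorem tog_isReal {d : V → ℕ} {i j k l : V} {G : Gr d} (h : Alt i j k l G) :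
    IsReal d (tog i j k l G.1) := by
  obtain ⟨⟨hij, hik, hil, hjk, hjl, hkl⟩, h1, h2, h3⟩ := h
  obtain ⟨hs, hd, hr⟩ := G.2
  have e1 : G.1 j k = !G.1 i k := by revert h1; cases G.1 j k <;> cases G.1 i k <;> simp
  have e2 : G.1 i l = !G.1 i k := by revert h3; cases G.1 i l <;> cases G.1 i k <;> simp
  have e3 : G.1 j l = G.1 i k := by
    revert h2; rw [e2]; cases G.1 j l <;> cases G.1 i k <;> simp
  refine ⟨fun u v => ?_, fun u => ?_, fun u => ?_⟩
  · simp only [tog, hs u v]
    exact if_congr (by tauto) rfl rfl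
  · simp only [tog, hd u]
    rw [if_neg]
    rintro (⟨rfl | rfl, h | h⟩ | ⟨rfl | rfl, h | h⟩) <;> simp_all
  · rw [← hr u]
    have f0 := hs k i
    have f1 := hs k j
    have f2 := hs l i
    have f3 := hs l j
    clear hs hd hr h1 h2 h3
    by_cases hu : u = i ∨ u = j
    · refine sum_toNat_swap _ _ k l fun v => ?_
      simp only [tog, Equiv.swap_apply_def]
      rcases hu with rfl | rfl <;> by_cases hk : v = k <;> by_cases hl : v = l <;>
        simp [hk, hl, hik, hil, hjk, hjl, hkl, hkl.symm, e1, e2, e3]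
    · by_cases hu' : u = k ∨ u = l
      · refine sum_toNat_swap _ _ i j fun v => ?_
        simp only [tog, Equiv.swap_apply_def]
        rcases hu' with rfl | rfl <;> by_cases hk : v = i <;> by_cases hl : v = j <;>
          simp [hk, hl, hij, hij.symm, hik.symm, hil.symm, hjk.symm, hjl.symm, f0, f1, f2, f3,
            e1, e2, e3]
      · simp [tog, hu, hu']

/-- The switch along the four-cycle `i k j l`. -/
def sw {d : V → ℕ} (i j k l : V) (G : Gr d) : Gr d :=
  if h : Alt i j k l G then ⟨tog i j k l G.1, tog_isReal h⟩ else G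

/-- `key2 i j`, refined by the number of neighbours of `i` in `{k, l}` when the number of edges
between `{i, j}` and `{k, l}` is even. -/
def key2' {d : V → ℕ} (i j k l : V) (G : Gr d) : (V → V → Bool) × ℕ :=
  (key2 i j G, if Odd ((G.1 i k).toNat + (G.1 i l).toNat + (G.1 j k).toNat + (G.1 j l).toNat)
    then 0 else (G.1 i k).toNat + (G.1 i l).toNat)

/-- The defect of commutativity of two disjoint pairs. -/
noncomputable def yy {d : V → ℕ} (i j k l : V) (f : Gr d → ℝ) : ℝ :=
  ∑ G, if Alt i j k l G then ((cE (key2' i j k l) *ᵥ f) G - (cE (key2 i j) *ᵥ f) G) ^ 2 else 0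

/-- The energy of one switch. -/
noncomputable def en {d : V → ℕ} (i j k l : V) (f : Gr d → ℝ) : ℝ :=
  ∑ G, (f G - f (sw i j k l G)) ^ 2

end Crest.Agent.R299
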