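import Mathlib

/-!
Mixing of a lazy symmetric chain from a Poincare inequality.
-/

open Finset Matrix

namespace Crest.Agent.R299

variable {X : Type} [Fintype X] [DecidableEq X]

omit [Fintype X] [DecidableEq X] in
theorem energy_eq (R : Finset X) (K : Matrix X X ℝ) (hs : ∀ x y, K x y = K y x)
    (hrow : ∀ x ∈ R, ∑ y ∈ R, K x y = 1) (f : X → ℝ) :
    ∑ x ∈ R, f x * (f x - ∑ y ∈ R, K x y * f y)
      = 1 / 2 * ∑ x ∈ R, ∑ y ∈ R, K x y * (f x - f y) ^ 2 := by
  have h1 : ∀ x y, K x y * (f x - f y) ^ 2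
      = K x y * f x ^ 2 + K y x * f y ^ 2 - 2 * (f x * (K x y * f y)) := fun x y => by
    rw [hs y x]; ring
  simp only [h1, Finset.sum_sub_distrib, Finset.sum_add_distrib]
  rw [Finset.sum_comm (f := fun x y => K y x * f y ^ 2)]
  simp only [← Finset.sum_mul, ← Finset.mul_sum]
  rw [Finset.sum_congr rfl (f := fun x => (∑ y ∈ R, K x y) * f x ^ 2) fun x hx => by
    rw [hrow x hx]]
  simp only [mul_sub, Finset.sum_sub_distrib, one_mul, sq]
  ring

omit [Fintype X] in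
theorem lazy_contract (R : Finset X) (K Q : Matrix X X ℝ)
    (hK : ∀ x y, K x y = (if x = y then 1 / 2 else 0) + Q x y / 2) (hQ : ∀ x y, 0 ≤ Q x y)
    (hs : ∀ x y, Q x y = Q y x) (hrow : ∀ x ∈ R, ∑ y ∈ R, Q x y = 1) (w : X → ℝ) :
    ∑ x ∈ R, (∑ y ∈ R, K x y * w y) ^ 2 ≤ ∑ x ∈ R, w x * ∑ y ∈ R, K x y * w y := by
  have h1 : ∀ x ∈ R, ∑ y ∈ R, K x y * w y = (w x + ∑ y ∈ R, Q x y * w y) / 2 := by
    intro x hx
    simp only [hK, add_mul, Finset.sum_add_distrib, ite_mul, zero_mul, Finset.sum_ite_eq, hx,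
      if_true, add_div, Finset.sum_div]
    congr 1
    · ring
    · exact Finset.sum_congr rfl fun y _ => by ring
  have h2 : ∀ x ∈ R, (∑ y ∈ R, Q x y * w y) ^ 2 ≤ ∑ y ∈ R, Q x y * w y ^ 2 := by
    intro x hx
    have := Finset.sum_sq_le_sum_mul_sum_of_sq_le_mul R (r := fun y => Q x y * w y)
      (f := fun y => Q x y) (g := fun y => Q x y * w y ^ 2) (fun y _ => hQ x y)
      (fun y _ => mul_nonneg (hQ x y) (sq_nonneg _)) (fun y _ => le_of_eq (by ring))
    rwa [hrow x hx, one_mul] at this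
  have h3 : ∑ x ∈ R, (∑ y ∈ R, Q x y * w y) ^ 2 ≤ ∑ x ∈ R, w x ^ 2 := by
    refine (Finset.sum_le_sum h2).trans (le_of_eq ?_)
    rw [Finset.sum_comm]
    refine Finset.sum_congr rfl fun y hy => ?_
    rw [← Finset.sum_mul, Finset.sum_congr rfl fun x _ => hs x y, hrow y hy, one_mul]
  rw [Finset.sum_congr rfl fun x hx => by rw [h1 x hx],
    Finset.sum_congr rfl (f := fun x => w x * ∑ y ∈ R, K x y * w y) fun x hx => by rw [h1 x hx]]
  have h4 : ∀ a b : ℝ, ((a + b) / 2) ^ 2 = a * ((a + b) / 2) + (b ^ 2 - a ^ 2) / 4 :=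
    fun a b => by ring
  simp only [h4, Finset.sum_add_distrib, ← Finset.sum_div, Finset.sum_sub_distrib]
  linarith

theorem mix (R : Finset X) (K Q : Matrix X X ℝ)
    (hK : ∀ x y, K x y = (if x = y then 1 / 2 else 0) + Q x y / 2) (hQ : ∀ x y, 0 ≤ Q x y)
    (hs : ∀ x y, Q x y = Q y x) (hrow : ∀ x ∈ R, ∑ y ∈ R, Q x y = 1)
    (hout : ∀ x ∈ R, ∀ y ∉ R, Q x y = 0) (g : ℝ) (hg : g ≤ 1)
    (hP : ∀ f : X → ℝ, ∑ x ∈ R, f x = 0 →
      g * ∑ x ∈ R, f x ^ 2 ≤ ∑ x ∈ R, f x * (f x - ∑ y ∈ R, K x y * f y))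
    {x0 : X} (hx0 : x0 ∈ R) (t : ℕ) :
    (∀ y ∉ R, (K ^ t) x0 y = 0) ∧ ∑ y ∈ R, (K ^ t) x0 y = 1 ∧
      ∑ y ∈ R, ((K ^ t) x0 y - 1 / R.card) ^ 2 ≤ (1 - g) ^ t := by
  have hR : (0 : ℝ) < R.card := by exact_mod_cast Finset.card_pos.2 ⟨x0, hx0⟩
  have hKs : ∀ x y, K x y = K y x := fun x y => by
    rw [hK, hK, hs x y]; congr 1; exact if_congr eq_comm rfl rfl
  have hKrow : ∀ x ∈ R, ∑ y ∈ R, K x y = 1 := fun x hx => by
    simp only [hK, Finset.sum_add_distrib, Finset.sum_ite_eq, hx, if_true, ← Finset.sum_div,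
      hrow x hx]
    norm_num
  have hKout : ∀ x ∈ R, ∀ y ∉ R, K x y = 0 := fun x hx y hy => by
    rw [hK, hout x hx y hy, if_neg (by rintro rfl; exact hy hx)]; simp
  induction t with
  | zero =>
    refine ⟨fun y hy => ?_, ?_, ?_⟩
    · rw [pow_zero, Matrix.one_apply, if_neg (by rintro rfl; exact hy hx0)]
    · simp [Matrix.one_apply, hx0]
    · have : ∀ y, ((K ^ 0) x0 y - 1 / R.card) ^ 2
          = (if x0 = y then 1 - 2 / (R.card : ℝ) else 0) + (1 / R.card) ^ 2 := by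
        intro y
        rw [pow_zero, Matrix.one_apply]
        split_ifs <;> ring
      simp only [this]
      simp only [Finset.sum_add_distrib, Finset.sum_ite_eq, hx0, if_true, Finset.sum_const,
        nsmul_eq_mul, pow_zero]
      have : (R.card : ℝ) * (1 / R.card) ^ 2 = 1 / R.card := by field_simp
      rw [this]
      have : (0 : ℝ) < 1 / R.card := by positivity
      have e : (2 : ℝ) / R.card = 2 * (1 / R.card) := by ring
      linarith
  | succ t ih =>
    obtain ⟨ih1, ih2, ih3⟩ := ih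
    have h1 : ∀ y, (K ^ (t + 1)) x0 y = ∑ z ∈ R, K y z * (K ^ t) x0 z := by
      intro y
      rw [pow_succ, Matrix.mul_apply,
        ← Finset.sum_subset (Finset.subset_univ R) (fun z _ hz => by rw [ih1 z hz, zero_mul])]
      exact Finset.sum_congr rfl fun z _ => by rw [hKs y z, mul_comm]
    refine ⟨fun y hy => ?_, ?_, ?_⟩
    · rw [h1]
      exact Finset.sum_eq_zero fun z hz => by rw [hKs, hKout z hz y hy, zero_mul]
    · simp only [h1]
      rw [Finset.sum_comm, ← ih2]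
      refine Finset.sum_congr rfl fun z hz => ?_
      rw [← Finset.sum_mul, Finset.sum_congr rfl fun y _ => hKs y z, hKrow z hz, one_mul]
    · set w : X → ℝ := fun y => (K ^ t) x0 y - 1 / R.card with hw
      have h2 : ∀ y ∈ R, (K ^ (t + 1)) x0 y - 1 / R.card = ∑ z ∈ R, K y z * w z := by
        intro y hy
        simp only [h1, hw, mul_sub, Finset.sum_sub_distrib, ← Finset.sum_mul, hKrow y hy, one_mul]
      have h3 : ∑ y ∈ R, w y = 0 := by
        simp only [hw, Finset.sum_sub_distrib, ih2, Finset.sum_const, nsmul_eq_mul]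
        field_simp
        ring
      have h4 := hP w h3
      have h5 := lazy_contract R K Q hK hQ hs hrow w
      rw [Finset.sum_congr rfl fun y hy => by rw [h2 y hy]]
      simp only [mul_sub, Finset.sum_sub_distrib, ← sq] at h4
      calc _ ≤ (1 - g) * ∑ x ∈ R, w x ^ 2 := by linarith
        _ ≤ (1 - g) * (1 - g) ^ t := mul_le_mul_of_nonneg_left ih3 (by linarith)
        _ = _ := by ring

end Crest.Agent.R299
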