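import Crest.Prelude.Def_SwitchChain
import Crest.Agent.R299.Mix

/-!
The proposals of the switch chain.
-/

open Finset Matrix Crest.SwitchChain

namespace Crest.Agent.R299

variable {n : ℕ}

/-- The edge set `{ab, cd}`. -/
def pm (a b c d : Fin n) : Finset (Edge n) :=
  univ.filter fun e => e.1 = s(a, b) ∨ e.1 = s(c, d)

/-- The edge between two distinct vertices. -/
def ed {a b : Fin n} (h : a ≠ b) : Edge n := ⟨s(a, b), by simpa using h⟩

theorem mem_pm {a b c d : Fin n} {e : Edge n} :
    e ∈ pm a b c d ↔ e.1 = s(a, b) ∨ e.1 = s(c, d) := by simp [pm]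

theorem pm_eq {a b c d : Fin n} (h1 : a ≠ b) (h2 : c ≠ d) : pm a b c d = {ed h1, ed h2} := by
  ext e
  simp only [mem_pm, Finset.mem_insert, Finset.mem_singleton, ed, Subtype.ext_iff]

theorem mem_pmSet {S : Finset (Fin n)} {F : Finset (Edge n)} :
    F ∈ pmSet S ↔ F.card = 2 ∧ (∀ e ∈ F, ∀ v : Fin n, v ∈ e.1 → v ∈ S) ∧
      ∀ v ∈ S, (F.filter fun e => v ∈ e.1).card = 1 := by
  simp [pmSet]

theorem pm_mem_pmSet {a b c d : Fin n} (hab : a ≠ b) (hac : a ≠ c) (had : a ≠ d) (hbc : b ≠ c)
    (hbd : b ≠ d) (hcd : c ≠ d) : pm a b c d ∈ pmSet {a, b, c, d} := by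
  rw [mem_pmSet, pm_eq hab hcd]
  have hne : ed hab ≠ ed hcd := by simp [ed, hac, had]
  refine ⟨Finset.card_pair hne, fun e he v hv => ?_, fun v hv => ?_⟩
  · simp only [Finset.mem_insert, Finset.mem_singleton] at he ⊢
    rcases he with rfl | rfl <;> simp only [ed, Sym2.mem_iff] at hv <;> tauto
  · simp only [Finset.mem_insert, Finset.mem_singleton] at hv
    rw [Finset.filter_insert, Finset.filter_singleton]
    rcases hv with rfl | rfl | rfl | rfl <;>
      simp [ed, hac, had, hbc, hbd, hac.symm, had.symm, hbc.symm, hbd.symm]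

theorem eq_pm_of_mem {a b c d : Fin n} (hab : a ≠ b) {F : Finset (Edge n)}
    (hF : F ∈ pmSet {a, b, c, d}) (h : ed hab ∈ F) : F = pm a b c d := by
  obtain ⟨h2, hS, h1⟩ := mem_pmSet.1 hF
  obtain ⟨e, he⟩ : ∃ e, F.erase (ed hab) = {e} :=
    Finset.card_eq_one.1 (by rw [Finset.card_erase_of_mem h, h2])
  have heF : e ∈ F.erase (ed hab) := by simp [he]
  obtain ⟨hne, heF'⟩ := Finset.mem_erase.1 heF
  have key : ∀ v ∈ ({a, b, c, d} : Finset (Fin n)), v ∈ (ed hab).1 → v ∉ e.1 := by
    intro v hv hv1 hv2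
    obtain ⟨e', he'⟩ := Finset.card_eq_one.1 (h1 v hv)
    have m1 : e ∈ F.filter fun e => v ∈ e.1 := Finset.mem_filter.2 ⟨heF', hv2⟩
    have m2 : ed hab ∈ F.filter fun e => v ∈ e.1 := Finset.mem_filter.2 ⟨h, hv1⟩
    rw [he', Finset.mem_singleton] at m1 m2
    exact hne (m1.trans m2.symm)
  have ha := key a (by simp) (by simp [ed])
  have hb := key b (by simp) (by simp [ed])
  have hcd : e.1 = s(c, d) := by
    obtain ⟨e, hd⟩ := e
    induction e using Sym2.ind with
    | h x y =>
      have hx := hS _ heF' x (by simp)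
      have hy := hS _ heF' y (by simp)
      simp only [Sym2.mem_iff, not_or, Finset.mem_insert, Finset.mem_singleton,
        Sym2.mk_isDiag_iff] at ha hb hx hy hd
      rcases hx with rfl | rfl | rfl | rfl <;> rcases hy with rfl | rfl | rfl | rfl <;> simp_all
  rw [← Finset.insert_erase h, he]
  ext e'
  simp only [mem_pm, Finset.mem_insert, Finset.mem_singleton, ← hcd, Subtype.ext_iff, ed]

theorem card_pmSet {S : Finset (Fin n)} (hS : S.card = 4) : (pmSet S).card = 3 := by
  obtain ⟨a, T, haT, rfl, hT⟩ := Finset.card_eq_succ.1 hS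
  obtain ⟨b, c, d, hbc, hbd, hcd, rfl⟩ := Finset.card_eq_three.1 hT
  simp only [Finset.mem_insert, Finset.mem_singleton, not_or] at haT
  obtain ⟨hab, hac, had⟩ := haT
  have e1 : ({a, c, b, d} : Finset (Fin n)) = {a, b, c, d} := by ext; simp; tauto
  have e2 : ({a, d, b, c} : Finset (Fin n)) = {a, b, c, d} := by ext; simp; tauto
  have : pmSet ({a, b, c, d} : Finset (Fin n)) = {pm a b c d, pm a c b d, pm a d b c} := by
    ext F
    simp only [Finset.mem_insert, Finset.mem_singleton]
    constructor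
    · intro hF
      obtain ⟨h2, hS', h1⟩ := mem_pmSet.1 hF
      obtain ⟨e, he⟩ := Finset.card_eq_one.1 (h1 a (by simp))
      have m1 : e ∈ F.filter fun e => a ∈ e.1 := by simp [he]
      obtain ⟨heF, hae⟩ := Finset.mem_filter.1 m1
      obtain ⟨x, hx⟩ := Sym2.mem_iff_exists.1 hae
      have hxS := hS' e heF x (by simp [hx])
      have hax : a ≠ x := by simpa [hx] using e.2
      have hed : ed hax ∈ F := by
        have : ed hax = e := Subtype.ext hx.symm
        rwa [this]
      simp only [Finset.mem_insert, Finset.mem_singleton] at hxS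
      rcases hxS with rfl | rfl | rfl | rfl
      · exact absurd rfl hax
      · exact Or.inl (eq_pm_of_mem hax hF hed)
      · exact Or.inr (Or.inl (eq_pm_of_mem hax (e1 ▸ hF) hed))
      · exact Or.inr (Or.inr (eq_pm_of_mem hax (e2 ▸ hF) hed))
    · rintro (rfl | rfl | rfl)
      · exact pm_mem_pmSet hab hac had hbc hbd hcd
      · exact e1 ▸ pm_mem_pmSet hac hab had (Ne.symm hbc) hcd hbd
      · exact e2 ▸ pm_mem_pmSet had hab hac (Ne.symm hbd) (Ne.symm hcd) hbc
  rw [this]
  refine Finset.card_eq_three.2 ⟨_, _, _, fun h => ?_, fun h => ?_, fun h => ?_, rfl⟩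
  · have : ed hab ∈ pm a c b d := h ▸ mem_pm.2 (Or.inl rfl)
    simp [mem_pm, ed, hab, hac, had, hbc] at this
  · have : ed hab ∈ pm a d b c := h ▸ mem_pm.2 (Or.inl rfl)
    simp [mem_pm, ed, hab, hac, had, hbd] at this
  · have : ed hac ∈ pm a d b c := h ▸ mem_pm.2 (Or.inl rfl)
    simp [mem_pm, ed, hab, hac, had, hcd] at this

/-- The proposals. -/
def props (n : ℕ) : Finset (Finset (Fin n) × Finset (Edge n) × Finset (Edge n)) :=
  univ.filter fun p => p.1.card = 4 ∧ p.2.1 ∈ pmSet p.1 ∧ p.2.2 ∈ pmSet p.1 ∧ p.2.2 ≠ p.2.1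

theorem mem_props {p : Finset (Fin n) × Finset (Edge n) × Finset (Edge n)} :
    p ∈ props n ↔ p.1.card = 4 ∧ p.2.1 ∈ pmSet p.1 ∧ p.2.2 ∈ pmSet p.1 ∧ p.2.2 ≠ p.2.1 := by
  simp [props]

theorem sum_props {M : Type} [AddCommMonoid M]
    (φ : Finset (Fin n) × Finset (Edge n) × Finset (Edge n) → M) :
    ∑ p ∈ props n, φ p = ∑ S ∈ (univ : Finset (Fin n)).powersetCard 4,
      ∑ F ∈ pmSet S, ∑ F' ∈ (pmSet S).erase F, φ (S, F, F') := by
  rw [Finset.sum_finset_product (props n) (univ.powersetCard 4)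
    (fun S => univ.filter fun q : Finset (Edge n) × Finset (Edge n) =>
      q.1 ∈ pmSet S ∧ q.2 ∈ (pmSet S).erase q.1) (by
        intro p; simp only [mem_props, Finset.mem_powersetCard_univ, Finset.mem_filter,
          Finset.mem_univ, true_and, Finset.mem_erase]; tauto)]
  refine Finset.sum_congr rfl fun S _ => ?_
  exact Finset.sum_finset_product _ (pmSet S) (fun F => (pmSet S).erase F) (by intro q; simp)

theorem card_props : ((props n).card : ℝ) = 6 * n.choose 4 := by
  rw [Finset.card_eq_sum_ones, sum_props]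
  rw [Finset.sum_congr rfl (g := fun _ => 6) fun S hS => ?_]
  · simp [mul_comm]
  have h := card_pmSet (Finset.mem_powersetCard_univ.1 hS)
  rw [Finset.sum_congr rfl (g := fun _ => 2) fun F hF => by
    simp [Finset.card_erase_of_mem hF, h]]
  simp [h]

theorem count_eq (E E' : Finset (Edge n)) : (proposalCount E E' : ℝ)
    = ∑ p ∈ props n, if switchResult E p.2.1 p.2.2 = E' then 1 else 0 := by
  rw [sum_props, proposalCount]
  push_cast
  rfl

theorem deg_pm {S : Finset (Fin n)} {F : Finset (Edge n)} (hF : F ∈ pmSet S) (v : Fin n) :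
    deg F v = if v ∈ S then 1 else 0 := by
  obtain ⟨-, h1, h2⟩ := mem_pmSet.1 hF
  split_ifs with hv
  · exact h2 v hv
  · exact Finset.card_eq_zero.2 (Finset.filter_eq_empty_iff.2 fun e he h => hv (h1 e he v h))

theorem deg_switch {S : Finset (Fin n)} {F F' : Finset (Edge n)} (hF : F ∈ pmSet S)
    (hF' : F' ∈ pmSet S) (E : Finset (Edge n)) (v : Fin n) :
    deg (switchResult E F F') v = deg E v := by
  unfold switchResult
  split_ifs with h
  · have hu : ∀ A B : Finset (Edge n), Disjoint A B → deg (A ∪ B) v = deg A v + deg B v := by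
      intro A B hAB
      rw [deg, Finset.filter_union, Finset.card_union_of_disjoint
        (Finset.disjoint_filter_filter hAB)]
      rfl
    have h1 := hu (E \ F) F' (h.2.symm.mono_left Finset.sdiff_subset)
    have h2 := hu (E \ F) F Finset.sdiff_disjoint
    rw [Finset.sdiff_union_of_subset h.1] at h2
    rw [h1, h2, deg_pm hF, deg_pm hF']
  · rfl

theorem switch_mem {d : Fin n → ℕ} {p : Finset (Fin n) × Finset (Edge n) × Finset (Edge n)}
    (hp : p ∈ props n) {E : Finset (Edge n)} (hE : E ∈ realizations d) :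
    switchResult E p.2.1 p.2.2 ∈ realizations d := by
  obtain ⟨-, h1, h2, -⟩ := mem_props.1 hp
  simp only [realizations, Finset.mem_filter, Finset.mem_univ, true_and] at hE ⊢
  exact fun v => by rw [deg_switch h1 h2, hE]

theorem switch_rev {E E' F F' : Finset (Edge n)} (hne : E ≠ E')
    (h : switchResult E F F' = E') : switchResult E' F' F = E := by
  unfold switchResult at h ⊢
  split_ifs at h with hc
  · obtain ⟨h1, h2⟩ := hc
    subst h
    have h3 : Disjoint F F' := h2.symm.mono_left h1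
    rw [if_pos ⟨Finset.subset_union_right,
      Finset.disjoint_union_right.2 ⟨Finset.disjoint_sdiff, h3⟩⟩,
      Finset.union_sdiff_cancel_right (h2.symm.mono_left Finset.sdiff_subset),
      Finset.sdiff_union_of_subset h1]
  · exact absurd h hne

theorem count_symm (E E' : Finset (Edge n)) :
    (proposalCount E E' : ℝ) = proposalCount E' E := by
  by_cases hne : E = E'
  · rw [hne]
  rw [count_eq, count_eq]
  refine Finset.sum_bij' (fun p _ => (p.1, p.2.2, p.2.1)) (fun p _ => (p.1, p.2.2, p.2.1))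
    (fun p hp => ?_) (fun p hp => ?_) (fun _ _ => rfl) (fun _ _ => rfl) (fun p _ => ?_)
  · rw [mem_props] at hp ⊢; exact ⟨hp.1, hp.2.2.1, hp.2.1, hp.2.2.2.symm⟩
  · rw [mem_props] at hp ⊢; exact ⟨hp.1, hp.2.2.1, hp.2.1, hp.2.2.2.symm⟩
  · exact if_congr ⟨switch_rev hne, switch_rev (Ne.symm hne)⟩ rfl rfl

theorem sum_count {d : Fin n → ℕ} {E : Finset (Edge n)} (hE : E ∈ realizations d)
    (φ : Finset (Edge n) → ℝ) : ∑ E' ∈ realizations d, (proposalCount E E' : ℝ) * φ E'
      = ∑ p ∈ props n, φ (switchResult E p.2.1 p.2.2) := by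
  simp only [count_eq, Finset.sum_mul, ite_mul, one_mul, zero_mul]
  rw [Finset.sum_comm]
  refine Finset.sum_congr rfl fun p hp => ?_
  rw [Finset.sum_ite_eq, if_pos (switch_mem hp hE)]

theorem count_out {d : Fin n → ℕ} {E E' : Finset (Edge n)} (hE : E ∈ realizations d)
    (hE' : E' ∉ realizations d) : (proposalCount E E' : ℝ) = 0 := by
  rw [count_eq]
  refine Finset.sum_eq_zero fun p hp => if_neg fun h => hE' ?_
  rw [← h]
  exact switch_mem hp hE

/-- The non-lazy kernel. -/
noncomputable def kerQ (n : ℕ) : Matrix (Finset (Edge n)) (Finset (Edge n)) ℝ :=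
  fun E E' => (proposalCount E E' : ℝ) / (6 * n.choose 4)

theorem kernel_eq (E E' : Finset (Edge n)) :
    kernel n E E' = (if E = E' then 1 / 2 else 0) + kerQ n E E' / 2 := by
  simp only [kernel, kerQ]
  rw [div_div]; congr 2; ring

theorem kerQ_row (hn : 4 ≤ n) {d : Fin n → ℕ} {E : Finset (Edge n)} (hE : E ∈ realizations d) :
    ∑ E' ∈ realizations d, kerQ n E E' = 1 := by
  have hC : (0 : ℝ) < n.choose 4 := by exact_mod_cast Nat.choose_pos hn
  have := sum_count hE (fun _ => 1)
  simp only [mul_one, Finset.sum_const, nsmul_eq_mul, card_props] at this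
  simp only [kerQ, ← Finset.sum_div, this]
  field_simp

theorem kernel_energy (hn : 4 ≤ n) (d : Fin n → ℕ) (f : Finset (Edge n) → ℝ) :
    24 * (n.choose 4 : ℝ) * ∑ G ∈ realizations d,
        f G * (f G - ∑ G' ∈ realizations d, kernel n G G' * f G')
      = ∑ p ∈ props n, ∑ G ∈ realizations d, (f G - f (switchResult G p.2.1 p.2.2)) ^ 2 := by
  have hC : (0 : ℝ) < n.choose 4 := by exact_mod_cast Nat.choose_pos hn
  rw [energy_eq _ _ (fun x y => by
      rw [kernel_eq, kernel_eq, kerQ, kerQ, count_symm x y]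
      congr 1; exact if_congr eq_comm rfl rfl) (fun x hx => by
      simp only [kernel_eq, Finset.sum_add_distrib, Finset.sum_ite_eq, hx, if_true,
        ← Finset.sum_div, kerQ_row hn hx]
      norm_num), Finset.sum_comm (s := props n), Finset.mul_sum, Finset.mul_sum]
  refine Finset.sum_congr rfl fun G hG => ?_
  rw [← sum_count hG (fun G' => (f G - f G') ^ 2), Finset.mul_sum, Finset.mul_sum]
  refine Finset.sum_congr rfl fun G' _ => ?_
  simp only [kernel]
  split_ifs with h
  · simp [h]
  · field_simp; ring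

end Crest.Agent.R299
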