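import Crest.Agent.R299.Main
import Crest.Agent.R299.Props

/-!
From the Poincare inequality on adjacency matrices to the statement on edge sets.
-/

open Finset Matrix Crest.SwitchChain

namespace Crest.Agent.R299

variable {n : ℕ}

/-- The edge set of an adjacency matrix. -/
def toE (M : Fin n → Fin n → Bool) : Finset (Edge n) :=
  univ.filter fun e => ∃ a b, e.1 = s(a, b) ∧ M a b = true

theorem mem_toE {M : Fin n → Fin n → Bool} (hs : ∀ u v, M u v = M v u) {e : Edge n}
    {a b : Fin n} (he : e.1 = s(a, b)) : e ∈ toE M ↔ M a b = true := by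
  simp only [toE, Finset.mem_filter, Finset.mem_univ, true_and, he]
  constructor
  · rintro ⟨x, y, h1, h2⟩
    rcases Sym2.eq_iff.1 h1 with ⟨rfl, rfl⟩ | ⟨rfl, rfl⟩
    · exact h2
    · rwa [hs]
  · exact fun h => ⟨a, b, rfl, h⟩

theorem edge_cases (e : Edge n) : ∃ a b, a ≠ b ∧ e.1 = s(a, b) := by
  obtain ⟨e, he⟩ := e
  induction e using Sym2.ind with
  | h a b => exact ⟨a, b, by simpa using he, rfl⟩

theorem deg_toE {M : Fin n → Fin n → Bool} (hs : ∀ u v, M u v = M v u) (h0 : ∀ u, M u u = false)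
    (v : Fin n) : deg (toE M) v = ∑ u, (M v u).toNat := by
  have h1 : ∑ u, (M v u).toNat = (univ.filter fun u => M v u = true).card := by
    rw [Finset.card_filter]
    refine Finset.sum_congr rfl fun u _ => ?_
    cases M v u <;> simp
  rw [h1, deg]
  symm
  have hne : ∀ u ∈ univ.filter fun u => M v u = true, v ≠ u := by
    rintro u hu rfl
    simp [h0] at hu
  refine Finset.card_bij (fun u hu => ed (hne u hu)) (fun u hu => ?_) (fun u hu w hw h => ?_)
    (fun e he => ?_)
  · exact Finset.mem_filter.2 ⟨(mem_toE hs rfl).2 (Finset.mem_filter.1 hu).2, by simp [ed]⟩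
  · have := hne u hu
    simp only [ed, Subtype.mk.injEq, Sym2.eq_iff, true_and] at h
    rcases h with h | ⟨h1, h2⟩
    · exact h
    · exact absurd h2.symm this
  · obtain ⟨he1, he2⟩ := Finset.mem_filter.1 he
    obtain ⟨u, hu⟩ := Sym2.mem_iff_exists.1 he2
    exact ⟨u, Finset.mem_filter.2 ⟨Finset.mem_univ _, (mem_toE hs hu).1 he1⟩,
      Subtype.ext hu.symm⟩

theorem sum_toE {M : Type} [AddCommMonoid M] (d : Fin n → ℕ) (φ : Finset (Edge n) → M) :
    ∑ G : Gr d, φ (toE G.1) = ∑ E ∈ realizations d, φ E := by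
  refine Finset.sum_bij (fun G _ => toE G.1) (fun G _ => ?_) (fun G _ G' _ h => ?_)
    (fun E hE => ?_) (fun _ _ => rfl)
  · simp only [realizations, Finset.mem_filter, Finset.mem_univ, true_and]
    exact fun v => by rw [deg_toE G.2.1 G.2.2.1, G.2.2.2]
  · refine Subtype.ext (funext fun a => funext fun b => ?_)
    by_cases hab : a = b
    · subst hab; rw [G.2.2.1, G'.2.2.1]
    · rw [Bool.eq_iff_iff, ← mem_toE G.2.1 (e := ed hab) rfl, ← mem_toE G'.2.1 (e := ed hab) rfl, h]
  · set M : Fin n → Fin n → Bool := fun a b => decide (∃ e ∈ E, e.1 = s(a, b)) with hM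
    have hs : ∀ u v, M u v = M v u := fun u v => by simp only [hM, Sym2.eq_swap (a := u)]
    have h0 : ∀ u, M u u = false := fun u => by
      simp only [hM, decide_eq_false_iff_not, not_exists, not_and]
      exact fun e _ h => e.2 (by simp [h])
    have hE' : toE M = E := by
      ext e
      obtain ⟨a, b, -, he⟩ := edge_cases e
      rw [mem_toE hs he]
      simp only [hM, decide_eq_true_eq, ← he]
      exact ⟨fun ⟨e', h1, h2⟩ => Subtype.ext h2 ▸ h1, fun h => ⟨e, h, rfl⟩⟩
    refine ⟨⟨M, hs, h0, fun u => ?_⟩, Finset.mem_univ _, hE'⟩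
    rw [← deg_toE hs h0, hE']
    exact (Finset.mem_filter.1 hE).2 u

theorem toE_sw_of {d : Fin n → ℕ} {i j k l : Fin n} {G : Gr d} (h : Alt i j k l G)
    (hik : G.1 i k = true) :
    toE (sw i j k l G).1 = switchResult (toE G.1) (pm i k j l) (pm i l j k) := by
  obtain ⟨⟨hij, hik', hil, hjk, hjl, hkl⟩, h1, h2, h3⟩ := h.imp id id
  have hs := G.2.1
  have e1 : G.1 j k = false := by simpa [hik] using h1
  have e2 : G.1 i l = false := by simpa [hik] using h3
  have e3 : G.1 j l = true := by simpa [e2] using h2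
  rw [switchResult, if_pos]
  · ext e
    obtain ⟨a, b, hab, he⟩ := edge_cases e
    rw [mem_toE (sw i j k l G).2.1 he, Finset.mem_union, Finset.mem_sdiff, mem_toE hs he, mem_pm,
      mem_pm, he]
    simp only [sw, dif_pos h, tog, Sym2.eq_iff]
    have f1 := hs k i
    have f2 := hs k j
    have f3 := hs l i
    have f4 := hs l j
    split_ifs with hc
    · rcases hc with ⟨rfl | rfl, rfl | rfl⟩ | ⟨rfl | rfl, rfl | rfl⟩ <;>
        simp [hik, e1, e2, e3, f1, f2, f3, f4, hij, hik', hil, hjk, hjl, hkl, hij.symm, hik'.symm,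
          hil.symm, hjk.symm, hjl.symm, hkl.symm]
    · constructor
      · intro hab
        exact Or.inl ⟨hab, by tauto⟩
      · rintro (hab | hab)
        · exact hab.1
        · exfalso; tauto
  · refine ⟨fun e he => ?_, Finset.disjoint_left.2 fun e he he' => ?_⟩
    · rcases mem_pm.1 he with he | he
      · exact (mem_toE hs he).2 hik
      · exact (mem_toE hs he).2 e3
    · rcases mem_pm.1 he with he | he
      · simp [mem_toE hs he, e2] at he'
      · simp [mem_toE hs he, e1] at he'

theorem alt_swap {d : Fin n → ℕ} {i j k l : Fin n} {G : Gr d} (h : Alt i j k l G) :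
    Alt i j l k G := by
  obtain ⟨⟨hij, hik', hil, hjk, hjl, hkl⟩, h1, h2, h3⟩ := h
  exact ⟨⟨hij, hil, hik', hjl, hjk, hkl.symm⟩, h2, h1, h3.symm⟩

theorem sw_swap {d : Fin n → ℕ} {i j k l : Fin n} {G : Gr d} (h : Alt i j k l G) :
    sw i j k l G = sw i j l k G := by
  refine Subtype.ext ?_
  simp only [sw, dif_pos h, dif_pos (alt_swap h)]
  funext x y
  simp only [tog]
  exact if_congr (by tauto) rfl rfl

/-- The energy of one proposal. -/
noncomputable def enP (d : Fin n → ℕ) (f : Finset (Edge n) → ℝ)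
    (p : Finset (Fin n) × Finset (Edge n) × Finset (Edge n)) : ℝ :=
  ∑ G ∈ realizations d, (f G - f (switchResult G p.2.1 p.2.2)) ^ 2

theorem enP_nonneg (d : Fin n → ℕ) (f : Finset (Edge n) → ℝ)
    (p : Finset (Fin n) × Finset (Edge n) × Finset (Edge n)) : 0 ≤ enP d f p :=
  Finset.sum_nonneg fun _ _ => sq_nonneg _

/-- The four vertices are distinct. -/
def Dist (i j k l : Fin n) : Prop := i ≠ j ∧ i ≠ k ∧ i ≠ l ∧ j ≠ k ∧ j ≠ l ∧ k ≠ l

instance (i j k l : Fin n) : Decidable (Dist i j k l) := by unfold Dist; infer_instance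

theorem en_le (d : Fin n → ℕ) (f : Finset (Edge n) → ℝ) (i j k l : Fin n) :
    en i j k l (fun G : Gr d => f (toE G.1))
      ≤ (if Dist i j k l then enP d f ({i, k, j, l}, pm i k j l, pm i l j k) else 0)
        + (if Dist i j l k then enP d f ({i, l, j, k}, pm i l j k, pm i k j l) else 0) := by
  by_cases hD : Dist i j k l
  · have hD' : Dist i j l k := by
      obtain ⟨hij, hik', hil, hjk, hjl, hkl⟩ := hD
      exact ⟨hij, hil, hik', hjl, hjk, hkl.symm⟩
    rw [if_pos hD, if_pos hD', enP, enP, ← sum_toE, ← sum_toE, ← Finset.sum_add_distrib, en]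
    refine Finset.sum_le_sum fun G _ => ?_
    by_cases h : Alt i j k l G
    · by_cases hik : G.1 i k = true
      · rw [toE_sw_of h hik]
        exact le_add_of_nonneg_right (sq_nonneg _)
      · have hil : G.1 i l = true := by
          have := h.2.2.2
          revert this hik
          cases G.1 i k <;> cases G.1 i l <;> simp
        rw [sw_swap h, toE_sw_of (alt_swap h) hil]
        exact le_add_of_nonneg_left (sq_nonneg _)
    · simp only [sw, dif_neg h, sub_self]
      rw [zero_pow two_ne_zero]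
      positivity
  · have : en i j k l (fun G : Gr d => f (toE G.1)) = 0 := by
      refine Finset.sum_eq_zero fun G _ => ?_
      have h : ¬ Alt i j k l G := fun h => hD h.1
      simp [sw, dif_neg h]
    rw [this]
    refine add_nonneg ?_ ?_ <;> split_ifs <;> first | exact enP_nonneg _ _ _ | exact le_rfl

theorem sum_dist_le (d : Fin n → ℕ) (f : Finset (Edge n) → ℝ) (i j : Fin n) :
    ∑ k, ∑ l, (if Dist i j k l then enP d f ({i, k, j, l}, pm i k j l, pm i l j k) else 0)
      ≤ ∑ p ∈ props n, enP d f p := by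
  rw [← Fintype.sum_prod_type' (f := fun k l =>
    if Dist i j k l then enP d f ({i, k, j, l}, pm i k j l, pm i l j k) else 0),
    ← Finset.sum_filter, ← Finset.sum_image (f := enP d f)
      (g := fun q : Fin n × Fin n => (({i, q.1, j, q.2} : Finset (Fin n)), pm i q.1 j q.2,
        pm i q.2 j q.1))]
  · refine Finset.sum_le_sum_of_subset_of_nonneg (fun p hp => ?_) fun p _ _ => enP_nonneg d f p
    obtain ⟨⟨k, l⟩, hq, rfl⟩ := Finset.mem_image.1 hp
    obtain ⟨hij, hik, hil, hjk, hjl, hkl⟩ := (Finset.mem_filter.1 hq).2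
    have e : ({i, l, j, k} : Finset (Fin n)) = {i, k, j, l} := by ext; simp; tauto
    refine mem_props.2 ⟨?_, pm_mem_pmSet hik hij hil hjk.symm hkl hjl,
      e ▸ pm_mem_pmSet hil hij hik hjl.symm hkl.symm hjk, fun h => ?_⟩
    · rw [Finset.card_insert_of_notMem (by simp [hik, hij, hil]),
        Finset.card_insert_of_notMem (by simp [hjk.symm, hkl]), Finset.card_pair hjl]
    · have : ed hil ∈ pm i k j l := by
        have h' : pm i l j k = pm i k j l := h
        exact h' ▸ mem_pm.2 (Or.inl rfl)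
      simp only at hij hik hil hjk hjl hkl
      simp [mem_pm, ed, hij, hik, hil, hkl.symm] at this
  · rintro ⟨k, l⟩ hq ⟨k', l'⟩ hq' h
    obtain ⟨hij, hik, hil, hjk, hjl, hkl⟩ := (Finset.mem_filter.1 hq).2
    obtain ⟨-, hik', hil', -, -, -⟩ := (Finset.mem_filter.1 hq').2
    simp only [Prod.mk.injEq] at h hij hik hil hik' hil' ⊢
    obtain ⟨-, h1, h2⟩ := h
    have m1 : ed hik ∈ pm i k' j l' := h1 ▸ mem_pm.2 (Or.inl rfl)
    have m2 : ed hil ∈ pm i l' j k' := h2 ▸ mem_pm.2 (Or.inl rfl)
    simp [mem_pm, ed, hij, hik', hil'] at m1 m2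
    exact ⟨m1, m2⟩

theorem poincare_edges (hn : 4 ≤ n) (d : Fin n → ℕ) (f : Finset (Edge n) → ℝ) :
    ((realizations d).card : ℝ) * (∑ G ∈ realizations d, f G ^ 2)
        - (∑ G ∈ realizations d, f G) ^ 2 ≤
      24 * (n : ℝ) ^ 2 * (n.choose 4 : ℝ) * (realizations d).card *
        ∑ G ∈ realizations d, f G * (f G - ∑ G' ∈ realizations d, kernel n G G' * f G') := by
  have h1 := switch_poincare (fun G : Gr d => f (toE G.1))
  have h2 : ∑ i, ∑ j, ∑ k, ∑ l, en i j k l (fun G : Gr d => f (toE G.1))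
      ≤ ∑ _i : Fin n, ∑ _j : Fin n, 2 * ∑ p ∈ props n, enP d f p := by
    refine Finset.sum_le_sum fun i _ => Finset.sum_le_sum fun j _ => ?_
    refine (Finset.sum_le_sum fun k _ => Finset.sum_le_sum fun l _ => en_le d f i j k l).trans ?_
    simp only [Finset.sum_add_distrib]
    rw [Finset.sum_comm (f := fun k l =>
      if Dist i j l k then enP d f ({i, l, j, k}, pm i l j k, pm i k j l) else 0)]
    have := sum_dist_le d f i j
    linarith
  simp only [Finset.sum_const, Finset.card_univ, Fintype.card_fin, nsmul_eq_mul] at h2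
  have h3 := kernel_energy hn d f
  have hcard : ((realizations d).card : ℝ) = Fintype.card (Gr d) := by
    have := sum_toE d (fun _ => (1 : ℝ))
    simpa using this.symm
  have h4 : ((realizations d).card : ℝ) * (∑ G ∈ realizations d, f G ^ 2)
      - (∑ G ∈ realizations d, f G) ^ 2
      = (realizations d).card * dir (fun _ => ()) (fun G : Gr d => f (toE G.1)) := by
    rw [dir_eq, ← sum_toE, ← sum_toE, hcard]
    rcases isEmpty_or_nonempty (Gr d) with hG | hG
    · simp
    have : (Fintype.card (Gr d) : ℝ) ≠ 0 := by exact_mod_cast Fintype.card_ne_zero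
    simp only [dotProduct, cE_mulVec, Finset.filter_true, Finset.card_univ, ← Finset.sum_mul, sq]
    field_simp
  have h5 : dir (fun _ => ()) (fun G : Gr d => f (toE G.1))
      ≤ (n : ℝ) ^ 2 * ∑ p ∈ props n, enP d f p := by nlinarith
  rw [h4]
  calc _ ≤ ((realizations d).card : ℝ) * ((n : ℝ) ^ 2 * ∑ p ∈ props n, enP d f p) :=
        mul_le_mul_of_nonneg_left h5 (Nat.cast_nonneg _)
    _ = _ := by simp only [enP]; rw [← h3]; ring

theorem card_real_le (d : Fin n → ℕ) : (realizations d).card ≤ 2 ^ (n ^ 2) := by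
  refine (Finset.card_le_univ _).trans ?_
  rw [Fintype.card_finset]
  refine Nat.pow_le_pow_right (by norm_num) ((Fintype.card_subtype_le _).trans ?_)
  have := Fintype.card_le_of_surjective (fun p : Fin n × Fin n => s(p.1, p.2)) (fun e => by
    induction e using Sym2.ind with
    | h a b => exact ⟨(a, b), rfl⟩)
  simpa [sq] using this

theorem mixing (hn : 4 ≤ n) (d : Fin n → ℕ) {G : Finset (Edge n)} (hG : G ∈ realizations d) :
    tvDist (fun G' => (kernel n ^ (2 * n ^ 8)) G G') (unifOn (realizations d)) ≤ 1 / 4 := by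
  have hC : (1 : ℝ) ≤ n.choose 4 := by exact_mod_cast Nat.choose_pos hn
  have hn' : (4 : ℝ) ≤ n := by exact_mod_cast hn
  have hR : (0 : ℝ) < (realizations d).card := by exact_mod_cast Finset.card_pos.2 ⟨G, hG⟩
  have hC' : 24 * (n.choose 4 : ℝ) ≤ (n : ℝ) ^ 4 := by
    have := Nat.choose_le_pow_div (α := ℝ) 4 n
    norm_num [Nat.factorial] at this
    linarith
  set L : ℝ := 24 * (n : ℝ) ^ 2 * (n.choose 4 : ℝ) with hL
  have hL1 : 1 ≤ L := by nlinarith
  have hL2 : L ≤ (n : ℝ) ^ 6 := by
    have := mul_le_mul_of_nonneg_left hC' (sq_nonneg (n : ℝ))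
    nlinarith
  obtain ⟨h1, -, h3⟩ := mix (realizations d) (kernel n) (kerQ n) kernel_eq
    (fun x y => by unfold kerQ; positivity) (fun x y => by rw [kerQ, kerQ, count_symm])
    (fun x hx => kerQ_row hn hx) (fun x hx y hy => by rw [kerQ, count_out hx hy, zero_div])
    (1 / L) (by rw [div_le_one (by linarith)]; exact hL1) (fun f hf => by
      have := poincare_edges hn d f
      rw [hf] at this
      rw [div_mul_eq_mul_div, one_mul, div_le_iff₀ (by linarith)]
      refine le_of_mul_le_mul_left ?_ hR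
      nlinarith) hG (2 * n ^ 8)
  have h4 : ∑ a, |(kernel n ^ (2 * n ^ 8)) G a - unifOn (realizations d) a|
      = ∑ a ∈ realizations d, |(kernel n ^ (2 * n ^ 8)) G a - 1 / (realizations d).card| := by
    rw [← Finset.sum_subset (Finset.subset_univ (realizations d)) (fun a _ ha => by
      simp [unifOn, ha, h1 a ha])]
    exact Finset.sum_congr rfl fun a ha => by simp [unifOn, ha]
  have h5 := sq_sum_le_card_mul_sum_sq (s := realizations d)
    (f := fun a => |(kernel n ^ (2 * n ^ 8)) G a - 1 / (realizations d).card|)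
  simp only [sq_abs] at h5
  have h6 : (1 - 1 / L) ^ (2 * n ^ 8) ≤ Real.exp (-(2 * n ^ 2 : ℕ)) := by
    have a1 : 1 - 1 / L ≤ Real.exp (-(1 / L)) := by
      have := Real.add_one_le_exp (-(1 / L)); linarith
    have a0 : 0 ≤ 1 - 1 / L := by
      rw [sub_nonneg, div_le_one (by linarith)]; exact hL1
    refine (pow_le_pow_left₀ a0 a1 _).trans ?_
    rw [← Real.exp_nat_mul, Real.exp_le_exp]
    push_cast
    rw [mul_neg, neg_le_neg_iff, mul_one_div, le_div_iff₀ (by linarith)]
    have := mul_le_mul_of_nonneg_left hL2 (sq_nonneg (n : ℝ))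
    nlinarith
  have h7 : (4 : ℝ) * 2 ^ (n ^ 2) ≤ Real.exp ((2 * n ^ 2 : ℕ)) := by
    have a1 : (2 : ℝ) ≤ Real.exp 1 := by have := Real.add_one_le_exp 1; linarith
    have a2 : (2 : ℝ) ^ (2 * n ^ 2) ≤ Real.exp ((2 * n ^ 2 : ℕ)) := by
      rw [← Real.exp_one_pow]
      exact pow_le_pow_left₀ (by norm_num) a1 _
    refine le_trans ?_ a2
    rw [show (4 : ℝ) = 2 ^ 2 by norm_num, ← pow_add]
    exact pow_le_pow_right₀ (by norm_num) (by nlinarith)
  have h8 : ((realizations d).card : ℝ) ≤ 2 ^ (n ^ 2) := by exact_mod_cast card_real_le d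
  have h9 : ((realizations d).card : ℝ) * Real.exp (-(2 * n ^ 2 : ℕ)) ≤ 1 / 4 := by
    rw [Real.exp_neg, ← div_eq_mul_inv, div_le_iff₀ (Real.exp_pos _)]
    linarith
  have h10 : (∑ a ∈ realizations d,
      |(kernel n ^ (2 * n ^ 8)) G a - 1 / (realizations d).card|) ^ 2 ≤ (1 / 2) ^ 2 := by
    refine h5.trans ((mul_le_mul_of_nonneg_left (h3.trans h6) hR.le).trans ?_)
    linarith
  have h11 := le_of_sq_le_sq h10 (by norm_num)
  rw [tvDist, h4]
  linarith

end Crest.Agent.R299
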