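import Crest.Agent.R299.CE

open Finset Matrix

namespace Crest.Agent.R299

section Proj

variable {Ω : Type} [Fintype Ω] [DecidableEq Ω]

theorem dot_proj_comm (P Q : Matrix Ω Ω ℝ) (hP : Pᵀ = P) (hQ : Qᵀ = Q) (hPP : P * P = P)
    (hQQ : Q * Q = Q) (h : Commute P Q) (f : Ω → ℝ) :
    (P *ᵥ f) ⬝ᵥ (Q *ᵥ f) = ((P * Q) *ᵥ f) ⬝ᵥ ((P * Q) *ᵥ f) := by
  have e : (P * Q)ᵀ * (P * Q) = Pᵀ * Q := by
    rw [transpose_mul, hP, hQ, Matrix.mul_assoc, ← Matrix.mul_assoc P, hPP, ← Matrix.mul_assoc,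
      ← h.eq, Matrix.mul_assoc, hQQ]
  have e2 : ∀ A B : Matrix Ω Ω ℝ, (A *ᵥ f) ⬝ᵥ (B *ᵥ f) = f ⬝ᵥ ((Aᵀ * B) *ᵥ f) := fun A B => by
    rw [← mulVec_mulVec, dotProduct_mulVec f, vecMul_transpose]
  rw [e2, e2, e]

theorem four_abstract (Ea Ea' Eb Eb' : Matrix Ω Ω ℝ) (ta : Eaᵀ = Ea) (ta' : Ea'ᵀ = Ea')
    (tb : Ebᵀ = Eb) (tb' : Eb'ᵀ = Eb') (ia : Ea * Ea = Ea) (ia' : Ea' * Ea' = Ea')
    (ib : Eb * Eb = Eb) (ib' : Eb' * Eb' = Eb') (a1 : Ea' * Ea = Ea) (a2 : Ea * Ea' = Ea)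
    (b1 : Eb' * Eb = Eb) (b2 : Eb * Eb' = Eb) (c1 : Commute Ea' Eb') (c2 : Commute Ea Eb')
    (c3 : Commute Ea' Eb) (f : Ω → ℝ) :
    (((1 - Ea') * (1 - Eb')) *ᵥ f) ⬝ᵥ (((1 - Ea') * (1 - Eb')) *ᵥ f)
      + (Ea' *ᵥ f - Ea *ᵥ f) ⬝ᵥ (Eb' *ᵥ f - Eb *ᵥ f) ≤ (f - Ea *ᵥ f) ⬝ᵥ (f - Eb *ᵥ f) := by
  have p1 : ∀ E : Matrix Ω Ω ℝ, E * E = E → (1 - E) * (1 - E) = 1 - E := fun E h => by
    simp [Matrix.sub_mul, Matrix.mul_sub, h]
  have h1 := dot_proj_comm (1 - Ea') (1 - Eb') (by simp [transpose_sub, ta'])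
    (by simp [transpose_sub, tb']) (p1 _ ia') (p1 _ ib')
    ((Commute.one_left _).sub_left ((Commute.one_right _).sub_right c1)) f
  have h2 := dot_proj_comm (Ea' - Ea) (1 - Eb') (by simp [transpose_sub, ta, ta'])
    (by simp [transpose_sub, tb']) (by simp [Matrix.sub_mul, Matrix.mul_sub, ia, ia', a1, a2])
    (p1 _ ib') ((Commute.one_right _).sub_right (c1.sub_left c2)) f
  have h3 := dot_proj_comm (1 - Ea') (Eb' - Eb) (by simp [transpose_sub, ta'])
    (by simp [transpose_sub, tb, tb']) (p1 _ ia')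
    (by simp [Matrix.sub_mul, Matrix.mul_sub, ib, ib', b1, b2])
    ((Commute.one_left _).sub_left (c1.sub_right c3)) f
  have h2' := dot_self_nonneg (((Ea' - Ea) * (1 - Eb')) *ᵥ f)
  have h3' := dot_self_nonneg (((1 - Ea') * (Eb' - Eb)) *ᵥ f)
  rw [← h2] at h2'
  rw [← h3] at h3'
  rw [← h1]
  simp only [Matrix.sub_mulVec, one_mulVec, sub_dotProduct, dotProduct_sub] at h2' h3' ⊢
  linarith

end Proj

variable {V : Type} [Fintype V] [DecidableEq V] {d : V → ℕ}

theorem sum_split2 (F : V → ℕ) {i j : V} (hij : i ≠ j) :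
    ∑ v, F v = F i + F j + ∑ v ∈ (univ.erase i).erase j, F v := by
  rw [← Finset.add_sum_erase _ _ (mem_univ i),
    ← Finset.add_sum_erase (univ.erase i) _ (Finset.mem_erase.2 ⟨hij.symm, mem_univ j⟩), add_assoc]

theorem key2_eq {i j : V} {G H : Gr d} (h : key2 i j G = key2 i j H) {x y : V}
    (hxy : (x = i ∨ x = j) ↔ (y = i ∨ y = j)) : G.1 x y = H.1 x y := by
  have := congrFun (congrFun h x) y
  simpa only [key2, if_pos hxy] using this

theorem key2_ext {i j : V} {G H : Gr d}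
    (h : ∀ x y, ((x = i ∨ x = j) ↔ (y = i ∨ y = j)) → G.1 x y = H.1 x y) :
    key2 i j G = key2 i j H := by
  funext x y
  simp only [key2]
  split_ifs with hxy
  · exact h x y hxy
  · rfl

theorem col_eq {i j : V} (hij : i ≠ j) {G H : Gr d} (h : key2 i j G = key2 i j H) {u : V}
    (hi : u ≠ i) (hj : u ≠ j) :
    (G.1 u i).toNat + (G.1 u j).toNat = (H.1 u i).toNat + (H.1 u j).toNat := by
  have h1 := G.2.2.2 u
  have h2 := H.2.2.2 u
  rw [sum_split2 _ hij] at h1 h2
  have : ∑ v ∈ (univ.erase i).erase j, (G.1 u v).toNat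
      = ∑ v ∈ (univ.erase i).erase j, (H.1 u v).toNat :=
    Finset.sum_congr rfl fun v hv => by
      simp only [Finset.mem_erase] at hv
      rw [key2_eq h (by simp [hi, hj, hv.1, hv.2.1])]
  omega

theorem alt_symm {i j k l : V} {G : Gr d} (h : Alt i j k l G) : Alt k l i j G := by
  obtain ⟨⟨hij, hik, hil, hjk, hjl, hkl⟩, h1, h2, h3⟩ := h
  refine ⟨⟨hkl, hik.symm, hjk.symm, hil.symm, hjl.symm, hij⟩, ?_⟩
  rw [G.2.1 k i, G.2.1 l i, G.2.1 k j, G.2.1 l j]
  revert h1 h2 h3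
  cases G.1 i k <;> cases G.1 i l <;> cases G.1 j k <;> cases G.1 j l <;> simp

theorem sw_symm (i j k l : V) (G : Gr d) : sw i j k l G = sw k l i j G := by
  unfold sw
  by_cases h : Alt i j k l G
  · rw [dif_pos h, dif_pos (alt_symm h)]
    refine Subtype.ext ?_
    funext x y
    simp only [tog, or_comm]
  · rw [dif_neg h, dif_neg (fun h' => h (alt_symm h'))]

theorem alt_sw {i j k l : V} {G : Gr d} (h : Alt i j k l G) : Alt i j k l (sw i j k l G) := by
  rw [sw, dif_pos h]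
  obtain ⟨hd, h1, h2, h3⟩ := h
  refine ⟨hd, ?_⟩
  simp [tog, h1, h2, h3]

theorem sw_sw (i j k l : V) (G : Gr d) : sw i j k l (sw i j k l G) = G := by
  by_cases h : Alt i j k l G
  · rw [sw, dif_pos (alt_sw h)]
    refine Subtype.ext ?_
    funext x y
    simp only [sw, dif_pos h, tog]
    split_ifs <;> simp
  · simp only [sw, dif_neg h]

theorem key2_sw (i j k l : V) (G : Gr d) : key2 i j (sw i j k l G) = key2 i j G := by
  by_cases h : Alt i j k l G
  · refine key2_ext fun x y hxy => ?_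
    simp only [sw, dif_pos h, tog]
    obtain ⟨⟨hij, hik, hil, hjk, hjl, hkl⟩, -⟩ := h
    rw [if_neg]
    rintro (⟨h1, rfl | rfl⟩ | ⟨rfl | rfl, h1⟩)
    · rcases hxy.1 h1 with h | h <;> simp_all
    · rcases hxy.1 h1 with h | h <;> simp_all
    · rcases hxy.2 h1 with h | h <;> simp_all
    · rcases hxy.2 h1 with h | h <;> simp_all
  · simp only [sw, dif_neg h]

theorem key2'_sw (i j k l : V) (G : Gr d) : key2' i j k l (sw i j k l G) = key2' i j k l G := by
  refine Prod.ext (key2_sw i j k l G) ?_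
  by_cases h : Alt i j k l G
  · simp only [key2', sw, dif_pos h, tog]
    obtain ⟨-, h1, h2, h3⟩ := h
    revert h1 h2 h3
    cases G.1 i k <;> cases G.1 i l <;> cases G.1 j k <;> cases G.1 j l <;> simp
  · simp only [sw, dif_neg h]

theorem exists_transport {i j k l : V} (hij : i ≠ j) (hik : i ≠ k) (hil : i ≠ l) (hjk : j ≠ k)
    (hjl : j ≠ l) (hkl : k ≠ l) (G G' : Gr d) (h : key2' k l i j G = key2' k l i j G') :
    (key2' i j k l G).2 = (key2' i j k l G').2 ∧ ∃ Φ : Gr d → Gr d,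
      (∀ H, key2 i j H = key2 i j G → key2 i j (Φ H) = key2 i j G' ∧
        key2' k l i j (Φ H) = key2' k l i j H ∧ (key2' i j k l (Φ H)).2 = (key2' i j k l H).2) ∧
      Set.InjOn Φ {H | key2 i j H = key2 i j G} := by
  have hb : key2 k l G = key2 k l G' := congrArg Prod.fst h
  have hb2 := congrArg Prod.snd h
  have ri := col_eq hkl hb hik hil
  have rj := col_eq hkl hb hjk hjl
  refine ⟨by simp only [key2', add_assoc, ri, rj], ?_⟩
  simp only [key2', G.2.1 k, G.2.1 l, G'.2.1 k, G'.2.1 l] at hb2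
  have bnd : ∀ b : Bool, b.toNat ≤ 1 := fun b => by cases b <;> simp
  obtain ⟨σ, hσσ, hσi, hσj, hσo, hσc, hσe⟩ : ∃ σ : Equiv.Perm V, (∀ x, σ (σ x) = x) ∧ σ i = i ∧
      σ j = j ∧ (∀ x, x ≠ k → x ≠ l → σ x = x) ∧
      (∀ u, u = k ∨ u = l → (G.1 (σ u) i).toNat + (G.1 (σ u) j).toNat
        = (G'.1 u i).toNat + (G'.1 u j).toNat) ∧
      ((σ k = k ∧ σ l = l) ∨ ((σ k = l ∧ σ l = k) ∧
        Odd ((G.1 k i).toNat + (G.1 k j).toNat + ((G.1 l i).toNat + (G.1 l j).toNat)))) := by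
    by_cases hc : (G.1 i k).toNat + (G.1 j k).toNat = (G'.1 i k).toNat + (G'.1 j k).toNat
    · refine ⟨1, fun _ => rfl, rfl, rfl, fun _ _ _ => rfl, ?_, Or.inl ⟨rfl, rfl⟩⟩
      rintro u (rfl | rfl) <;>
        simp only [Equiv.Perm.one_apply, G.2.1 u, G'.2.1 u] <;> omega
    · have hodd : Odd ((G.1 i k).toNat + (G.1 j k).toNat + (G.1 i l).toNat + (G.1 j l).toNat) := by
        by_contra hn
        rw [if_neg hn, if_neg] at hb2
        · exact hc hb2
        · rwa [show (G'.1 i k).toNat + (G'.1 j k).toNat + (G'.1 i l).toNat + (G'.1 j l).toNat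
            = (G.1 i k).toNat + (G.1 j k).toNat + (G.1 i l).toNat + (G.1 j l).toNat by omega]
      refine ⟨Equiv.swap k l, fun x => Equiv.swap_apply_self _ _ _,
        Equiv.swap_apply_of_ne_of_ne hik hil, Equiv.swap_apply_of_ne_of_ne hjk hjl,
        fun x h1 h2 => Equiv.swap_apply_of_ne_of_ne h1 h2, ?_,
        Or.inr ⟨⟨Equiv.swap_apply_left _ _, Equiv.swap_apply_right _ _⟩, ?_⟩⟩
      · obtain ⟨m, hm⟩ := hodd
        have := bnd (G.1 i k); have := bnd (G.1 i l); have := bnd (G.1 j k); have := bnd (G.1 j l)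
        have := bnd (G'.1 i k); have := bnd (G'.1 i l); have := bnd (G'.1 j k)
        have := bnd (G'.1 j l)
        rintro u (rfl | rfl)
        · simp only [Equiv.swap_apply_left, G.2.1 l, G'.2.1 u]; omega
        · simp only [Equiv.swap_apply_right, G.2.1 k, G'.2.1 u]; omega
      · simpa only [G.2.1 k, G.2.1 l, add_assoc] using hodd
  have hσne : ∀ u, u ≠ i → u ≠ j → σ u ≠ i ∧ σ u ≠ j := fun u h1 h2 =>
    ⟨fun h => h1 (σ.injective (h.trans hσi.symm)), fun h => h2 (σ.injective (h.trans hσj.symm))⟩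
  let B : Gr d → V → V → Bool := fun H x y =>
    if (x = i ∨ x = j) ∨ (y = i ∨ y = j) then H.1 (σ x) (σ y) else G'.1 x y
  have hB : ∀ H, key2 i j H = key2 i j G → IsReal d (B H) := by
    intro H hH
    refine ⟨fun u v => ?_, fun u => ?_, fun u => ?_⟩
    · simp only [B, H.2.1 (σ u), G'.2.1 u, or_comm]
    · simp only [B, H.2.2.1, G'.2.2.1, ite_self]
    · by_cases hu : u = i ∨ u = j
      · have hσu : σ u = u := by rcases hu with rfl | rfl <;> assumption
        simp only [B, hu, true_or, if_true, hσu]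
        rw [← H.2.2.2 u]
        exact Equiv.sum_comp σ (fun v => (H.1 u v).toNat)
      · rw [← G'.2.2.2 u, sum_split2 _ hij, sum_split2 _ hij]
        push Not at hu
        congr 1
        · simp only [B, true_or, or_true, if_true, hσi, hσj]
          rw [col_eq hij hH (hσne u hu.1 hu.2).1 (hσne u hu.1 hu.2).2]
          by_cases hu' : u = k ∨ u = l
          · exact hσc u hu'
          · push Not at hu'
            rw [hσo u hu'.1 hu'.2, key2_eq hb (by simp [hu'.1, hu'.2, hik, hil]),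
              key2_eq hb (x := u) (y := j) (by simp [hu'.1, hu'.2, hjk, hjl])]
        · refine Finset.sum_congr rfl fun v hv => ?_
          simp only [Finset.mem_erase] at hv
          simp [B, hu.1, hu.2, hv.1, hv.2.1]
  refine ⟨fun H => if hH : key2 i j H = key2 i j G then ⟨B H, hB H hH⟩ else H, fun H hH => ?_, ?_⟩
  · simp only [dif_pos hH]
    have hk := col_eq hij hH hik.symm hjk.symm
    have hl := col_eq hij hH hil.symm hjl.symm
    refine ⟨key2_ext fun x y hxy => ?_, Prod.ext (key2_ext fun x y hxy => ?_) ?_, ?_⟩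
    · by_cases hx : x = i ∨ x = j
      · have hy := hxy.1 hx
        have hσx : σ x = x := by rcases hx with rfl | rfl <;> assumption
        have hσy : σ y = y := by rcases hy with rfl | rfl <;> assumption
        simp only [B, hx, true_or, if_true, hσx, hσy]
        rw [key2_eq hH hxy, key2_eq hb]
        rcases hx with rfl | rfl <;> rcases hy with rfl | rfl <;> simp [hik, hil, hjk, hjl]
      · have hy : ¬(y = i ∨ y = j) := fun h => hx (hxy.2 h)
        simp only [B, hx, hy, or_self, if_false]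
    · by_cases hc : (x = i ∨ x = j) ∨ (y = i ∨ y = j)
      · simp only [B, if_pos hc]
        have hx : ¬(x = k ∨ x = l) := by
          intro hx
          have hy := hxy.1 hx
          clear hB hb2 hσe hσc hσo
          have := hik.symm; have := hil.symm; have := hjk.symm; have := hjl.symm
          rcases hx with rfl | rfl <;> rcases hy with rfl | rfl <;> tauto
        have hy : ¬(y = k ∨ y = l) := fun h => hx (hxy.2 h)
        push Not at hx hy
        rw [hσo x hx.1 hx.2, hσo y hy.1 hy.2]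
      · simp only [B, if_neg hc]
        rw [← key2_eq hb hxy, key2_eq hH (by tauto)]
    · simp only [key2', B, true_or, or_true, if_true, hσi, hσj]
      rcases hσe with ⟨e1, e2⟩ | ⟨⟨e1, e2⟩, e3⟩
      · rw [e1, e2]
      · rw [e1, e2, if_pos, if_pos]
        · rwa [add_assoc, hk, hl]
        · rwa [add_assoc, hk, hl, add_comm]
    · simp only [key2', B, true_or, or_true, if_true, hσi, hσj]
      rcases hσe with ⟨e1, e2⟩ | ⟨⟨e1, e2⟩, -⟩
      · rw [e1, e2]
      · rw [e1, e2, add_comm (H.1 i l).toNat, add_right_comm _ (H.1 j l).toNat]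
  · intro H hH H' hH' he
    simp only [Set.mem_ofPred_eq] at hH hH'
    simp only [dif_pos hH, dif_pos hH', Subtype.mk.injEq] at he
    refine Subtype.ext ?_
    funext x y
    by_cases hc : (x = i ∨ x = j) ∨ (y = i ∨ y = j)
    · have := congrFun (congrFun he (σ x)) (σ y)
      have hc' : (σ x = i ∨ σ x = j) ∨ (σ y = i ∨ σ y = j) := by
        rcases hc with (rfl | rfl) | (rfl | rfl) <;> simp [hσi, hσj]
      simpa only [B, if_pos hc', hσσ] using this
    · exact key2_eq (hH.trans hH'.symm) (by tauto)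

theorem defect_eq_zero {i j k l : V} (hij : i ≠ j) (hik : i ≠ k) (hil : i ≠ l) (hjk : j ≠ k)
    (hjl : j ≠ l) (f : Gr d → ℝ) (G : Gr d)
    (h : ¬(G.1 i k ≠ G.1 j k ∧ G.1 i l ≠ G.1 j l)) :
    (cE (key2' i j k l) *ᵥ f) G = (cE (key2 i j) *ᵥ f) G := by
  classical
  have : ∀ H : Gr d, key2' i j k l H = key2' i j k l G ↔ key2 i j H = key2 i j G := by
    refine fun H => ⟨fun h => congrArg Prod.fst h, fun hH => Prod.ext hH ?_⟩
    have hk := col_eq hij hH hik.symm hjk.symm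
    have hl := col_eq hij hH hil.symm hjl.symm
    simp only [G.2.1 k, G.2.1 l, H.2.1 k, H.2.1 l] at hk hl
    simp only [key2']
    revert h hk hl
    cases G.1 i k <;> cases G.1 i l <;> cases G.1 j k <;> cases G.1 j l <;>
      cases H.1 i k <;> cases H.1 i l <;> cases H.1 j k <;> cases H.1 j l <;> decide
  simp only [cE_mulVec, this]

theorem four (i j k l : V) (hij : i ≠ j) (hik : i ≠ k) (hil : i ≠ l) (hjk : j ≠ k) (hjl : j ≠ l)
    (hkl : k ≠ l) (f : Gr d → ℝ) :
    1 / 4 * en i j k l f - (yy i j k l f + yy k l i j f) / 2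
      ≤ (f - cE (key2 i j) *ᵥ f) ⬝ᵥ (f - cE (key2 k l) *ᵥ f) := by
  have c1 : Commute (cE (key2' (d := d) i j k l)) (cE (key2' k l i j)) := cE_comm fun G G' h => by
    obtain ⟨h0, Φ, h1, h2⟩ := exists_transport hij hik hil hjk hjl hkl G G' h
    refine ⟨Φ, fun H hH => ?_, h2.mono fun H hH => congrArg Prod.fst hH⟩
    obtain ⟨e1, e2, e3⟩ := h1 H (congrArg Prod.fst hH)
    exact ⟨Prod.ext e1 (e3.trans ((congrArg Prod.snd hH).trans h0)), e2⟩
  have c2 : Commute (cE (key2 (d := d) i j)) (cE (key2' k l i j)) := cE_comm fun G G' h => by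
    obtain ⟨-, Φ, h1, h2⟩ := exists_transport hij hik hil hjk hjl hkl G G' h
    exact ⟨Φ, fun H hH => ⟨(h1 H hH).1, (h1 H hH).2.1⟩, h2⟩
  have c3 : Commute (cE (key2 (d := d) k l)) (cE (key2' i j k l)) := cE_comm fun G G' h => by
    obtain ⟨-, Φ, h1, h2⟩ :=
      exists_transport hkl hik.symm hjk.symm hil.symm hjl.symm hij G G' h
    exact ⟨Φ, fun H hH => ⟨(h1 H hH).1, (h1 H hH).2.1⟩, h2⟩
  have fa : ∀ G H : Gr d, key2' i j k l G = key2' i j k l H → key2 i j G = key2 i j H :=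
    fun _ _ h => congrArg Prod.fst h
  have fb : ∀ G H : Gr d, key2' k l i j G = key2' k l i j H → key2 k l G = key2 k l H :=
    fun _ _ h => congrArg Prod.fst h
  refine le_trans ?_ (four_abstract _ _ _ _ (cE_transpose _) (cE_transpose _) (cE_transpose _)
    (cE_transpose _) (cE_idem _) (cE_idem _) (cE_idem _) (cE_idem _) (cE_mul_cE fa) (cE_mul_cE' fa)
    (cE_mul_cE fb) (cE_mul_cE' fb) c1 c2 c3.symm f)
  rw [sub_eq_add_neg]
  refine add_le_add ?_ ?_
  · set h := ((1 - cE (key2' (d := d) i j k l)) * (1 - cE (key2' k l i j))) *ᵥ f with hh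
    have e1 : ∀ G, f G - f (sw i j k l G) = h G - h (sw i j k l G) := by
      intro G
      have e2 := cE_mulVec_eq (key2' i j k l) (f - cE (key2' k l i j) *ᵥ f) (key2'_sw i j k l G)
      have e3 := cE_mulVec_eq (key2' k l i j) f (key2'_sw k l i j G)
      rw [← sw_symm] at e3
      simp only [hh, ← mulVec_mulVec, Matrix.sub_mulVec, one_mulVec, Pi.sub_apply, e2, e3]
      ring
    have e4 : ∑ G, h (sw i j k l G) ^ 2 = ∑ G, h G ^ 2 :=
      Equiv.sum_comp (Function.Involutive.toPerm _ (sw_sw i j k l)) (fun G => h G ^ 2)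
    have e5 : en i j k l f ≤ ∑ G, (2 * h G ^ 2 + 2 * h (sw i j k l G) ^ 2) :=
      Finset.sum_le_sum fun G _ => by rw [e1]; nlinarith [sq_nonneg (h G + h (sw i j k l G))]
    rw [Finset.sum_add_distrib, ← Finset.mul_sum, ← Finset.mul_sum, e4] at e5
    have e6 : h ⬝ᵥ h = ∑ G, h G ^ 2 := by simp [dotProduct, sq]
    linarith
  · rw [yy, yy, ← Finset.sum_add_distrib, Finset.sum_div, ← Finset.sum_neg_distrib, dotProduct]
    refine Finset.sum_le_sum fun G _ => ?_
    simp only [Pi.sub_apply]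
    by_cases hA : Alt i j k l G
    · rw [if_pos hA, if_pos (alt_symm hA)]
      nlinarith [sq_nonneg ((cE (key2' i j k l) *ᵥ f) G - (cE (key2 i j) *ᵥ f) G
        + ((cE (key2' k l i j) *ᵥ f) G - (cE (key2 k l) *ᵥ f) G))]
    · rw [if_neg hA, if_neg (fun h => hA (alt_symm h))]
      by_cases h1 : G.1 i k ≠ G.1 j k ∧ G.1 i l ≠ G.1 j l
      · rw [defect_eq_zero hkl hik.symm hjk.symm hil.symm hjl.symm f G]
        · simp
        · intro h2
          refine hA ⟨⟨hij, hik, hil, hjk, hjl, hkl⟩, h1.1, h1.2, ?_⟩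
          rw [G.2.1 i k, G.2.1 i l]; exact h2.1
      · rw [defect_eq_zero hij hik hil hjk hjl f G h1]
        simp

end Crest.Agent.R299
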