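import Crest.Agent.R299.ThreeRow
import Crest.Agent.R299.Four

open Finset Matrix

namespace Crest.Agent.R299

variable {V : Type} [Fintype V] [DecidableEq V] {d : V → ℕ}

section

variable (t : Fin 3 → V)

/-- The vertices outside the triple. -/
abbrev Out : Type := {x // x ∉ Set.range t}

/-- The entries outside the triple. -/
def keyT (G : Gr d) : Out t → Out t → Bool := fun x y => G.1 x y

/-- The three rows, with one more column for the edges inside the triple. -/
def rows (G : Gr d) : Option (Out t) → Fin 3 → Bool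
  | none, w => !G.1 (t (w + 1)) (t (w + 2))
  | some x, w => G.1 (t w) x

variable (ht : Function.Injective t)

/-- Splitting of the vertex set. -/
noncomputable def eT : Fin 3 ⊕ Out t ≃ V :=
  (Equiv.sumCongr (Equiv.ofInjective t ht) (Equiv.refl _)).trans
    (Equiv.sumCompl (· ∈ Set.range t))

omit [Fintype V] in
@[simp] theorem eT_inl (w : Fin 3) : eT t ht (Sum.inl w) = t w := rfl

omit [Fintype V] in
@[simp] theorem eT_inr (x : Out t) : eT t ht (Sum.inr x) = x := rfl

include ht

theorem sum_T (F : V → ℕ) : ∑ v, F v = F (t 0) + F (t 1) + F (t 2) + ∑ x : Out t, F x := by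
  rw [← Equiv.sum_comp (eT t ht), Fintype.sum_sum_type, Fin.sum_univ_three]
  rfl

omit [Fintype V] in
theorem forall_T {p : V → Prop} (h1 : ∀ w, p (t w)) (h2 : ∀ x : Out t, p x) (v : V) : p v := by
  obtain ⟨w | x, rfl⟩ := (eT t ht).surjective v
  · exact h1 w
  · exact h2 x

theorem rows_margins {G H : Gr d} (h : keyT t G = keyT t H) :
    (∀ w, ∑ k, (rows t G k w).toNat = ∑ k, (rows t H k w).toNat) ∧
      ∀ k, ∑ w, (rows t G k w).toNat = ∑ w, (rows t H k w).toNat := by
  have hc : ∀ x : Out t, (G.1 (t 0) x).toNat + (G.1 (t 1) x).toNat + (G.1 (t 2) x).toNat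
      = (H.1 (t 0) x).toNat + (H.1 (t 1) x).toNat + (H.1 (t 2) x).toNat := fun x => by
    have h1 := G.2.2.2 x
    have h2 := H.2.2.2 x
    rw [sum_T t ht] at h1 h2
    have : ∑ y : Out t, (G.1 x y).toNat = ∑ y : Out t, (H.1 x y).toNat :=
      Finset.sum_congr rfl fun y _ => congrArg _ (congrFun (congrFun h x) y)
    simp only [G.2.1 x (t _), H.2.1 x (t _)] at h1 h2
    omega
  have hs := Finset.sum_congr (s₁ := univ) rfl fun x _ => hc x
  simp only [Finset.sum_add_distrib] at hs
  have hd : ∀ (K : Gr d) w, (K.1 (t w) (t 0)).toNat + (K.1 (t w) (t 1)).toNat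
      + (K.1 (t w) (t 2)).toNat + ∑ x : Out t, (K.1 (t w) x).toNat = d (t w) := fun K w => by
    rw [← K.2.2.2 (t w), sum_T t ht]
  have g0 := hd G 0; have g1 := hd G 1; have g2 := hd G 2
  have k0 := hd H 0; have k1 := hd H 1; have k2 := hd H 2
  simp only [G.2.2.1, H.2.2.1, G.2.1 (t 1) (t 0), G.2.1 (t 0) (t 2), G.2.1 (t 2) (t 1),
    H.2.1 (t 1) (t 0), H.2.1 (t 0) (t 2), H.2.1 (t 2) (t 1), Bool.toNat_false] at g0 g1 g2 k0 k1 k2
  have hn : ∀ b : Bool, (!b).toNat + b.toNat = 1 := fun b => by cases b <;> rfl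
  have := hn (G.1 (t 0) (t 1)); have := hn (G.1 (t 1) (t 2)); have := hn (G.1 (t 2) (t 0))
  have := hn (H.1 (t 0) (t 1)); have := hn (H.1 (t 1) (t 2)); have := hn (H.1 (t 2) (t 0))
  refine ⟨fun w => ?_, fun k => ?_⟩
  · simp only [Fintype.sum_option, rows]
    fin_cases w <;> simp only [Fin.zero_eta, Fin.mk_one, Fin.reduceFinMk, Fin.reduceAdd] <;> omega
  · rcases k with _ | x
    · simp only [Fin.sum_univ_three, rows, Fin.reduceAdd]; omega
    · simp only [Fin.sum_univ_three, rows]; exact hc x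

theorem rows_surj (G : Gr d) (M : Option (Out t) → Fin 3 → Bool)
    (h1 : ∀ w, ∑ k, (M k w).toNat = ∑ k, (rows t G k w).toNat)
    (h2 : ∀ k, ∑ w, (M k w).toNat = ∑ w, (rows t G k w).toNat) :
    ∃ H : Gr d, keyT t H = keyT t G ∧ rows t H = M := by
  let N : Fin 3 ⊕ Out t → Fin 3 ⊕ Out t → Bool := fun a b => match a, b with
    | Sum.inl w, Sum.inl w' => if w = w' then false else !M none (w + w' + (w + w'))
    | Sum.inl w, Sum.inr y => M (some y) w
    | Sum.inr x, Sum.inl w' => M (some x) w'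
    | Sum.inr x, Sum.inr y => G.1 x y
  have hN : IsReal d (fun x y => N ((eT t ht).symm x) ((eT t ht).symm y)) := by
    refine ⟨fun u v => ?_, fun u => ?_, fun u => ?_⟩
    · show N _ _ = N _ _
      rcases (eT t ht).symm u with w | x <;> rcases (eT t ht).symm v with w' | y
      · simp only [N, add_comm w, eq_comm]
      · rfl
      · rfl
      · exact G.2.1 _ _
    · show N _ _ = false
      rcases (eT t ht).symm u with w | x
      · simp [N]
      · exact G.2.2.1 _
    · obtain ⟨a, rfl⟩ := (eT t ht).surjective u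
      rw [← G.2.2.2, ← Equiv.sum_comp (eT t ht), sum_T t ht, Fintype.sum_sum_type,
        Fin.sum_univ_three]
      simp only [Equiv.symm_apply_apply]
      rcases a with w | x
      · have a0 := h1 0; have a1 := h1 1; have a2 := h1 2
        have b := h2 none
        simp only [Fintype.sum_option, rows, Fin.sum_univ_three, Fin.reduceAdd] at a0 a1 a2 b
        have hn : ∀ b : Bool, (!b).toNat + b.toNat = 1 := fun b => by cases b <;> rfl
        have := hn (G.1 (t 0) (t 1)); have := hn (G.1 (t 1) (t 2)); have := hn (G.1 (t 2) (t 0))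
        have := hn (M none 0); have := hn (M none 1); have := hn (M none 2)
        fin_cases w <;>
          simp only [N, eT_inl, Fin.zero_eta, Fin.mk_one, Fin.reduceFinMk, Fin.reduceAdd,
            Fin.reduceEq, if_true, if_false, G.2.2.1, G.2.1 (t 1) (t 0),
            G.2.1 (t 0) (t 2), G.2.1 (t 2) (t 1), Bool.toNat_false] <;> omega
      · have b := h2 (some x)
        simp only [rows, Fin.sum_univ_three] at b
        simp only [N, eT_inr, G.2.1 x (t _), b]
  have e1 : ∀ w, (eT t ht).symm (t w) = Sum.inl w := fun w => (Equiv.symm_apply_eq _).2 rfl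
  have e2 : ∀ x : Out t, (eT t ht).symm x = Sum.inr x := fun x => (Equiv.symm_apply_eq _).2 rfl
  refine ⟨⟨_, hN⟩, ?_, ?_⟩
  · funext x y
    simp only [keyT, e2, N]
  · funext k w
    rcases k with _ | x
    · simp only [rows, e1, N]
      fin_cases w <;> simp
    · simp only [rows, e1, e2, N]

theorem key2_iff_rows (w : Fin 3) (G H : Gr d) :
    key2 (t (w + 1)) (t (w + 2)) G = key2 (t (w + 1)) (t (w + 2)) H ↔
      keyT t G = keyT t H ∧ ∀ k, rows t G k w = rows t H k w := by
  have ho : ∀ (x : Out t) v, (x : V) ≠ t v := fun x v h => x.2 ⟨v, h.symm⟩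
  have hw : ¬(t w = t (w + 1) ∨ t w = t (w + 2)) := by
    simp only [ht.eq_iff]; fin_cases w <;> decide
  constructor
  · intro h
    refine ⟨?_, fun k => ?_⟩
    · funext x y
      exact key2_eq h (by simp [ho])
    · rcases k with _ | x
      · simp only [rows]; rw [key2_eq h (by simp)]
      · exact key2_eq h (by simp [ho, hw])
  · rintro ⟨h1, h2⟩
    have h3 : G.1 (t (w + 1)) (t (w + 2)) = H.1 (t (w + 1)) (t (w + 2)) := by
      simpa [rows] using h2 none
    have hv : ∀ v : Fin 3, v = w ∨ v = w + 1 ∨ v = w + 2 := by fin_cases w <;> decide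
    refine key2_ext fun x y => ?_
    refine forall_T t ht (p := fun x => ((x = t (w + 1) ∨ x = t (w + 2)) ↔
      (y = t (w + 1) ∨ y = t (w + 2))) → G.1 x y = H.1 x y) (fun u => ?_) (fun x => ?_) x
    · refine forall_T t ht (p := fun y => ((t u = t (w + 1) ∨ t u = t (w + 2)) ↔
        (y = t (w + 1) ∨ y = t (w + 2))) → G.1 (t u) y = H.1 (t u) y) (fun v => ?_) (fun y => ?_) y
      · rcases hv u with h | h | h <;> rcases hv v with h' | h' | h' <;> rw [h, h'] <;>
          simp [hw, G.2.2.1, H.2.2.1, h3, G.2.1 (t (w + 2)), H.2.1 (t (w + 2))]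
      · rcases hv u with rfl | rfl | rfl
        · exact fun _ => h2 (some y)
        · simp [ho]
        · simp [ho]
    · refine forall_T t ht (p := fun y => (((x : V) = t (w + 1) ∨ (x : V) = t (w + 2)) ↔
        (y = t (w + 1) ∨ y = t (w + 2))) → G.1 x y = H.1 x y) (fun v => ?_) (fun y => ?_) y
      · rcases hv v with rfl | rfl | rfl
        · intro _; rw [G.2.1, H.2.1 x]; exact h2 (some x)
        · simp [ho]
        · simp [ho]
      · exact fun _ => congrFun (congrFun h1 x) y

theorem rows_inj {G H : Gr d} (h1 : keyT t G = keyT t H) (h2 : rows t G = rows t H) : G = H := by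
  have h : ∀ w, key2 (t (w + 1)) (t (w + 2)) G = key2 (t (w + 1)) (t (w + 2)) H :=
    fun w => (key2_iff_rows t ht w G H).2 ⟨h1, fun k => by rw [h2]⟩
  refine Subtype.ext ?_
  funext x y
  by_contra hne
  have h0 := mt (key2_eq (h 0) (x := x) (y := y)) hne
  have h1 := mt (key2_eq (h 1) (x := x) (y := y)) hne
  have h2 := mt (key2_eq (h 2) (x := x) (y := y)) hne
  have a : t 0 ≠ t 1 := ht.ne (by decide)
  have b : t 0 ≠ t 2 := ht.ne (by decide)
  have c : t 1 ≠ t 2 := ht.ne (by decide)
  simp only [Fin.reduceAdd] at h0 h1 h2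
  by_cases x0 : x = t 0 <;> by_cases x1 : x = t 1 <;> by_cases x2 : x = t 2 <;>
    by_cases y0 : y = t 0 <;> by_cases y1 : y = t 1 <;> by_cases y2 : y = t 2 <;> simp_all

theorem triple_gap (f : Gr d → ℝ) :
    dir (keyT t) f ≤ ∑ w, dir (key2 (t (w + 1)) (t (w + 2))) f := by
  rw [dir_fiber (keyT t) (fun _ _ h => h)]
  simp only [fun w => dir_fiber (κ := key2 (d := d) (t (w + 1)) (t (w + 2))) (keyT t)
    (fun x y h => ((key2_iff_rows t ht w x y).1 h).1) f]
  rw [Finset.sum_comm]
  refine Finset.sum_le_sum fun τ _ => ?_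
  rcases isEmpty_or_nonempty {G : Gr d // keyT t G = τ} with h | ⟨⟨G₀⟩⟩
  · simp [dir, dotProduct]
  rw [dir_congr (κ' := fun _ => ()) (fun x y => by simp [x.2, y.2])]
  refine (three_row (fun G : {G : Gr d // keyT t G = τ} => rows t G.1)
    (fun G H h => Subtype.ext (rows_inj t ht (G.2.trans H.2.symm) h))
    (fun w => ∑ k, (rows t G₀.1 k w).toNat) (fun k => ∑ w, (rows t G₀.1 k w).toNat)
    (fun M => ⟨?_, fun h => ?_⟩) _).trans (le_of_eq ?_)
  · rintro ⟨G, rfl⟩
    exact rows_margins t ht (G.2.trans G₀.2.symm)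
  · obtain ⟨H, h1, h2⟩ := rows_surj t ht G₀.1 M h.1 h.2
    exact ⟨⟨H, h1.trans G₀.2⟩, h2⟩
  · refine Finset.sum_congr rfl fun w _ => dir_congr (fun x y => ?_) _
    rw [key2_iff_rows t ht, funext_iff]
    simp [x.2, y.2]

end

theorem triple (i j l : V) (hij : i ≠ j) (hil : i ≠ l) (hjl : j ≠ l) (f : Gr d → ℝ) :
    0 ≤ (f - cE (key2 i j) *ᵥ f) ⬝ᵥ (f - cE (key2 i l) *ᵥ f)
      + (f - cE (key2 i j) *ᵥ f) ⬝ᵥ (f - cE (key2 j l) *ᵥ f)
      + (f - cE (key2 i l) *ᵥ f) ⬝ᵥ (f - cE (key2 j l) *ᵥ f) := by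
  have ht : Function.Injective ![i, j, l] := by
    intro a b h
    fin_cases a <;> fin_cases b <;> simp_all [eq_comm]
  have h1 := triple_gap ![i, j, l] ht f
  have hc : key2 (d := d) l i = key2 i l := by
    funext G x y; simp only [key2, or_comm]
  have hf := fun w x y h => ((key2_iff_rows (d := d) ![i, j, l] ht w x y).1 h).1
  have f0 := hf 0
  have f1 := hf 1
  have f2 := hf 2
  simp only [Fin.sum_univ_three, Fin.reduceAdd, cons_val_zero, cons_val_one, Matrix.cons_val, hc]
    at h1 f0 f1 f2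
  set g := f - cE (keyT ![i, j, l]) *ᵥ f with hg
  have hP : ∀ {K : Type} (κ : Gr d → K), (∀ x y, κ x = κ y → keyT ![i, j, l] x = keyT ![i, j, l] y) →
      g ⬝ᵥ (f - cE κ *ᵥ f) = (f - cE κ *ᵥ f) ⬝ᵥ (f - cE κ *ᵥ f) := fun κ hκ => by
    have e : f - cE κ *ᵥ f = g - cE κ *ᵥ g := by
      rw [hg, mulVec_sub, mulVec_mulVec, cE_mul_cE hκ, sub_sub_sub_cancel_right]
    rw [e, dotProduct_sub, ← dir_eq, dir]
  have p0 := hP _ f0
  have p1 := hP _ f1
  have p2 := hP _ f2
  simp only [dir] at h1
  rw [← hg] at h1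
  generalize f - cE (key2 i j) *ᵥ f = a at *
  generalize f - cE (key2 i l) *ᵥ f = b at *
  generalize f - cE (key2 j l) *ᵥ f = c at *
  have h2 := dot_self_nonneg (a + b + c - g)
  simp only [sub_dotProduct, dotProduct_sub, add_dotProduct, dotProduct_add, dotProduct_comm a g,
    dotProduct_comm b g, dotProduct_comm c g, dotProduct_comm b a, dotProduct_comm c a,
    dotProduct_comm c b] at h2
  linarith

end Crest.Agent.R299
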