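import Crest.Agent.R299.Pair
import Crest.Agent.R299.Triple
import Crest.Agent.R299.Four
import Crest.Agent.R299.Conn

open Finset Matrix

namespace Crest.Agent.R299

variable {V : Type} [Fintype V] [DecidableEq V] {d : V → ℕ}

theorem key2_comm (i j : V) (G : Gr d) : key2 i j G = key2 j i G := by
  funext x y
  simp only [key2, or_comm]

/-- The fluctuation part for the pair `i, j`. -/
noncomputable def Pm (d : V → ℕ) (i j : V) : Matrix (Gr d) (Gr d) ℝ :=
  if i = j then 0 else 1 - cE (key2 i j)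

theorem Pm_comm (i j : V) : Pm d i j = Pm d j i := by
  unfold Pm
  rw [show key2 (d := d) i j = key2 j i from funext (key2_comm i j)]
  simp only [eq_comm]

theorem Pm_transpose (i j : V) : (Pm d i j)ᵀ = Pm d i j := by
  unfold Pm; split_ifs <;> simp [transpose_sub, cE_transpose]

theorem Pm_mulVec {i j : V} (h : i ≠ j) (f : Gr d → ℝ) :
    Pm d i j *ᵥ f = f - cE (key2 i j) *ᵥ f := by
  rw [Pm, if_neg h, Matrix.sub_mulVec, one_mulVec]

theorem dot_Pm (i j : V) (f : Gr d → ℝ) :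
    f ⬝ᵥ (Pm d i j *ᵥ f) = (Pm d i j *ᵥ f) ⬝ᵥ (Pm d i j *ᵥ f) := by
  by_cases h : i = j
  · simp [Pm, h]
  · rw [Pm_mulVec h, dotProduct_sub, ← dir_eq, dir]

theorem sum_four_le (B : V → V → V → V → ℝ) (h1 : ∀ i j k l, B i j k l = B j i k l)
    (h2 : ∀ i j k l, B i j k l = B i j l k) (h3 : ∀ i k l, B i i k l = 0)
    (h4 : ∀ i j k, B i j k k = 0)
    (h5 : 0 ≤ ∑ i, ∑ j, ∑ k, ∑ l, if i ≠ k ∧ i ≠ l ∧ j ≠ k ∧ j ≠ l then B i j k l else 0)
    (h6 : 0 ≤ ∑ i, ∑ j, ∑ l, if j ≠ l then B i j i l else 0) :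
    2 * ∑ i, ∑ j, B i j i j ≤ ∑ i, ∑ j, ∑ k, ∑ l, B i j k l := by
  have e : ∀ i j k l, B i j k l = (if i ≠ k ∧ i ≠ l ∧ j ≠ k ∧ j ≠ l then B i j k l else 0)
      + (if i = k then (if j ≠ l then B i j i l else 0) else 0)
      + (if i = l then (if j ≠ k then B i j i k else 0) else 0)
      + (if j = k then (if i ≠ l then B j i j l else 0) else 0)
      + (if j = l then (if i ≠ k then B j i j k else 0) else 0)
      + (if i = k then (if j = l then B i j i j else 0) else 0)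
      + (if i = l then (if j = k then B i j i j else 0) else 0) := by
    intro i j k l
    by_cases hij : i = j
    · subst hij; simp [h3]
    by_cases hkl : k = l
    · subst hkl
      by_cases hik : i = k
      · subst hik; simp [h4, Ne.symm hij]
      · by_cases hjk : j = k
        · subst hjk; simp [h4, hij]
        · simp [h4, hik, hjk]
    by_cases hik : i = k
    · subst hik
      by_cases hjl : j = l <;> simp [hkl, hjl, Ne.symm hij, Ne.symm hkl]
    by_cases hil : i = l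
    · subst hil
      by_cases hjk : j = k <;> simp [hik, hjk, Ne.symm hij, h2 i _ k i, hkl]
    by_cases hjk : j = k
    · subst hjk; simp [hij, hil, hkl, h1 i j j l]
    by_cases hjl : j = l
    · subst hjl; simp [hij, hik, hjk, h1 i j k j, h2 j i k j]
    simp [hik, hil, hjk, hjl]
  have e2 : ∑ i, ∑ j, ∑ l, (if i ≠ l then B j i j l else 0)
      = ∑ i, ∑ j, ∑ l, if j ≠ l then B i j i l else 0 := Finset.sum_comm
  rw [Finset.sum_congr rfl fun i _ => Finset.sum_congr rfl fun j _ => Finset.sum_congr rfl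
    fun k _ => Finset.sum_congr rfl fun l _ => e i j k l]
  simp only [Finset.sum_add_distrib, Finset.sum_ite_eq, Finset.mem_univ, if_true,
    Finset.sum_ite_irrel, Finset.sum_const_zero, e2]
  linarith

theorem en_eq_zero {i j k l : V} (h : ¬(i ≠ j ∧ i ≠ k ∧ i ≠ l ∧ j ≠ k ∧ j ≠ l ∧ k ≠ l))
    (f : Gr d → ℝ) : en i j k l f = 0 :=
  Finset.sum_eq_zero fun G _ => by rw [sw, dif_neg (fun hA => h hA.1)]; simp

theorem yy_eq_zero {i j k l : V} (h : ¬(i ≠ j ∧ i ≠ k ∧ i ≠ l ∧ j ≠ k ∧ j ≠ l ∧ k ≠ l))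
    (f : Gr d → ℝ) : yy i j k l f = 0 :=
  Finset.sum_eq_zero fun _ _ => if_neg (fun hA => h hA.1)

theorem bochner (f : Gr d → ℝ) :
    2 * (f ⬝ᵥ ((∑ i, ∑ j, Pm d i j) *ᵥ f))
      ≤ ((∑ i, ∑ j, Pm d i j) *ᵥ f) ⬝ᵥ ((∑ i, ∑ j, Pm d i j) *ᵥ f) := by
  simp only [Matrix.sum_mulVec, dotProduct_sum, sum_dotProduct, dot_Pm]
  refine sum_four_le (fun i j k l => (Pm d k l *ᵥ f) ⬝ᵥ (Pm d i j *ᵥ f))
    (fun i j k l => by simp only [Pm_comm i j]) (fun i j k l => by simp only [Pm_comm k l])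
    (fun i k l => by simp [Pm]) (fun i j k => by simp [Pm]) ?_ ?_
  · have h1 : ∀ i j k l, 1 / 4 * en i j k l f - (yy i j k l f + yy k l i j f) / 2
        ≤ if i ≠ k ∧ i ≠ l ∧ j ≠ k ∧ j ≠ l then (Pm d k l *ᵥ f) ⬝ᵥ (Pm d i j *ᵥ f) else 0 := by
      intro i j k l
      by_cases h : i ≠ j ∧ i ≠ k ∧ i ≠ l ∧ j ≠ k ∧ j ≠ l ∧ k ≠ l
      · obtain ⟨hij, hik, hil, hjk, hjl, hkl⟩ := h
        rw [if_pos ⟨hik, hil, hjk, hjl⟩, Pm_mulVec hij, Pm_mulVec hkl, dotProduct_comm]
        exact four i j k l hij hik hil hjk hjl hkl f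
      · rw [en_eq_zero h, yy_eq_zero h, yy_eq_zero (by tauto)]
        split_ifs with h'
        · by_cases hij : i = j
          · simp [Pm, hij]
          · have hkl : k = l := by tauto
            simp [Pm, hkl]
        · simp
    refine le_trans ?_ (Finset.sum_le_sum fun i _ => Finset.sum_le_sum fun j _ =>
      Finset.sum_le_sum fun k _ => Finset.sum_le_sum fun l _ => h1 i j k l)
    have h2 : ∑ i, ∑ j, ∑ k, ∑ l, yy k l i j f = ∑ i, ∑ j, ∑ k, ∑ l, yy i j k l f := by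
      simp only [← Fintype.sum_prod_type']
      exact Equiv.sum_comp ((Equiv.prodAssoc V V (V × V)).symm.trans
        ((Equiv.prodComm _ _).trans (Equiv.prodAssoc V V (V × V))))
        (fun t => yy t.1 t.2.1 t.2.2.1 t.2.2.2 f)
    have h3 : ∑ i, ∑ j, ∑ k, ∑ l, yy i j k l f ≤ ∑ i, ∑ j, 1 / 4 * ∑ k, ∑ l, en i j k l f :=
      Finset.sum_le_sum fun i _ => Finset.sum_le_sum fun j _ => by
        by_cases hij : i = j
        · simp [yy_eq_zero, en_eq_zero, hij]
        · exact pair_split i j hij f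
    simp only [Finset.sum_sub_distrib, ← Finset.sum_div, Finset.sum_add_distrib, h2,
      ← Finset.mul_sum] at h3 ⊢
    linarith
  · set F : V → V → V → ℝ := fun i j l =>
      if j ≠ l then (Pm d i l *ᵥ f) ⬝ᵥ (Pm d i j *ᵥ f) else 0 with hF
    have h1 : ∀ i j l, 0 ≤ F i j l + F j i l + F l i j := by
      intro i j l
      by_cases hij : i = j
      · subst hij; simp [hF, Pm]
      by_cases hil : i = l
      · subst hil; simp [hF, Pm]
      by_cases hjl : j = l
      · subst hjl; simp [hF, Pm]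
      have := triple i j l hij hil hjl f
      simp only [hF, hij, hil, hjl, ne_eq, not_false_iff, if_true, Pm_comm j i, Pm_comm l i,
        Pm_comm l j, Pm_mulVec hij, Pm_mulVec hil, Pm_mulVec hjl]
      rwa [dotProduct_comm (f - cE (key2 i j) *ᵥ f), dotProduct_comm (f - cE (key2 i j) *ᵥ f),
        dotProduct_comm (f - cE (key2 i l) *ᵥ f) (f - cE (key2 j l) *ᵥ f)] at this
    have h2 : 0 ≤ ∑ i, ∑ j, ∑ l, (F i j l + F j i l + F l i j) :=
      Finset.sum_nonneg fun i _ => Finset.sum_nonneg fun j _ => Finset.sum_nonneg fun l _ => h1 i j l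
    have h3 : ∑ i, ∑ j, ∑ l, F j i l = ∑ i, ∑ j, ∑ l, F i j l := Finset.sum_comm
    have h4 : ∑ i, ∑ j, ∑ l, F l i j = ∑ i, ∑ j, ∑ l, F i j l := by
      rw [Finset.sum_comm (f := fun i j => ∑ l, F i j l)]
      exact Finset.sum_congr rfl fun i _ => Finset.sum_comm
    simp only [Finset.sum_add_distrib, h3, h4] at h2
    linarith

/-- Poincare inequality for the switch graph. -/
theorem switch_poincare {V : Type} [Fintype V] [DecidableEq V] {d : V → ℕ} (f : Gr d → ℝ) :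
    dir (fun _ => ()) f ≤ 1 / 2 * ∑ i, ∑ j, ∑ k, ∑ l, en i j k l f := by
  set H := ∑ i, ∑ j, Pm d i j with hH
  have hq : ∀ v : Gr d → ℝ, v ⬝ᵥ (H *ᵥ v) = ∑ i, ∑ j, (Pm d i j *ᵥ v) ⬝ᵥ (Pm d i j *ᵥ v) :=
    fun v => by simp only [hH, Matrix.sum_mulVec, dotProduct_sum, dot_Pm]
  set g := f - cE (fun _ => ()) *ᵥ f with hg
  have hg0 : ∑ x, g x = 0 := by
    have h1 := cE_dot (fun _ : Gr d => ()) f (fun _ => 1)
    rw [cE_mulVec_of_const (f := fun _ => (1 : ℝ)) (fun _ _ _ => rfl)] at h1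
    simp only [dotProduct, mul_one] at h1
    simp [hg, Finset.sum_sub_distrib, h1]
  have h1 := quad_le_of_eigen (-H) (by simp [hH, transpose_sum, Pm_transpose]) (-2) (by
    intro v μ hv hμ
    rw [neg_mulVec, neg_eq_iff_eq_neg, ← neg_smul] at hv
    have hb := bochner v
    have hv0 : v ⬝ᵥ (H *ᵥ v) ≤ 0 := by
      have hp : 0 ≤ v ⬝ᵥ (H *ᵥ v) := by
        rw [hq]; exact Finset.sum_nonneg fun i _ => Finset.sum_nonneg fun j _ => dot_self_nonneg _
      rw [← hH] at hb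
      nth_rewrite 2 [hv] at hb
      rw [smul_dotProduct, smul_eq_mul] at hb
      nlinarith
    refine conn v fun i j k l G => ?_
    by_cases hij : i = j
    · rw [sw, dif_neg (fun hA => hA.1.1 hij)]
    have h2 : (Pm d i j *ᵥ v) ⬝ᵥ (Pm d i j *ᵥ v) ≤ 0 := by
      refine le_trans ?_ hv0
      rw [hq]
      exact (Finset.single_le_sum (f := fun j => (Pm d i j *ᵥ v) ⬝ᵥ (Pm d i j *ᵥ v))
        (fun _ _ => dot_self_nonneg _) (mem_univ j)).trans
        (Finset.single_le_sum (f := fun i => ∑ j, (Pm d i j *ᵥ v) ⬝ᵥ (Pm d i j *ᵥ v))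
          (fun _ _ => Finset.sum_nonneg fun _ _ => dot_self_nonneg _) (mem_univ i))
    have h3 := dotProduct_self_eq_zero.1 (le_antisymm h2 (dot_self_nonneg _))
    rw [Pm_mulVec hij, sub_eq_zero] at h3
    rw [h3]
    exact cE_mulVec_eq _ _ (key2_sw i j k l G)) g hg0
  rw [neg_mulVec, dotProduct_neg, hq] at h1
  have h2 : ∑ i, ∑ j, (Pm d i j *ᵥ g) ⬝ᵥ (Pm d i j *ᵥ g) ≤ ∑ i, ∑ j, ∑ k, ∑ l, en i j k l f :=
    Finset.sum_le_sum fun i _ => Finset.sum_le_sum fun j _ => by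
      by_cases hij : i = j
      · simp [Pm, hij, en_eq_zero]
      · refine le_trans (le_of_eq ?_) (pair_poincare i j hij f)
        rw [Pm_mulVec hij, hg, mulVec_sub, mulVec_mulVec, cE_mul_cE (fun _ _ _ => rfl),
          sub_sub_sub_cancel_right, dir]
  have h3 : dir (fun _ => ()) f = g ⬝ᵥ g := rfl
  linarith

end Crest.Agent.R299
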