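import Crest.Agent.R299.TwoRow
import Crest.Agent.R299.Four

open Finset Matrix

namespace Crest.Agent.R299

variable {V : Type} [Fintype V] [DecidableEq V] {d : V → ℕ}

omit [DecidableEq V] in
theorem sum_sub_le (p : V → Prop) [DecidablePred p] (F : V → V → ℝ) (hF : ∀ k l, 0 ≤ F k l) :
    ∑ k : {k // p k}, ∑ l : {k // p k}, F k l ≤ ∑ k, ∑ l, F k l := by
  have h : ∀ G : V → ℝ, (∀ k, 0 ≤ G k) → ∑ k : {k // p k}, G k ≤ ∑ k, G k := fun G hG => by
    rw [← Fintype.sum_subtype_add_sum_subtype p G]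
    exact le_add_of_nonneg_right (Finset.sum_nonneg fun _ _ => hG _)
  exact (Finset.sum_le_sum fun (k : {k // p k}) _ => h _ (hF k)).trans
    (h (fun k => ∑ l, F k l) fun k => Finset.sum_nonneg fun l _ => hF k l)

omit [DecidableEq V] in
theorem sum_sub_eq (p : V → Prop) [DecidablePred p] (F : V → V → ℝ)
    (hF : ∀ k l, ¬(p k ∧ p l) → F k l = 0) :
    ∑ k, ∑ l, F k l = ∑ k : {k // p k}, ∑ l : {k // p k}, F k l := by
  have h : ∀ G : V → ℝ, (∀ k, ¬p k → G k = 0) → ∑ k, G k = ∑ k : {k // p k}, G k := fun G hG => by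
    rw [← Fintype.sum_subtype_add_sum_subtype p G, Finset.sum_eq_zero (s := univ)
      (fun (k : {k // ¬p k}) _ => hG k k.2), add_zero]
  rw [h (fun k => ∑ l, F k l) fun k hk => Finset.sum_eq_zero fun l _ => hF k l (by tauto)]
  exact Finset.sum_congr rfl fun k _ => h _ fun l hl => hF k l (by tauto)

/-- The columns in which the rows `i` and `j` differ. -/
def Act (i j : V) (G : Gr d) (k : V) : Prop := k ≠ i ∧ k ≠ j ∧ G.1 i k ≠ G.1 j k

instance (i j : V) (G : Gr d) : DecidablePred (Act i j G) := fun _ => by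
  unfold Act; infer_instance

theorem col_cases {i j : V} (hij : i ≠ j) {G H : Gr d} (h : key2 i j G = key2 i j H) {u : V}
    (hi : u ≠ i) (hj : u ≠ j) : (G.1 i u ≠ G.1 j u ↔ H.1 i u ≠ H.1 j u) ∧
      (G.1 i u = G.1 j u → G.1 i u = H.1 i u) ∧ (G.1 i u = H.1 i u → G.1 j u = H.1 j u) := by
  have := col_eq hij h hi hj
  rw [G.2.1 u, G.2.1 u, H.2.1 u, H.2.1 u] at this
  revert this
  cases G.1 i u <;> cases G.1 j u <;> cases H.1 i u <;> cases H.1 j u <;> decide

theorem act_iff {i j : V} (hij : i ≠ j) {G H : Gr d} (h : key2 i j G = key2 i j H) (u : V) :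
    Act i j G u ↔ Act i j H u :=
  and_congr_right fun hi => and_congr_right fun hj => (col_cases hij h hi hj).1

theorem row_eq_of_not_act {i j : V} (hij : i ≠ j) {G H : Gr d} (h : key2 i j G = key2 i j H)
    {u : V} (hu : ¬Act i j G u) : G.1 i u = H.1 i u := by
  by_cases h1 : u = i ∨ u = j
  · exact key2_eq h (by simp [h1])
  · push Not at h1
    exact (col_cases hij h h1.1 h1.2).2.1 (by by_contra h2; exact hu ⟨h1.1, h1.2, h2⟩)

theorem pair_fiber (i j : V) (hij : i ≠ j) (t : V → V → Bool) (G₀ : {G : Gr d // key2 i j G = t}) :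
    (Function.Injective fun (G : {G : Gr d // key2 i j G = t}) (k : {k // Act i j G₀.1 k}) =>
      G.1.1 i k.1) ∧
    (∀ G H : {G : Gr d // key2 i j G = t}, ∑ k : {k // Act i j G₀.1 k}, (G.1.1 i k.1).toNat
      = ∑ k : {k // Act i j G₀.1 k}, (H.1.1 i k.1).toNat) ∧
    ∀ (k l : {k // Act i j G₀.1 k}) (G : {G : Gr d // key2 i j G = t}),
      (fun m : {k // Act i j G₀.1 k} => (sw i j k.1 l.1 G.1).1 i m.1)
        = (fun m : {k // Act i j G₀.1 k} => G.1.1 i m.1) ∘ Equiv.swap k l := by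
  refine ⟨fun G H h => ?_, fun G H => ?_, fun k l G => ?_⟩
  · have hk : key2 i j G.1 = key2 i j H.1 := G.2.trans H.2.symm
    have h1 : ∀ u, G.1.1 i u = H.1.1 i u := fun u => by
      by_cases hu : Act i j G₀.1 u
      · exact congrFun h ⟨u, hu⟩
      · exact row_eq_of_not_act hij hk (by rwa [act_iff hij (G.2.trans G₀.2.symm)])
    have h2 : ∀ x u, (x = i ∨ x = j) → G.1.1 x u = H.1.1 x u := fun x u hx => by
      by_cases hu : u = i ∨ u = j
      · exact key2_eq hk (by simp [hx, hu])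
      · push Not at hu
        rcases hx with rfl | rfl
        · exact h1 u
        · exact (col_cases hij hk hu.1 hu.2).2.2 (h1 u)
    refine Subtype.ext (Subtype.ext ?_)
    funext x y
    by_cases hx : x = i ∨ x = j
    · exact h2 x y hx
    · by_cases hy : y = i ∨ y = j
      · rw [G.1.2.1, H.1.2.1 x]; exact h2 y x hy
      · exact key2_eq hk (by simp [hx, hy])
  · have h1 := G.1.2.2.2 i
    have h2 := H.1.2.2.2 i
    rw [← Fintype.sum_subtype_add_sum_subtype (Act i j G₀.1)] at h1 h2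
    have : ∑ k : {k // ¬Act i j G₀.1 k}, (G.1.1 i k.1).toNat
        = ∑ k : {k // ¬Act i j G₀.1 k}, (H.1.1 i k.1).toNat :=
      Finset.sum_congr rfl fun k _ => by
        rw [row_eq_of_not_act hij (G.2.trans H.2.symm)
          (by rw [act_iff hij (G.2.trans G₀.2.symm)]; exact k.2)]
    omega
  · have hk := (act_iff hij (G.2.trans G₀.2.symm) k).2 k.2
    have hl := (act_iff hij (G.2.trans G₀.2.symm) l).2 l.2
    funext m
    simp only [Function.comp_apply, Equiv.swap_apply_def]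
    by_cases hA : Alt i j k.1 l.1 G.1
    · have h3 := hA.2.2.2
      simp only [sw, dif_pos hA, tog, true_or, true_and, hA.1.2.1, hA.1.2.2.1, or_self, false_and,
        or_false, Subtype.ext_iff]
      by_cases h1 : m.1 = k.1
      · simp only [h1, true_or, if_true]
        revert h3; cases G.1.1 i k.1 <;> cases G.1.1 i l.1 <;> simp
      · by_cases h2 : m.1 = l.1
        · have : ¬ l.1 = k.1 := h2 ▸ h1
          simp only [h2, this, or_true, if_true, if_false]
          revert h3; cases G.1.1 i k.1 <;> cases G.1.1 i l.1 <;> simp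
        · simp [h1, h2]
    · have h3 : G.1.1 i k.1 = G.1.1 i l.1 := by
        by_contra h3
        exact hA ⟨⟨hij, hk.1.symm, hl.1.symm, hk.2.1.symm, hl.2.1.symm,
          fun h => h3 (by rw [h])⟩, hk.2.2, hl.2.2, h3⟩
      simp only [sw, dif_neg hA]
      split_ifs with h1 h2
      · rw [h1, h3]
      · rw [h2, h3]
      · rfl

theorem sum_en_fiber (i j : V) (F : V → V → Gr d → ℝ) :
    ∑ k, ∑ l, ∑ G, F k l G = ∑ t, ∑ k, ∑ l, ∑ G : {G : Gr d // key2 i j G = t}, F k l G.1 := by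
  simp only [← Fintype.sum_fiberwise (key2 (d := d) i j)]
  rw [Finset.sum_comm (f := fun t k => ∑ l, ∑ G : {G : Gr d // key2 i j G = t}, F k l G.1)]
  exact Finset.sum_congr rfl fun k _ => Finset.sum_comm

theorem pair_poincare (i j : V) (hij : i ≠ j) (f : Gr d → ℝ) :
    dir (key2 i j) f ≤ ∑ k, ∑ l, en i j k l f := by
  rw [dir_fiber (key2 i j) (fun _ _ h => h)]
  simp only [en]
  rw [sum_en_fiber i j]
  refine Finset.sum_le_sum fun t _ => ?_
  rcases isEmpty_or_nonempty {G : Gr d // key2 i j G = t} with h | ⟨⟨G₀⟩⟩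
  · simp [dir, dotProduct]
  obtain ⟨h1, h2, h3⟩ := pair_fiber i j hij t G₀
  rw [dir_congr (κ' := fun _ => ()) (fun x y => by simp [x.2, y.2])]
  refine (two_poincare _ h1 h2
    (fun k l G => ⟨sw i j k.1 l.1 G.1, (key2_sw _ _ _ _ _).trans G.2⟩) h3 _).trans ?_
  exact sum_sub_le _ (fun k l => ∑ G : {G : Gr d // key2 i j G = t},
    (f G.1 - f (sw i j k l G.1)) ^ 2) fun _ _ => Finset.sum_nonneg fun _ _ => sq_nonneg _

theorem pair_split (i j : V) (hij : i ≠ j) (f : Gr d → ℝ) :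
    ∑ k, ∑ l, yy i j k l f ≤ 1 / 4 * ∑ k, ∑ l, en i j k l f := by
  simp only [en, yy]
  rw [sum_en_fiber i j, sum_en_fiber i j, Finset.mul_sum]
  refine Finset.sum_le_sum fun t _ => ?_
  rcases isEmpty_or_nonempty {G : Gr d // key2 i j G = t} with h | ⟨⟨G₀⟩⟩
  · simp
  obtain ⟨h1, h2, h3⟩ := pair_fiber i j hij t G₀
  have hact : ∀ (G : {G : Gr d // key2 i j G = t}) u, Act i j G.1 u ↔ Act i j G₀.1 u :=
    fun G u => act_iff hij (G.2.trans G₀.2.symm) u
  rw [sum_sub_eq (Act i j G₀.1) _ (fun k l hkl => Finset.sum_eq_zero fun G _ => if_neg fun hA =>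
    hkl ⟨(hact G k).1 ⟨hA.1.2.1.symm, hA.1.2.2.2.1.symm, hA.2.1⟩,
      (hact G l).1 ⟨hA.1.2.2.1.symm, hA.1.2.2.2.2.1.symm, hA.2.2.1⟩⟩)]
  refine le_trans (le_of_eq ?_) ((two_split _ h1 h2
    (fun k l G => ⟨sw i j k.1 l.1 G.1, (key2_sw _ _ _ _ _).trans G.2⟩) h3
      (fun G => f G.1)).trans (mul_le_mul_of_nonneg_left (sum_sub_le _ (fun k l =>
        ∑ G : {G : Gr d // key2 i j G = t}, (f G.1 - f (sw i j k l G.1)) ^ 2)
        fun _ _ => Finset.sum_nonneg fun _ _ => sq_nonneg _) (by norm_num)))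
  refine Finset.sum_congr rfl fun k _ => Finset.sum_congr rfl fun l _ =>
    Finset.sum_congr rfl fun G _ => ?_
  have hk := fun G => (hact G k).2 k.2
  have hl := fun G => (hact G l).2 l.2
  refine if_congr ⟨fun hA => hA.2.2.2, fun h => ⟨⟨hij, (hk G).1.symm, (hl G).1.symm,
    (hk G).2.1.symm, (hl G).2.1.symm, fun h' => h (by rw [h'])⟩, (hk G).2.2, (hl G).2.2, h⟩⟩ ?_ rfl
  rw [← cE_sub (fun G : Gr d => key2 i j G = t)
      (fun x y hxy hx => (congrArg Prod.fst hxy).symm.trans hx) f G,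
    ← cE_sub (fun G : Gr d => key2 i j G = t) (fun x y hxy hx => hxy.symm.trans hx) f G,
    cE_congr (κ := fun z : {G : Gr d // key2 i j G = t} => key2 i j z.1) (κ' := fun _ => ())
      (fun x y => by simp [x.2, y.2]),
    cE_congr (κ := fun z : {G : Gr d // key2 i j G = t} => key2' i j k.1 l.1 z.1)
      (κ' := fun z => (z.1.1 i k.1).toNat + (z.1.1 i l.1).toNat) (fun x y => ?_)]
  have e : ∀ z : {G : Gr d // key2 i j G = t}, key2' i j k.1 l.1 z.1
      = (t, (z.1.1 i k.1).toNat + (z.1.1 i l.1).toNat) := fun z => by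
    refine Prod.ext z.2 ?_
    have h4 := (hk z).2.2
    have h5 := (hl z).2.2
    simp only [key2']
    revert h4 h5
    cases z.1.1 i k.1 <;> cases z.1.1 i l.1 <;> cases z.1.1 j k.1 <;> cases z.1.1 j l.1 <;> decide
  simp [e]

end Crest.Agent.R299
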