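import Crest.Agent.R299.CE

open Finset Matrix

namespace Crest.Agent.R299

theorem cE_anti {Φ : Type} [Fintype Φ] (a b : Φ → ℕ)
    (hrr : ∀ s s' y y' : ℕ, s < s' → y < y' →
      (univ.filter fun x => a x = s ∧ b x = y).card * (univ.filter fun x => a x = s' ∧ b x = y').card
        ≤ (univ.filter fun x => a x = s ∧ b x = y').card
          * (univ.filter fun x => a x = s' ∧ b x = y).card)
    (ψ : Φ → ℝ) (hψ : ∀ u u', b u ≤ b u' → ψ u ≤ ψ u') {x x' : Φ} (h : a x < a x') :
    (cE a *ᵥ ψ) x' ≤ (cE a *ᵥ ψ) x := by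
  classical
  obtain ⟨F, hF⟩ : ∃ F : ℕ → ℝ, ∀ u, ψ u = F (b u) :=
    ⟨fun y => if h : ∃ u, b u = y then ψ h.choose else 0, fun u => by
      have h : ∃ u', b u' = b u := ⟨u, rfl⟩
      simp only [dif_pos h]
      exact le_antisymm (hψ _ _ h.choose_spec.ge) (hψ _ _ h.choose_spec.le)⟩
  let n : ℕ → ℕ → ℝ := fun s y => ((univ.filter fun x => a x = s ∧ b x = y).card : ℝ)
  have hs : ∀ (s : ℕ) (G : ℕ → ℝ), ∑ u with a u = s, G (b u) = ∑ y ∈ univ.image b, n s y * G y := by
    intro s G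
    rw [← sum_fiberwise_of_maps_to (g := b) (t := univ.image b)
      fun u _ => mem_image_of_mem b (mem_univ u)]
    refine sum_congr rfl fun y _ => ?_
    rw [sum_congr rfl fun u hu => congrArg G (mem_filter.1 hu).2, sum_const, filter_filter,
      nsmul_eq_mul]
  have hc : ∀ s : ℕ, ((univ.filter fun u => a u = s).card : ℝ) = ∑ y ∈ univ.image b, n s y := by
    intro s; simpa using hs s fun _ => 1
  rw [cE_mulVec, cE_mulVec, div_le_div_iff₀ (card_cls_pos a x') (card_cls_pos a x)]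
  simp only [hF, hs, hc, sum_mul_sum]
  have key : 0 ≤ ∑ y ∈ univ.image b, ∑ y' ∈ univ.image b,
      (n (a x) y * n (a x') y' - n (a x) y' * n (a x') y) * (F y - F y') := by
    refine sum_nonneg fun y hy => sum_nonneg fun y' hy' => ?_
    obtain ⟨u, -, rfl⟩ := mem_image.1 hy
    obtain ⟨u', -, rfl⟩ := mem_image.1 hy'
    rw [← hF, ← hF]
    rcases lt_trichotomy (b u) (b u') with h1 | h1 | h1
    · refine mul_nonneg_of_nonpos_of_nonpos (sub_nonpos.2 ?_) (sub_nonpos.2 (hψ _ _ h1.le))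
      simp only [n]; exact_mod_cast hrr _ _ _ _ h h1
    · rw [h1, sub_self, zero_mul]
    · refine mul_nonneg (sub_nonneg.2 ?_) (sub_nonneg.2 (hψ _ _ h1.le))
      simp only [n]; exact_mod_cast hrr _ _ _ _ h h1
  simp only [sub_mul, mul_sub, sum_sub_distrib] at key
  have e1 : ∑ y ∈ univ.image b, ∑ y' ∈ univ.image b, n (a x) y' * n (a x') y * F y' =
      ∑ y ∈ univ.image b, ∑ y' ∈ univ.image b, n (a x) y * n (a x') y' * F y := sum_comm
  have e2 : ∑ y ∈ univ.image b, ∑ y' ∈ univ.image b, n (a x) y * n (a x') y' * F y' =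
      ∑ y ∈ univ.image b, ∑ y' ∈ univ.image b, n (a x) y' * n (a x') y * F y := sum_comm
  have e3 : ∑ y ∈ univ.image b, ∑ y' ∈ univ.image b, n (a x') y * F y * n (a x) y' =
      ∑ y ∈ univ.image b, ∑ y' ∈ univ.image b, n (a x) y' * n (a x') y * F y :=
    sum_congr rfl fun _ _ => sum_congr rfl fun _ _ => by ring
  have e4 : ∑ y ∈ univ.image b, ∑ y' ∈ univ.image b, n (a x) y * F y * n (a x') y' =
      ∑ y ∈ univ.image b, ∑ y' ∈ univ.image b, n (a x) y * n (a x') y' * F y :=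
    sum_congr rfl fun _ _ => sum_congr rfl fun _ _ => by ring
  linarith

/-- Three statistics with constant sum and pairwise reverse-regular joint laws. -/
theorem scalar_three {Φ : Type} [Fintype Φ] (a : Fin 3 → Φ → ℕ) (p : ℕ)
    (hsum : ∀ x, ∑ w, a w x = p)
    (hrr : ∀ w w' : Fin 3, w ≠ w' → ∀ s s' y y' : ℕ, s < s' → y < y' →
      (univ.filter fun x => a w x = s ∧ a w' x = y).card
          * (univ.filter fun x => a w x = s' ∧ a w' x = y').card
        ≤ (univ.filter fun x => a w x = s ∧ a w' x = y').card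
          * (univ.filter fun x => a w x = s' ∧ a w' x = y).card)
    (g : Φ → ℝ) : dir (fun _ => ()) g ≤ ∑ w, dir (a w) g := by
  classical
  have main : ∀ (v : Φ → ℝ) (μ : ℝ), (∑ w, cE (a w)) *ᵥ v = μ • v → 2 < μ → ∀ x y, v x = v y := by
    intro v μ hv hμ x₀ y₀
    set φ : Fin 3 → Φ → ℝ := fun w => cE (a w) *ᵥ v with hφ
    have h0 : ∑ w, φ w = μ • v := by rw [← hv, sum_mulVec]
    have hconst : ∀ w x x', a w x = a w x' → φ w x = φ w x' := fun w x x' => cE_mulVec_eq _ _
    obtain ⟨q, -, hq⟩ := exists_max_image (univ : Finset (Fin 3 × Φ × Φ))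
      (fun q => |φ q.1 q.2.1 - φ q.1 q.2.2| / |(a q.1 q.2.1 : ℝ) - a q.1 q.2.2|)
      ⟨(0, x₀, x₀), mem_univ _⟩
    obtain ⟨Λ, hΛ⟩ : ∃ Λ, Λ = |φ q.1 q.2.1 - φ q.1 q.2.2| / |(a q.1 q.2.1 : ℝ) - a q.1 q.2.2| :=
      ⟨_, rfl⟩
    have lip : ∀ w x x', |φ w x - φ w x'| ≤ Λ * |(a w x : ℝ) - a w x'| := by
      intro w x x'
      by_cases h : a w x = a w x'
      · simp [hconst w x x' h, h]
      · rw [hΛ, ← div_le_iff₀ (abs_pos.2 (sub_ne_zero.2 (by exact_mod_cast h)))]
        exact hq (w, x, x') (mem_univ _)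
    have step : ∀ w x x', a w x < a w x' → ∀ ε : ℝ, |ε| = 1 →
        ε * ((μ - 1) * (φ w x' - φ w x)) ≤ Λ * ((a w x' : ℝ) - a w x) := by
      intro w x x' h ε hε
      have h1 : ∑ w' ∈ univ.erase w, (cE (a w) *ᵥ (Λ • (fun u => (a w' u : ℝ)) + ε • φ w')) x' ≤
          ∑ w' ∈ univ.erase w, (cE (a w) *ᵥ (Λ • (fun u => (a w' u : ℝ)) + ε • φ w')) x := by
        refine sum_le_sum fun w' hw' => cE_anti (a w) (a w') (hrr w w' (ne_of_mem_erase hw').symm)
          _ (fun u u' hu => ?_) h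
        have h2 := lip w' u u'
        have h3 : (a w' u : ℝ) ≤ a w' u' := by exact_mod_cast hu
        have h4 := le_abs_self (ε * (φ w' u - φ w' u'))
        rw [abs_mul, hε, one_mul] at h4
        rw [abs_of_nonpos (sub_nonpos.2 h3)] at h2
        simp only [Pi.add_apply, Pi.smul_apply, smul_eq_mul]
        linarith
      have h2 : ∑ w' ∈ univ.erase w, (Λ • (fun u => (a w' u : ℝ)) + ε • φ w') =
          Λ • (fun u => (p : ℝ) - a w u) + ε • (μ • v - φ w) := by
        rw [sum_add_distrib, ← smul_sum, ← smul_sum, sum_erase_eq_sub (mem_univ _),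
          sum_erase_eq_sub (mem_univ _), h0]
        congr 2
        funext u
        simp [← hsum u]
      have h3 : cE (a w) *ᵥ (Λ • (fun u => (p : ℝ) - a w u) + ε • (μ • v - φ w)) =
          Λ • (fun u => (p : ℝ) - a w u) + ε • (μ • φ w - φ w) := by
        rw [mulVec_add, mulVec_smul, mulVec_smul, mulVec_sub, mulVec_smul,
          cE_mulVec_of_const (fun x y h => by rw [h]), cE_mulVec_of_const (hconst w)]
      rw [← Finset.sum_apply, ← Finset.sum_apply, ← mulVec_sum, h2, h3] at h1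
      simp only [Pi.add_apply, Pi.smul_apply, Pi.sub_apply, smul_eq_mul] at h1
      linarith
    have step2 : ∀ w x x', a w x < a w x' →
        (μ - 1) * |φ w x - φ w x'| ≤ Λ * |(a w x : ℝ) - a w x'| := by
      intro w x x' h
      have h3 : (a w x : ℝ) ≤ a w x' := by exact_mod_cast h.le
      have s1 := step w x x' h 1 abs_one
      have s2 := step w x x' h (-1) (by simp)
      rw [abs_of_nonpos (sub_nonpos.2 h3)]
      rcases abs_cases (φ w x - φ w x') with h4 | h4 <;> rw [h4.1] <;> linarith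
    have hΛ0 : Λ ≤ 0 := by
      by_cases h : a q.1 q.2.1 = a q.1 q.2.2
      · simp [hΛ, h]
      · have h1 : 0 < |(a q.1 q.2.1 : ℝ) - a q.1 q.2.2| :=
          abs_pos.2 (sub_ne_zero.2 (by exact_mod_cast h))
        have h2 : (μ - 1) * |φ q.1 q.2.1 - φ q.1 q.2.2| ≤ Λ * |(a q.1 q.2.1 : ℝ) - a q.1 q.2.2| := by
          rcases lt_or_gt_of_ne h with h | h
          · exact step2 _ _ _ h
          · rw [abs_sub_comm, abs_sub_comm (a _ _ : ℝ)]; exact step2 _ _ _ h
        rw [eq_div_iff h1.ne'] at hΛ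
        rw [← hΛ] at h2
        by_contra hc
        nlinarith [mul_pos (not_le.1 hc) h1]
    have h1 : ∀ w, φ w x₀ = φ w y₀ := fun w => sub_eq_zero.1 (abs_nonpos_iff.1
      ((lip w x₀ y₀).trans (mul_nonpos_of_nonpos_of_nonneg hΛ0 (abs_nonneg _))))
    have h2 : μ * v x₀ = μ * v y₀ := by
      have e1 := congrFun h0 x₀
      have e2 := congrFun h0 y₀
      simp only [Finset.sum_apply, h1, Pi.smul_apply, smul_eq_mul] at e1 e2
      rw [← e1, e2]
    exact mul_left_cancel₀ (by linarith) h2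
  set h := g - cE (fun _ => ()) *ᵥ g with hh
  have h0 : ∑ x, h x = 0 := by
    have := cE_dot (fun _ : Φ => ()) g fun _ => 1
    rw [cE_mulVec_of_const (f := fun _ => 1) fun _ _ _ => rfl] at this
    simp only [dotProduct, mul_one] at this
    simp [hh, this]
  have h1 := quad_le_of_eigen _ (by simp [transpose_sum, cE_transpose]) 2 main h h0
  have h2 : ∀ w, dir (a w) g = h ⬝ᵥ h - h ⬝ᵥ (cE (a w) *ᵥ h) := fun w => by
    rw [← dir_eq, dir, dir, hh, mulVec_sub, mulVec_mulVec, cE_mul_cE fun _ _ _ => rfl,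
      sub_sub_sub_cancel_right]
  rw [sum_mulVec, dotProduct_sum, Fin.sum_univ_three] at h1
  rw [Fin.sum_univ_three, h2, h2, h2, dir, ← hh]
  linarith

end Crest.Agent.R299
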