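import Crest.Agent.R299.Scalar
import Crest.Agent.R299.Count3

open Finset Matrix

namespace Crest.Agent.R299

theorem exists_perm_of_card {C β : Type} [Fintype C] [DecidableEq β] (F F' : C → β)
    (h : ∀ b, (univ.filter fun k => F k = b).card = (univ.filter fun k => F' k = b).card) :
    ∃ σ : Equiv.Perm C, ∀ k, F (σ k) = F' k := by
  classical
  refine ⟨Equiv.ofFiberEquiv (f := F') (g := F) fun b => Fintype.equivOfCardEq ?_,
    fun k => Equiv.ofFiberEquiv_map _ k⟩
  rw [Fintype.card_subtype, Fintype.card_subtype, h]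

theorem dir_step {Ω K₁ K₂ K₃ K₄ : Type} [Fintype Ω] (κq : Ω → K₁) (κw' : Ω → K₂) (κw : Ω → K₃)
    (κt : Ω → K₄) (h1 : ∀ x y, κw' x = κw' y → κq x = κq y)
    (h2 : ∀ x y, κw' x = κw' y → κw x = κw y) (hc : Commute (cE κw) (cE κq))
    (h3 : ∀ x y, κt x = κt y → ∃ z, κw x = κw z ∧ κq z = κq y) (f : Ω → ℝ) :
    dir κw' f + dir κt (cE κq *ᵥ f) ≤ dir κw f := by
  rw [dir_add h2]
  refine add_le_add le_rfl (le_trans ?_ (cE_nsq_le κq _))
  rw [mulVec_sub, mulVec_mulVec, cE_mul_cE' h1]
  refine dir_le_of_const _ fun x y hxy => ?_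
  obtain ⟨z, hz1, hz2⟩ := h3 x y hxy
  rw [← cE_mulVec_eq κq _ hz2, mulVec_mulVec, ← hc.eq, ← mulVec_mulVec]
  exact cE_mulVec_eq κw _ hz1

theorem dir_three_point {Ω K : Type} [Fintype Ω] (o : Ω → K) (π : Ω → Fin 3 → Bool)
    (h : ∀ x y, ∃ w, π x w = π y w) (g : Ω → ℝ) :
    dir o g ≤ ∑ w, dir (fun x => (o x, π x w)) g := by
  classical
  simp only [dir_eq_pairs]
  refine le_of_le_of_eq (Finset.sum_le_sum fun x _ => ?_) Finset.sum_comm
  refine le_of_le_of_eq (Finset.sum_le_sum fun y _ => ?_) Finset.sum_comm
  have hnn : ∀ w ∈ (univ : Finset (Fin 3)), 0 ≤ (if (o y, π y w) = (o x, π x w) then (g x - g y) ^ 2 /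
      (2 * ((univ.filter fun z => (o z, π z w) = (o x, π x w)).card : ℝ)) else 0) :=
    fun w _ => by split_ifs <;> positivity
  split_ifs with hxy
  · obtain ⟨w, hw⟩ := h x y
    refine le_trans ?_ (Finset.single_le_sum hnn (mem_univ w))
    rw [if_pos (by rw [hxy, hw])]
    have hp := card_cls_pos (fun z => (o z, π z w)) x
    refine div_le_div_of_nonneg_left (sq_nonneg _) (by positivity) ?_
    refine mul_le_mul_of_nonneg_left ?_ (by norm_num)
    exact_mod_cast Finset.card_le_card fun z hz => by
      simp only [Finset.mem_filter, mem_univ, true_and, Prod.mk.injEq] at hz ⊢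
      exact hz.1
  · exact Finset.sum_nonneg hnn

section

variable {Φ C : Type} [Fintype Φ] [Fintype C] [DecidableEq C]

/-- The numbers of columns of each pattern, and the columns outside `U`. -/
def outK (X : Φ → C → Fin 3 → Bool) (U : Finset C) (x : Φ) :
    ((Fin 3 → Bool) → ℕ) × (C → Option (Fin 3 → Bool)) :=
  (fun π => (univ.filter fun k => X x k = π).card, fun k => if k ∈ U then none else some (X x k))

omit [Fintype Φ] in
theorem outK_iff (X : Φ → C → Fin 3 → Bool) (U : Finset C) (x y : Φ) :
    outK X U x = outK X U y ↔ ∃ σ : Equiv.Perm C, (∀ k, X y k = X x (σ k)) ∧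
      ∀ k, k ∉ U → σ k = k := by
  constructor
  · intro h
    have h1 : ∀ π, (univ.filter fun k => X x k = π).card = (univ.filter fun k => X y k = π).card :=
      congrFun (congrArg Prod.fst h)
    have h2 : ∀ k, k ∉ U → X x k = X y k := fun k hk => by
      have := congrFun (congrArg Prod.snd h) k
      simpa [outK, hk] using this
    obtain ⟨σ, hσ⟩ := exists_perm_of_card (fun k => (X x k, if k ∈ U then none else some k))
      (fun k => (X y k, if k ∈ U then none else some k)) (fun b => by
        obtain ⟨π, _ | k₀⟩ := b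
        · have e : ∀ z : Φ, (univ.filter fun k =>
              (X z k, if k ∈ U then none else some k) = (π, none)).card
              + (univ.filter fun k => X z k = π ∧ k ∉ U).card
              = (univ.filter fun k => X z k = π).card := fun z => by
            rw [← Finset.card_filter_add_card_filter_not (s := univ.filter fun k => X z k = π)
              (fun k => k ∈ U), Finset.filter_filter, Finset.filter_filter]
            congr 2
            ext k; simp
          have e2 : (univ.filter fun k => X x k = π ∧ k ∉ U)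
              = univ.filter fun k => X y k = π ∧ k ∉ U :=
            Finset.filter_congr fun k _ => and_congr_left fun hk => by rw [h2 k hk]
          have := e x
          have := e y
          have := h1 π
          rw [e2] at *
          omega
        · congr 1
          refine Finset.filter_congr fun k _ => ?_
          by_cases hk : k ∈ U
          · simp [hk]
          · simp [hk, h2 k hk])
    refine ⟨σ, fun k => (congrArg Prod.fst (hσ k)).symm, fun k hk => ?_⟩
    have := congrArg Prod.snd (hσ k)
    simp only [if_neg hk] at this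
    split_ifs at this
    exact Option.some.inj this
  · rintro ⟨σ, h1, h2⟩
    refine Prod.ext ?_ ?_
    · funext π
      simp only [outK, h1]
      exact (Finset.card_equiv σ (by simp)).symm
    · funext k
      simp only [outK]
      split_ifs with hk
      · rfl
      · rw [h1, h2 k hk]

variable (X : Φ → C → Fin 3 → Bool) (hX : Function.Injective X) (r : Fin 3 → ℕ) (c : C → ℕ)
  (hr : ∀ M, M ∈ Set.range X ↔
    (∀ w, ∑ k, (M k w).toNat = r w) ∧ ∀ k, ∑ w, (M k w).toNat = c k)

include hr

omit [Fintype Φ] [DecidableEq C] in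
theorem exists_act (σ : Equiv.Perm C) (hσ : ∀ k, c (σ k) = c k) (x : Φ) :
    ∃ y, ∀ k, X y k = X x (σ k) := by
  obtain ⟨h1, h2⟩ := (hr (X x)).1 ⟨x, rfl⟩
  obtain ⟨y, hy⟩ := (hr (fun k => X x (σ k))).2 ⟨fun w => by
    rw [← h1 w]; exact Equiv.sum_comp σ (fun k => (X x k w).toNat), fun k => by rw [h2, hσ]⟩
  exact ⟨y, congrFun hy⟩

omit [Fintype Φ] [DecidableEq C] in
theorem col_of_eq {x y : Φ} {k l : C} (h : X y k = X x l) : c l = c k := by
  rw [← ((hr (X x)).1 ⟨x, rfl⟩).2 l, ← ((hr (X y)).1 ⟨y, rfl⟩).2 k, h]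

include hX

theorem comm_outK {K : Type} (U : Finset C) (κ : Φ → K)
    (hκ : ∀ (σ : Equiv.Perm C) x y x' y', (∀ k, k ∉ U → σ k = k) → (∀ k, X x' k = X x (σ k)) →
      (∀ k, X y' k = X y (σ k)) → κ y = κ x → κ y' = κ x') :
    Commute (cE κ) (cE (outK X U)) := by
  refine cE_comm fun x x' h => ?_
  obtain ⟨σ, h1, h2⟩ := (outK_iff X U x x').1 h
  choose T hT using exists_act X r c hr σ (fun k => col_of_eq X r c hr (h1 k))
  refine ⟨T, fun y hy => ⟨hκ σ x y x' _ h2 h1 (hT y) hy,
    ((outK_iff X U y (T y)).2 ⟨σ, hT y, h2⟩).symm⟩, fun y _ z _ hyz => hX ?_⟩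
  funext k
  have := hT y (σ.symm k)
  rw [hyz, hT] at this
  simpa using this.symm

theorem multislice (f : Φ → ℝ) (U : Finset C) :
    dir (outK X U) f ≤ ∑ w, dir (fun x => (outK X U x, fun k => X x k w)) f := by
  induction U using Finset.induction_on with
  | empty =>
    rw [dir_eq_zero_of_injective]
    · exact Finset.sum_nonneg fun w _ => dir_nonneg _ _
    · intro x y h
      obtain ⟨σ, h1, h2⟩ := (outK_iff X ∅ x y).1 h
      exact hX (funext fun k => by rw [h1, h2 k (by simp)])
  | insert k U hk ih =>
    have hfine : ∀ x y, outK X U x = outK X U y → outK X (insert k U) x = outK X (insert k U) y :=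
      fun x y h => by
        obtain ⟨σ, h1, h2⟩ := (outK_iff X U x y).1 h
        exact (outK_iff X _ x y).2 ⟨σ, h1, fun l hl => h2 l fun h => hl (mem_insert_of_mem h)⟩
    have h1 : dir (outK X (insert k U)) f
        = dir (outK X U) f + dir (outK X (insert k U)) (cE (outK X U) *ᵥ f) := by
      rw [dir_add hfine, dir, dir, mulVec_mulVec, cE_mul_cE' hfine]
    rw [h1]
    refine (add_le_add ih (dir_three_point _ (fun x => X x k) (fun x y => ?_) _)).trans ?_
    · have hx := ((hr (X x)).1 ⟨x, rfl⟩).2 k
      have hy := ((hr (X y)).1 ⟨y, rfl⟩).2 k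
      rw [← hy, Fin.sum_univ_three, Fin.sum_univ_three] at hx
      by_contra hcon
      push Not at hcon
      have h0 := hcon 0
      have h1 := hcon 1
      have h2 := hcon 2
      revert hx h0 h1 h2
      cases X x k 0 <;> cases X x k 1 <;> cases X x k 2 <;>
        cases X y k 0 <;> cases X y k 1 <;> cases X y k 2 <;> decide
    rw [← Finset.sum_add_distrib]
    refine Finset.sum_le_sum fun w _ => dir_step (outK X U)
      (fun x => (outK X U x, fun k => X x k w))
      (fun x => (outK X (insert k U) x, fun k => X x k w))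
      (fun x => (outK X (insert k U) x, X x k w)) (fun x y h => congrArg Prod.fst h)
      (fun x y h => Prod.ext (hfine _ _ (congrArg Prod.fst h)) (Prod.ext_iff.1 h).2) ?_ ?_ f
    · refine comm_outK X hX r c hr U _ fun σ x y x' y' h2 hx hy h => ?_
      have h3 : ∀ l, l ∉ insert k U → σ l = l := fun l hl => h2 l fun h => hl (mem_insert_of_mem h)
      refine Prod.ext ?_ ?_
      · exact ((outK_iff X _ y y').2 ⟨σ, hy, h3⟩).symm.trans
          ((congrArg Prod.fst h).trans ((outK_iff X _ x x').2 ⟨σ, hx, h3⟩))
      · funext l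
        simp only [hx, hy]
        exact congrFun (congrArg Prod.snd h) (σ l)
    · intro x y h
      obtain ⟨σ, h2, h3⟩ := (outK_iff X _ x y).1 (congrArg Prod.fst h)
      have h4 : X x k w = X y k w := congrArg Prod.snd h
      have h5 : σ k ∈ insert k U := by
        by_contra hcon
        exact hcon (by rw [σ.injective (h3 _ hcon)]; exact mem_insert_self _ _)
      have h6 : ∀ l, l ∉ insert k U → Equiv.swap k (σ k) l = l := fun l hl =>
        Equiv.swap_apply_of_ne_of_ne (fun h => hl (h ▸ mem_insert_self _ _)) (fun h => hl (h ▸ h5))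
      obtain ⟨z, hz⟩ := exists_act X r c hr (Equiv.swap k (σ k)) (fun l => by
        have := col_of_eq X r c hr (h2 k)
        rw [Equiv.swap_apply_def]; split_ifs with a b
        · rw [a, this]
        · rw [b, this]
        · rfl) x
      refine ⟨z, Prod.ext ((outK_iff X _ x z).2 ⟨_, hz, h6⟩) ?_, ?_⟩
      · funext l
        simp only [hz]
        rw [Equiv.swap_apply_def]; split_ifs with a b
        · rw [a, ← h2, h4]
        · rw [b, ← h2, h4]
        · rfl
      · refine (outK_iff X U z y).2 ⟨Equiv.swap k (σ k) * σ, fun l => by simp [hz, h2], ?_⟩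
        intro l hl
        by_cases hlk : l = k
        · simp [hlk]
        · have hl' : l ∉ insert k U := by simp [hlk, hl]
          rw [Equiv.Perm.mul_apply, h3 l hl', h6 l hl']

omit [Fintype Φ] [DecidableEq C] hX in
theorem exists_row_of_sing (w : Fin 3) (x y : Φ) (h : sing (X x) w = sing (X y) w) :
    ∃ σ : Equiv.Perm C, (∀ k, c (σ k) = c k) ∧ ∀ k, X y (σ k) w = X x k w := by
  have hcol : ∀ z k, ∑ v, (X z k v).toNat = c k := fun z => ((hr (X z)).1 ⟨z, rfl⟩).2
  have hb : ∀ z k, (X z k w = true → c k = 1 ∨ c k = 2 ∨ c k = 3) ∧ (c k = 3 → X z k w = true) := by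
    intro z k
    rw [← hcol z k, Fin.sum_univ_three]
    fin_cases w <;> simp only [Fin.zero_eta, Fin.mk_one, Fin.reduceFinMk] <;>
      cases X z k 0 <;> cases X z k 1 <;> cases X z k 2 <;> decide
  set N : Φ → ℕ → ℕ := fun z t => (univ.filter fun k => c k = t ∧ X z k w = true).card with hN
  have h1 : ∀ z, N z 1 = sing (X z) w := fun z => by simp only [hN, sing, hcol]
  have h3 : ∀ z, N z 3 = (univ.filter fun k => c k = 3).card := fun z => by
    simp only [hN]
    congr 1
    exact Finset.filter_congr fun k _ => ⟨fun h => h.1, fun h => ⟨h, (hb z k).2 h⟩⟩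
  have h2 : ∀ z, N z 1 + N z 2 + N z 3 = r w := fun z => by
    rw [← ((hr (X z)).1 ⟨z, rfl⟩).1 w]
    simp only [hN, Finset.card_filter, ← Finset.sum_add_distrib]
    refine Finset.sum_congr rfl fun k _ => ?_
    have := (hb z k).1
    cases hz : X z k w
    · simp
    · rcases this hz with h | h | h <;> simp [h]
  have h4 : ∀ t, N x t = N y t := fun t => by
    by_cases ht : t = 1 ∨ t = 2 ∨ t = 3
    · have := h1 x; have := h1 y; have := h2 x; have := h2 y; have := h3 x; have := h3 y
      rcases ht with rfl | rfl | rfl <;> omega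
    · have : ∀ z, N z t = 0 := fun z => by
        simp only [hN, Finset.card_eq_zero, Finset.filter_eq_empty_iff]
        rintro k - ⟨rfl, hk⟩
        exact ht ((hb z k).1 hk)
      rw [this, this]
  obtain ⟨σ, hσ⟩ := exists_perm_of_card (fun k => (c k, X y k w)) (fun k => (c k, X x k w))
    (fun b => by
      obtain ⟨t, _ | _⟩ := b
      · have e : ∀ z, N z t + (univ.filter fun k => (c k, X z k w) = (t, false)).card
            = (univ.filter fun k => c k = t).card := fun z => by
          rw [← Finset.card_filter_add_card_filter_not (s := univ.filter fun k => c k = t)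
            (fun k => X z k w = true), Finset.filter_filter, Finset.filter_filter]
          congr 2
          ext k; simp
        have := e x; have := e y; have := h4 t
        omega
      · simpa [hN] using (h4 t).symm)
  exact ⟨σ, fun k => congrArg Prod.fst (hσ k), fun k => congrArg Prod.snd (hσ k)⟩

end

/-- The three-row inequality for zero-one matrices with fixed margins. -/
theorem three_row {Φ C : Type} [Fintype Φ] [Fintype C] [DecidableEq C]
    (X : Φ → C → Fin 3 → Bool) (hX : Function.Injective X) (r : Fin 3 → ℕ) (c : C → ℕ)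
    (hr : ∀ M, M ∈ Set.range X ↔
      (∀ w, ∑ k, (M k w).toNat = r w) ∧ ∀ k, ∑ w, (M k w).toNat = c k)
    (f : Φ → ℝ) : dir (fun _ => ()) f ≤ ∑ w, dir (fun x k => X x k w) f := by
  have h1 : dir (fun _ => ()) f
      = dir (outK X univ) f + dir (fun _ => ()) (cE (outK X univ) *ᵥ f) := by
    rw [dir_add (κ := outK X univ) (fun _ _ _ => rfl), dir, dir, mulVec_mulVec,
      cE_mul_cE' (fun _ _ _ => rfl)]
  rw [h1]
  refine (add_le_add (multislice X hX r c hr f univ) (scalar_three (fun w x => sing (X x) w)
    (univ.filter fun k => c k = 1).card (fun x => ?_)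
    (fun w w' hw s s' y y' hs hy => sing_rr X hX r c hr w w' hw s s' y y' hs hy) _)).trans ?_
  · simp only [sing, Finset.card_filter]
    rw [Finset.sum_comm]
    refine Finset.sum_congr rfl fun k _ => ?_
    rw [← ((hr (X x)).1 ⟨x, rfl⟩).2 k]
    simp only [Fin.sum_univ_three]
    cases X x k 0 <;> cases X x k 1 <;> cases X x k 2 <;> decide
  rw [← Finset.sum_add_distrib]
  refine Finset.sum_le_sum fun w _ => dir_step (outK X univ)
    (fun x => (outK X univ x, fun k => X x k w)) (fun x k => X x k w) (fun x => sing (X x) w)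
    (fun x y h => congrArg Prod.fst h) (fun x y h => congrArg Prod.snd h) ?_ ?_ f
  · refine comm_outK X hX r c hr univ _ fun σ x y x' y' _ hx hy h => ?_
    funext l
    simp only [hx, hy]
    exact congrFun h (σ l)
  · intro x y h
    obtain ⟨σ, h2, h3⟩ := exists_row_of_sing X r c hr w x y h
    obtain ⟨z, hz⟩ := exists_act X r c hr σ h2 y
    exact ⟨z, funext fun k => by rw [hz, h3],
      ((outK_iff X univ y z).2 ⟨σ, hz, by simp⟩).symm⟩

end Crest.Agent.R299
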