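import Crest.Agent.R299.CE

open Finset Matrix

namespace Crest.Agent.R299

variable {Φ A : Type} [Fintype Φ] [Fintype A] [DecidableEq A]

section aux
variable {s : Φ → A → Bool} {τ : A → A → Φ → Φ}

omit [Fintype Φ] [Fintype A] in
theorem two_invol (hs : Function.Injective s)
    (hτ : ∀ k l x, s (τ k l x) = s x ∘ Equiv.swap k l) (k l : A) :
    Function.Involutive (τ k l) := fun x => hs (by
  rw [hτ, hτ]; funext a; simp)

omit [Fintype A] in
theorem two_sum_tau (hs : Function.Injective s)
    (hτ : ∀ k l x, s (τ k l x) = s x ∘ Equiv.swap k l) (k l : A) (φ : Φ → ℝ) :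
    ∑ x, φ (τ k l x) = ∑ x, φ x :=
  Equiv.sum_comp ((two_invol hs hτ k l).toPerm) φ

/-- The entries outside `U`. -/
def twoKey (s : Φ → A → Bool) (U : Finset A) (x : Φ) : A → Bool :=
  fun a => if a ∈ U then false else s x a

omit [Fintype Φ] [Fintype A] in
theorem twoKey_eq {U : Finset A} {x y : Φ} :
    twoKey s U y = twoKey s U x ↔ ∀ a, a ∉ U → s y a = s x a := by
  constructor
  · intro h a ha
    simpa [twoKey, ha] using congrFun h a
  · intro h
    funext a
    by_cases ha : a ∈ U
    · simp [twoKey, ha]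
    · simp [twoKey, ha, h a ha]

omit [Fintype Φ] in
theorem two_count (hc : ∀ x y, ∑ k, (s x k).toNat = ∑ k, (s y k).toNat) {U : Finset A} {x y : Φ}
    (h : twoKey s U y = twoKey s U x) (b : Bool) :
    (U.filter fun l => s y l = b).card = (U.filter fun l => s x l = b).card := by
  have key : ∀ z : Φ, (U.filter fun l => s z l = true).card = ∑ l ∈ U, (s z l).toNat := by
    intro z
    rw [Finset.card_filter]
    refine Finset.sum_congr rfl fun u _ => ?_
    cases s z u <;> simp
  have ht : (U.filter fun l => s y l = true).card = (U.filter fun l => s x l = true).card := by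
    rw [key, key]
    have h1 := hc y x
    rw [← Finset.sum_add_sum_compl U, ← Finset.sum_add_sum_compl U (fun k => (s x k).toNat)] at h1
    have h3 : ∑ u ∈ Uᶜ, (s y u).toNat = ∑ u ∈ Uᶜ, (s x u).toNat :=
      Finset.sum_congr rfl fun u hu => by rw [twoKey_eq.1 h u (Finset.mem_compl.1 hu)]
    omega
  cases b
  · have e1 := Finset.card_filter_add_card_filter_not (s := U) (fun l => s y l = true)
    have e2 := Finset.card_filter_add_card_filter_not (s := U) (fun l => s x l = true)
    simp only [Bool.not_eq_true] at e1 e2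
    omega
  · exact ht

theorem two_avg (hs : Function.Injective s)
    (hc : ∀ x y, ∑ k, (s x k).toNat = ∑ k, (s y k).toNat)
    (hτ : ∀ k l x, s (τ k l x) = s x ∘ Equiv.swap k l) {U : Finset A} {k : A} (hk : k ∉ U)
    (x : Φ) (φ : Φ → ℝ) :
    ∑ z with twoKey s U z = twoKey s U x, ∑ l ∈ insert k U, φ (τ k l z)
      = ((insert k U).filter fun l => s x l = s x k).card
        * ∑ y with twoKey s (insert k U) y = twoKey s (insert k U) x, φ y := by
  rw [Finset.sum_comm]
  have h1 : ∀ l ∈ insert k U, ∑ z with twoKey s U z = twoKey s U x, φ (τ k l z)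
      = ∑ y with twoKey s (insert k U) y = twoKey s (insert k U) x,
          if s y l = s x k then φ y else 0 := by
    intro l hl
    rw [Finset.sum_filter, Finset.sum_filter,
      ← two_sum_tau hs hτ k l (fun z => if twoKey s U z = twoKey s U x then φ (τ k l z) else 0)]
    refine Finset.sum_congr rfl fun y _ => ?_
    rw [two_invol hs hτ k l y, ← ite_and]
    refine if_congr ?_ rfl rfl
    rw [twoKey_eq, twoKey_eq, hτ]
    constructor
    · intro h
      refine ⟨fun a ha => ?_, by simpa using h k hk⟩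
      have hak : a ≠ k := by rintro rfl; simp at ha
      have hal : a ≠ l := by rintro rfl; exact ha hl
      simpa [Equiv.swap_apply_of_ne_of_ne hak hal] using
        h a (fun h' => ha (Finset.mem_insert_of_mem h'))
    · rintro ⟨h, h'⟩ a ha
      by_cases hak : a = k
      · subst hak; simpa using h'
      · have ha' : a ∉ insert k U := by simp [hak, ha]
        have hal : a ≠ l := by rintro rfl; exact ha' hl
        simpa [Equiv.swap_apply_of_ne_of_ne hak hal] using h a ha'
  rw [Finset.sum_congr rfl h1, Finset.sum_comm, Finset.mul_sum]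
  refine Finset.sum_congr rfl fun y hy => ?_
  rw [← Finset.sum_filter, Finset.sum_const, nsmul_eq_mul,
    two_count hc (Finset.mem_filter.1 hy).2]

theorem two_cE (hs : Function.Injective s)
    (hc : ∀ x y, ∑ k, (s x k).toNat = ∑ k, (s y k).toNat)
    (hτ : ∀ k l x, s (τ k l x) = s x ∘ Equiv.swap k l) {U : Finset A} {k : A} (hk : k ∉ U)
    (f : Φ → ℝ) :
    cE (twoKey s (insert k U)) *ᵥ f = cE (twoKey s U) *ᵥ
      fun z => (∑ l ∈ insert k U, f (τ k l z)) / (insert k U).card := by
  funext x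
  rw [cE_mulVec, cE_mulVec, ← Finset.sum_div, two_avg hs hc hτ hk]
  have h1 := two_avg hs hc hτ hk x (fun _ => 1)
  simp only [Finset.sum_const, nsmul_eq_mul, mul_one] at h1
  have p1 := card_cls_pos (twoKey s U) x
  have p2 := card_cls_pos (twoKey s (insert k U)) x
  have p3 : (0 : ℝ) < (insert k U).card := by
    exact_mod_cast Finset.card_pos.2 (Finset.insert_nonempty k U)
  rw [div_div, div_eq_div_iff p2.ne' (mul_pos p3 p1).ne', mul_comm ((insert k U).card : ℝ), h1]
  ring

theorem two_aux (hs : Function.Injective s)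
    (hc : ∀ x y, ∑ k, (s x k).toNat = ∑ k, (s y k).toNat)
    (hτ : ∀ k l x, s (τ k l x) = s x ∘ Equiv.swap k l) (f : Φ → ℝ) (U : Finset A) :
    dir (twoKey s U) f ≤ ∑ k ∈ U, ∑ l, ∑ x, (f x - f (τ k l x)) ^ 2 := by
  induction U using Finset.induction_on with
  | empty =>
    rw [dir_eq_zero_of_injective]
    · simp
    · intro x y h
      exact hs (funext fun a => twoKey_eq.1 h a (by simp))
  | insert k U hk ih =>
    rw [dir_add (κ := twoKey s U) (fun x y h => twoKey_eq.2 fun a ha =>
      twoKey_eq.1 h a fun h' => ha (Finset.mem_insert_of_mem h')), Finset.sum_insert hk,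
      two_cE hs hc hτ hk, ← mulVec_sub, add_comm]
    refine add_le_add ((cE_nsq_le _ _).trans ?_) ih
    rw [Finset.sum_comm, dotProduct]
    refine Finset.sum_le_sum fun x _ => ?_
    have p3 : (1 : ℝ) ≤ (insert k U).card := by
      exact_mod_cast Finset.card_pos.2 (Finset.insert_nonempty k U)
    have e : f x - (∑ l ∈ insert k U, f (τ k l x)) / (insert k U).card
        = (∑ l ∈ insert k U, (f x - f (τ k l x))) / (insert k U).card := by
      rw [Finset.sum_sub_distrib, Finset.sum_const, nsmul_eq_mul]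
      field_simp
    have hcs := sq_sum_le_card_mul_sum_sq (s := insert k U) (f := fun l => f x - f (τ k l x))
    have hle : ∑ l ∈ insert k U, (f x - f (τ k l x)) ^ 2 ≤ ∑ l, (f x - f (τ k l x)) ^ 2 :=
      Finset.sum_le_sum_of_subset_of_nonneg (Finset.subset_univ _) fun _ _ _ => sq_nonneg _
    have h0 : 0 ≤ ∑ l ∈ insert k U, (f x - f (τ k l x)) ^ 2 :=
      Finset.sum_nonneg fun _ _ => sq_nonneg _
    simp only [Pi.sub_apply]
    rw [e, ← sq, div_pow, div_le_iff₀ (by positivity)]
    calc _ ≤ _ := hcs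
      _ ≤ ((insert k U).card : ℝ) ^ 2 * ∑ l ∈ insert k U, (f x - f (τ k l x)) ^ 2 :=
        mul_le_mul_of_nonneg_right (by nlinarith) h0
      _ ≤ _ := by rw [mul_comm]; exact mul_le_mul_of_nonneg_right hle (by positivity)

/-- The sum of `g` over the points where `k` and `l` are split. -/
noncomputable def twoC (s : Φ → A → Bool) (g : Φ → ℝ) (k l : A) : ℝ :=
  ∑ x, if s x k ≠ s x l then g x else 0

omit [Fintype A] [DecidableEq A] in
theorem twoC_symm (g : Φ → ℝ) (k l : A) : twoC s g k l = twoC s g l k :=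
  Finset.sum_congr rfl fun _ _ => if_congr ne_comm rfl rfl

omit [Fintype A] [DecidableEq A] in
theorem twoC_self (g : Φ → ℝ) (k : A) : twoC s g k k = 0 := by simp [twoC]

omit [Fintype A] in
theorem twoC_sub_sq (hs : Function.Injective s)
    (hτ : ∀ k l x, s (τ k l x) = s x ∘ Equiv.swap k l) (g : Φ → ℝ) {k l m : A} (hl : k ≠ l)
    (hm : k ≠ m) : (twoC s g k l - twoC s g k m) ^ 2
      ≤ twoC s (fun _ => 1) l m / 4 * ∑ x, (g x - g (τ l m x)) ^ 2 := by
  set ψ : Φ → ℝ := fun z => (if s z k ≠ s z l then 1 else 0) - (if s z k ≠ s z m then 1 else 0)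
    with hψ
  have h1 : twoC s g k l - twoC s g k m = ∑ z, g z * ψ z := by
    rw [twoC, twoC, ← Finset.sum_sub_distrib]
    refine Finset.sum_congr rfl fun z _ => ?_
    simp only [hψ]; split_ifs <;> ring
  have h2 : ∀ z, ψ (τ l m z) = -ψ z := by
    intro z
    simp only [hψ, hτ, Function.comp_apply, Equiv.swap_apply_left, Equiv.swap_apply_right,
      Equiv.swap_apply_of_ne_of_ne hl hm]
    ring
  have h3 : ∑ z, g z * ψ z = -∑ z, g (τ l m z) * ψ z := by
    rw [← two_sum_tau hs hτ l m (fun z => g z * ψ z), ← Finset.sum_neg_distrib]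
    exact Finset.sum_congr rfl fun z _ => by rw [h2]; ring
  have h4 : 2 * (twoC s g k l - twoC s g k m) = ∑ z, (g z - g (τ l m z)) * ψ z := by
    simp only [sub_mul, Finset.sum_sub_distrib]
    rw [h1]; linarith
  have h5 : ∑ z, ψ z ^ 2 = twoC s (fun _ => 1) l m := by
    refine Finset.sum_congr rfl fun z _ => ?_
    simp only [hψ]
    cases s z k <;> cases s z l <;> cases s z m <;> simp
  have h6 := Finset.sum_mul_sq_le_sq_mul_sq univ (fun z => g z - g (τ l m z)) ψ
  rw [← h4, h5] at h6
  linarith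

omit [Fintype A] in
theorem twoC_one (hs : Function.Injective s)
    (hτ : ∀ k l x, s (τ k l x) = s x ∘ Equiv.swap k l) {k l k' l' : A} (h : k ≠ l)
    (h' : k' ≠ l') : twoC s (fun _ => 1) k l = twoC s (fun _ => 1) k' l' := by
  have key : ∀ {k l m : A}, k ≠ l → k ≠ m →
      twoC s (fun _ => 1) k l = twoC s (fun _ => 1) k m := by
    intro k l m hl hm
    have := twoC_sub_sq hs hτ (fun _ => 1) hl hm
    simp only [sub_self, ne_eq, OfNat.ofNat_ne_zero, not_false_eq_true, zero_pow,
      Finset.sum_const_zero, mul_zero] at this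
    exact sub_eq_zero.1 (pow_eq_zero_iff (two_ne_zero) |>.1 (le_antisymm this (sq_nonneg _)))
  by_cases hk : k' = l
  · subst hk
    rw [twoC_symm, key h.symm h']
  · rw [twoC_symm, key h.symm (Ne.symm hk), twoC_symm, key hk h']

theorem twoC_sum (hc : ∀ x y, ∑ k, (s x k).toNat = ∑ k, (s y k).toNat) (g : Φ → ℝ)
    (hg : ∑ x, g x = 0) : ∑ k, ∑ l, twoC s g k l = 0 := by
  have h1 : ∀ x, ∑ k, ∑ l, (if s x k ≠ s x l then g x else 0)
      = 2 * (∑ k, ((s x k).toNat : ℝ)) * (Fintype.card A - ∑ k, ((s x k).toNat : ℝ)) * g x := by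
    intro x
    have : ∀ k l, (if s x k ≠ s x l then g x else 0)
        = ((s x k).toNat + (s x l).toNat - 2 * ((s x k).toNat * (s x l).toNat)) * g x := by
      intro k l
      cases s x k <;> cases s x l <;> norm_num
    simp only [this, ← Finset.sum_mul, Finset.sum_sub_distrib, Finset.sum_add_distrib,
      ← Finset.mul_sum, Finset.sum_const, nsmul_eq_mul, Finset.card_univ]
    ring
  simp only [twoC]
  rw [Finset.sum_congr rfl fun k _ => Finset.sum_comm, Finset.sum_comm]
  simp only [h1]
  rcases isEmpty_or_nonempty Φ with hΦ | ⟨⟨x0⟩⟩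
  · simp
  have h2 : ∀ x, ∑ k, ((s x k).toNat : ℝ) = ∑ k, ((s x0 k).toNat : ℝ) := fun x => by
    exact_mod_cast hc x x0
  simp only [h2, ← Finset.mul_sum, hg, mul_zero]

theorem two_quad [Nontrivial A] (c R : A → A → ℝ) (hsym : ∀ k l, c k l = c l k)
    (h0 : ∀ k, c k k = 0) (hsum : ∑ k, ∑ l, c k l = 0) (hR : ∀ l m, 0 ≤ R l m)
    (h : ∀ k l m, k ≠ l → k ≠ m → (c k l - c k m) ^ 2 ≤ R l m) :
    ∑ k, ∑ l, c k l ^ 2 ≤ ∑ l, ∑ m, R l m := by
  set N : ℝ := (Fintype.card A : ℝ) with hN
  have hN2 : 2 ≤ N := by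
    rw [hN]; exact_mod_cast Fintype.one_lt_card
  set dg : A → ℝ := fun k => ∑ l, c k l with hdg
  set C : ℝ := ∑ k, ∑ l, c k l ^ 2 with hC
  set D : ℝ := ∑ k, dg k ^ 2 with hD
  have hC0 : 0 ≤ C := Finset.sum_nonneg fun _ _ => Finset.sum_nonneg fun _ _ => sq_nonneg _
  have hD0 : 0 ≤ D := Finset.sum_nonneg fun _ _ => sq_nonneg _
  have hdsum : ∑ k, dg k = 0 := hsum
  have h1 : ∀ k l m, (c k l - c k m) ^ 2 ≤ R l m + (if k = l then c k m ^ 2 else 0)
      + (if k = m then c k l ^ 2 else 0) := by
    intro k l m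
    have := hR l m
    by_cases hl : k = l
    · subst hl
      by_cases hm : k = m
      · subst hm; simp [h0, this]
      · simp [h0, hm, this]
    · by_cases hm : k = m
      · subst hm; simp [h0, hl, this]
      · simpa [hl, hm] using h k l m hl hm
  have h2 : ∑ k, ∑ l, ∑ m, (c k l - c k m) ^ 2 = 2 * N * C - 2 * D := by
    have : ∀ k, ∑ l, ∑ m, (c k l - c k m) ^ 2 = 2 * N * (∑ l, c k l ^ 2) - 2 * dg k ^ 2 := by
      intro k
      have : ∀ l m, (c k l - c k m) ^ 2 = c k l ^ 2 + c k m ^ 2 - 2 * (c k l * c k m) :=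
        fun l m => by ring
      simp only [this, Finset.sum_sub_distrib, Finset.sum_add_distrib, ← Finset.mul_sum,
        ← Finset.sum_mul, Finset.sum_const, nsmul_eq_mul, Finset.card_univ, hdg, hN]
      ring
    simp only [this, Finset.sum_sub_distrib, ← Finset.mul_sum, hC, hD]
  have h3 : ∑ k, ∑ l, ∑ m, (R l m + (if k = l then c k m ^ 2 else 0)
      + (if k = m then c k l ^ 2 else 0)) = N * (∑ l, ∑ m, R l m) + 2 * C := by
    simp only [Finset.sum_add_distrib, Finset.sum_ite_eq, Finset.mem_univ, if_true,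
      Finset.sum_const, nsmul_eq_mul, Finset.card_univ, hN]
    have : ∀ k : A, ∑ l, ∑ m, (if k = l then c k m ^ 2 else 0) = ∑ m, c k m ^ 2 := by
      intro k
      rw [Finset.sum_comm]
      simp
    simp only [this, hC]
    ring
  have h4 : 2 * N * C - 2 * D ≤ N * (∑ l, ∑ m, R l m) + 2 * C := by
    rw [← h2, ← h3]
    exact Finset.sum_le_sum fun k _ => Finset.sum_le_sum fun l _ =>
      Finset.sum_le_sum fun m _ => h1 k l m
  set e : A × A → ℝ := fun p => if p.1 = p.2 then 0 else dg p.1 + dg p.2 with he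
  have h5 : ∑ p : A × A, c p.1 p.2 * e p = 2 * D := by
    have : ∀ p : A × A, c p.1 p.2 * e p = c p.1 p.2 * dg p.1 + c p.2 p.1 * dg p.2 := by
      rintro ⟨k, l⟩
      by_cases hkl : k = l
      · subst hkl; simp [he, h0]
      · simp only [he, hkl, if_false, hsym l k]; ring
    simp only [this, Finset.sum_add_distrib, Fintype.sum_prod_type]
    rw [Finset.sum_comm (f := fun k l => c l k * dg l)]
    simp only [← Finset.sum_mul, hD, sq]
    ring
  have h6 : ∑ p : A × A, e p ^ 2 = 2 * (N - 2) * D := by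
    have : ∀ p : A × A, e p ^ 2 = dg p.1 ^ 2 + dg p.2 ^ 2 + 2 * (dg p.1 * dg p.2)
        - (if p.1 = p.2 then 4 * dg p.1 ^ 2 else 0) := by
      rintro ⟨k, l⟩
      by_cases hkl : k = l
      · subst hkl; simp [he]; ring
      · simp only [he, hkl, if_false]; ring
    simp only [this, Finset.sum_sub_distrib, Finset.sum_add_distrib, Fintype.sum_prod_type,
      Finset.sum_ite_eq, Finset.mem_univ, if_true, ← Finset.mul_sum, ← Finset.sum_mul, hdsum,
      Finset.sum_const, nsmul_eq_mul, Finset.card_univ, ← hN, ← hD]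
    ring
  have h7 := Finset.sum_mul_sq_le_sq_mul_sq univ (fun p : A × A => c p.1 p.2) e
  rw [h5, h6, Fintype.sum_prod_type] at h7
  have h8 : 2 * D ≤ (N - 2) * C := by
    rcases hD0.eq_or_lt with h | h
    · rw [← h]; have := mul_nonneg (sub_nonneg.2 hN2) hC0; linarith
    · refine le_of_mul_le_mul_right ?_ h
      simp only [← hC] at h7
      nlinarith
  refine le_of_mul_le_mul_left (a := N) ?_ (by linarith)
  linarith

end aux

/-- Poincare inequality on a slice of the cube. -/
theorem two_poincare (s : Φ → A → Bool) (hs : Function.Injective s)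
    (hc : ∀ x y, ∑ k, (s x k).toNat = ∑ k, (s y k).toNat) (τ : A → A → Φ → Φ)
    (hτ : ∀ k l x, s (τ k l x) = s x ∘ Equiv.swap k l) (f : Φ → ℝ) :
    dir (fun _ => ()) f ≤ ∑ k, ∑ l, ∑ x, (f x - f (τ k l x)) ^ 2 := by
  rw [dir_congr (κ' := twoKey s univ) (fun x y => by simp [twoKey_eq])]
  exact two_aux hs hc hτ f univ

/-- The correlations of `f` with the events "`k` and `l` are split". -/
theorem two_split (s : Φ → A → Bool) (hs : Function.Injective s)
    (hc : ∀ x y, ∑ k, (s x k).toNat = ∑ k, (s y k).toNat) (τ : A → A → Φ → Φ)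
    (hτ : ∀ k l x, s (τ k l x) = s x ∘ Equiv.swap k l) (f : Φ → ℝ) :
    ∑ k, ∑ l, ∑ x, (if s x k ≠ s x l then
        ((cE (fun z => (s z k).toNat + (s z l).toNat) *ᵥ f) x - (cE (fun _ => ()) *ᵥ f) x) ^ 2
      else 0) ≤ 1 / 4 * ∑ k, ∑ l, ∑ x, (f x - f (τ k l x)) ^ 2 := by
  have hRHS : 0 ≤ ∑ k, ∑ l, ∑ x, (f x - f (τ k l x)) ^ 2 :=
    Finset.sum_nonneg fun _ _ => Finset.sum_nonneg fun _ _ => Finset.sum_nonneg fun _ _ =>
      sq_nonneg _
  rcases subsingleton_or_nontrivial A with hA | hA
  · rw [Finset.sum_eq_zero fun k _ => Finset.sum_eq_zero fun l _ => Finset.sum_eq_zero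
      fun x _ => by rw [Subsingleton.elim k l]; simp]
    positivity
  obtain ⟨k0, l0, hkl0⟩ := exists_pair_ne A
  set q := twoC s (fun _ => 1) k0 l0 with hq
  set μ : ℝ := (∑ x, f x) / Fintype.card Φ with hμ
  set g : Φ → ℝ := fun x => f x - μ with hg
  have hg0 : ∑ x, g x = 0 := by
    rcases isEmpty_or_nonempty Φ with hΦ | hΦ
    · simp
    have : (Fintype.card Φ : ℝ) ≠ 0 := by exact_mod_cast Fintype.card_ne_zero
    simp only [hg, Finset.sum_sub_distrib, Finset.sum_const, nsmul_eq_mul, Finset.card_univ, hμ]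
    field_simp
    ring
  have hq0 : 0 ≤ q := Finset.sum_nonneg fun _ _ => by split_ifs <;> simp
  have h1 : ∀ k l, ∑ x, (if s x k ≠ s x l then
        ((cE (fun z => (s z k).toNat + (s z l).toNat) *ᵥ f) x - (cE (fun _ => ()) *ᵥ f) x) ^ 2
      else 0) = twoC s g k l ^ 2 / q := by
    intro k l
    by_cases hkl : k = l
    · subst hkl; simp [twoC_self]
    have hqkl : q = ((univ.filter fun z => s z k ≠ s z l).card : ℝ) := by
      rw [hq, twoC_one hs hτ hkl0 hkl, twoC, ← Finset.sum_filter]; simp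
    have h2 : ∀ x, s x k ≠ s x l →
        (cE (fun z => (s z k).toNat + (s z l).toNat) *ᵥ f) x - (cE (fun _ => ()) *ᵥ f) x
          = twoC s g k l / q := by
      intro x hx
      have hfil : (univ.filter fun z => (s z k).toNat + (s z l).toNat
          = (s x k).toNat + (s x l).toNat) = univ.filter fun z => s z k ≠ s z l := by
        ext z
        simp only [Finset.mem_filter, Finset.mem_univ, true_and]
        revert hx
        cases s x k <;> cases s x l <;> cases s z k <;> cases s z l <;> simp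
      have hpos : (0 : ℝ) < ((univ.filter fun z => s z k ≠ s z l).card : ℝ) := by
        exact_mod_cast Finset.card_pos.2 ⟨x, by simpa using hx⟩
      rw [cE_mulVec, cE_mulVec, hfil, twoC, ← Finset.sum_filter, hqkl]
      simp only [Finset.filter_true, Finset.card_univ, ← hμ, hg, Finset.sum_sub_distrib,
        Finset.sum_const, nsmul_eq_mul]
      field_simp
    rw [Finset.sum_congr rfl (g := fun x => if s x k ≠ s x l then (twoC s g k l / q) ^ 2 else 0)
      (fun x _ => by
        by_cases hx : s x k ≠ s x l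
        · rw [if_pos hx, if_pos hx, h2 x hx]
        · rw [if_neg hx, if_neg hx]), ← Finset.sum_filter, Finset.sum_const, nsmul_eq_mul, ← hqkl]
    rcases hq0.eq_or_lt with h | h
    · rw [← h]; simp
    · field_simp
  simp only [h1, ← Finset.sum_div]
  rcases hq0.eq_or_lt with h | h
  · rw [← h, div_zero]; positivity
  rw [div_le_iff₀ h]
  have h3 := two_quad (twoC s g) (fun l m => q / 4 * ∑ x, (f x - f (τ l m x)) ^ 2)
    (twoC_symm g) (twoC_self g) (twoC_sum hc g hg0)
    (fun l m => mul_nonneg (by positivity) (Finset.sum_nonneg fun _ _ => sq_nonneg _))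
    (fun k l m hl hm => by
      by_cases hlm : l = m
      · subst hlm
        rw [sub_self, zero_pow two_ne_zero]
        exact mul_nonneg (by positivity) (Finset.sum_nonneg fun _ _ => sq_nonneg _)
      · have := twoC_sub_sq hs hτ g hl hm
        rw [twoC_one hs hτ hlm hkl0, ← hq] at this
        simpa [hg] using this)
  simp only [← Finset.mul_sum] at h3
  linarith

end Crest.Agent.R299
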